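import Vale.Agent.P064.Tools

namespace Vale.Agent.P064

open Finset
open scoped Pointwise

namespace CountAux

/-- subgraphs of the complete graph -/
abbrev SG (n : ℕ) := (⊤ : SimpleGraph (Fin n)).Subgraph

/-- permutations of the vertices act on subgraphs of the complete graph -/
def act {n : ℕ} (g : Equiv.Perm (Fin n)) (S : SG n) : SG n where
  verts := g '' S.verts
  Adj a b := S.Adj (g⁻¹ a) (g⁻¹ b)
  adj_sub := by
    intro a b h
    have h2 := S.adj_sub h
    simpa using h2
  edge_vert := by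
    intro a b h
    exact ⟨g⁻¹ a, S.edge_vert h, by simp⟩
  symm := ⟨fun _ _ h => SimpleGraph.Subgraph.Adj.symm h⟩

theorem act_one {n : ℕ} (S : SG n) : act 1 S = S := by
  apply SimpleGraph.Subgraph.ext
  · simp [act]
  · funext a b
    simp [act]

theorem act_mul {n : ℕ} (g h : Equiv.Perm (Fin n)) (S : SG n) :
    act (g * h) S = act g (act h S) := by
  apply SimpleGraph.Subgraph.ext
  · simp only [act, Equiv.Perm.coe_mul, Set.image_comp]
  · funext a b
    simp [act]

instance actSG (n : ℕ) : MulAction (Equiv.Perm (Fin n)) (SG n) where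
  smul := act
  one_smul := act_one
  mul_smul := act_mul

theorem smul_def {n : ℕ} (g : Equiv.Perm (Fin n)) (S : SG n) : g • S = act g S := rfl

theorem smul_adj {n : ℕ} (g : Equiv.Perm (Fin n)) (S : SG n) (a b : Fin n) :
    (g • S).Adj a b ↔ S.Adj (g⁻¹ a) (g⁻¹ b) := Iff.rfl

theorem smul_verts {n : ℕ} (g : Equiv.Perm (Fin n)) (S : SG n) :
    (g • S).verts = g '' S.verts := rfl

theorem iso_smul {n : ℕ} (g : Equiv.Perm (Fin n)) (S : SG n) :
    Nonempty (S.coe ≃g (g • S).coe) := by
  refine ⟨⟨Equiv.Set.image g S.verts g.injective, ?_⟩⟩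
  intro a b
  show S.Adj (g⁻¹ (g a.1)) (g⁻¹ (g b.1)) ↔ S.Adj a.1 b.1
  simp

theorem exists_smul {n : ℕ} (S T : SG n) (h : Nonempty (S.coe ≃g T.coe)) :
    ∃ g : Equiv.Perm (Fin n), g • S = T := by
  classical
  obtain ⟨e⟩ := h
  let f : {x // x ∈ S.verts} ≃ {x // x ∈ T.verts} := e.toEquiv
  refine ⟨f.extendSubtype, ?_⟩
  have hin : ∀ x (hx : x ∈ S.verts), f.extendSubtype x = (e ⟨x, hx⟩ : Fin n) := by
    intro x hx
    exact Equiv.extendSubtype_apply_of_mem f x hx
  have hverts : (f.extendSubtype : Fin n → Fin n) '' S.verts = T.verts := by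
    ext y
    constructor
    · rintro ⟨x, hx, rfl⟩
      rw [hin x hx]
      exact (e ⟨x, hx⟩).2
    · intro hy
      refine ⟨(e.symm ⟨y, hy⟩ : Fin n), (e.symm ⟨y, hy⟩).2, ?_⟩
      rw [hin _ (e.symm ⟨y, hy⟩).2]
      simp
  apply SimpleGraph.Subgraph.ext
  · exact hverts
  · funext a b
    apply propext
    rw [smul_adj]
    constructor
    · intro h
      have ha := S.edge_vert h
      have hb := S.edge_vert h.symm
      have h2 : (S.coe).Adj ⟨_, ha⟩ ⟨_, hb⟩ := h
      have h3 := e.map_adj_iff.2 h2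
      have h4 : T.Adj (e ⟨_, ha⟩ : Fin n) (e ⟨_, hb⟩ : Fin n) := h3
      rw [← hin _ ha, ← hin _ hb] at h4
      simpa using h4
    · intro h
      have ha := T.edge_vert h
      have hb := T.edge_vert h.symm
      have h2 : (T.coe).Adj ⟨_, ha⟩ ⟨_, hb⟩ := h
      have h3 := e.symm.map_adj_iff.2 h2
      have h4 : S.Adj (e.symm ⟨_, ha⟩ : Fin n) (e.symm ⟨_, hb⟩ : Fin n) := h3
      have key : ∀ y (hy : y ∈ T.verts), (f.extendSubtype)⁻¹ y = (e.symm ⟨y, hy⟩ : Fin n) := by
        intro y hy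
        rw [Equiv.Perm.inv_eq_iff_eq, hin _ (e.symm ⟨y, hy⟩).2]
        simp
      rw [key _ ha, key _ hb]
      exact h4

theorem orbit_eq {n : ℕ} (S : SG n) :
    MulAction.orbit (Equiv.Perm (Fin n)) S = {T : SG n | Nonempty (S.coe ≃g T.coe)} := by
  ext T
  constructor
  · rintro ⟨g, rfl⟩
    exact iso_smul g S
  · intro h
    exact exists_smul S T h

theorem copyCount_eq_ncard {V W : Type*} [Fintype V] (G : SimpleGraph V) (H : SimpleGraph W) :
    G.copyCount H = {G' : G.Subgraph | Nonempty (H ≃g G'.coe)}.ncard := by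
  classical
  rw [SimpleGraph.copyCount, Set.ncard_eq_toFinset_card']
  congr 1
  ext x
  simp

theorem orbit_stab {n : ℕ} {W : Type*} (K : SimpleGraph W) (S : SG n)
    (h : Nonempty (K ≃g S.coe)) :
    Nat.card (MulAction.stabilizer (Equiv.Perm (Fin n)) S) *
      (⊤ : SimpleGraph (Fin n)).copyCount K = Nat.factorial n := by
  obtain ⟨e⟩ := h
  have h1 : (⊤ : SimpleGraph (Fin n)).copyCount K =
      (MulAction.orbit (Equiv.Perm (Fin n)) S).ncard := by
    rw [copyCount_eq_ncard, orbit_eq]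
    congr 1
    ext T
    constructor
    · rintro ⟨f⟩
      exact ⟨f.comp e.symm⟩
    · rintro ⟨f⟩
      exact ⟨f.comp e⟩
  rw [h1, ← MulAction.index_stabilizer, Subgroup.card_mul_index]
  rw [Nat.card_eq_fintype_card, Fintype.card_perm, Fintype.card_fin]

/-- the copy of `H` in the complete graph given by the embedding -/
def cp {n : ℕ} {V : Type} (H : SimpleGraph V) (φ : V ↪ Fin n) :
    SimpleGraph.Copy H (⊤ : SimpleGraph (Fin n)) :=
  ⟨⟨φ, fun {a b} h => by
    rw [SimpleGraph.top_adj]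
    exact fun h' => h.ne (φ.injective h')⟩, φ.injective⟩

theorem cp_apply {n : ℕ} {V : Type} (H : SimpleGraph V) (φ : V ↪ Fin n) (a : V) :
    (cp H φ).toHom a = φ a := rfl

/-- image of a subgraph -/
def im {n : ℕ} {V : Type} (H : SimpleGraph V) (φ : V ↪ Fin n) (K : H.Subgraph) : SG n :=
  K.map (cp H φ).toHom

theorem im_iso {n : ℕ} {V : Type} (H : SimpleGraph V) (φ : V ↪ Fin n) (K : H.Subgraph) :
    Nonempty (K.coe ≃g (im H φ K).coe) :=
  ⟨(cp H φ).isoSubgraphMap K⟩

theorem im_adj {n : ℕ} {V : Type} (H : SimpleGraph V) (φ : V ↪ Fin n) (K : H.Subgraph)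
    (a b : Fin n) : (im H φ K).Adj a b ↔ ∃ a' b', K.Adj a' b' ∧ φ a' = a ∧ φ b' = b :=
  Iff.rfl

theorem im_verts {n : ℕ} {V : Type} (H : SimpleGraph V) (φ : V ↪ Fin n) (K : H.Subgraph) :
    (im H φ K).verts = φ '' K.verts := rfl

theorem im_injective {n : ℕ} {V : Type} (H : SimpleGraph V) (φ : V ↪ Fin n) :
    Function.Injective (im H φ) := by
  intro K L h
  have hv : (im H φ K).verts = (im H φ L).verts := by rw [h]
  rw [im_verts, im_verts] at hv
  apply SimpleGraph.Subgraph.ext
  · exact (Set.image_injective.2 φ.injective) hv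
  · funext a b
    apply propext
    have key : ∀ M : H.Subgraph, M.Adj a b ↔ (im H φ M).Adj (φ a) (φ b) := by
      intro M
      rw [im_adj]
      constructor
      · intro h
        exact ⟨a, b, h, rfl, rfl⟩
      · rintro ⟨a', b', h, ha, hb⟩
        rw [← φ.injective ha, ← φ.injective hb]
        exact h
    rw [key K, key L, h]

open Classical in
/-- edge set of a subgraph of the complete graph -/
noncomputable def es {n : ℕ} (S : SG n) : Finset (PE n) :=
  univ.filter (fun e => e.1 ∈ S.edgeSet)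

theorem mem_es {n : ℕ} (S : SG n) (e : PE n) : e ∈ es S ↔ e.1 ∈ S.edgeSet := by
  simp [es]

theorem es_card {n : ℕ} (S : SG n) : (es S).card = S.coe.edgeSet.ncard := by
  classical
  have h1 : S.coe.edgeSet.ncard = S.edgeSet.ncard := by
    rw [← SimpleGraph.Subgraph.image_coe_edgeSet_coe]
    exact (Set.ncard_image_of_injective _ (Sym2.map.injective Subtype.val_injective)).symm
  rw [h1]
  have h2 : S.edgeSet = (fun e : PE n => e.1) '' (es S : Set (PE n)) := by
    ext e
    constructor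
    · intro he
      refine ⟨⟨e, ?_⟩, ?_, rfl⟩
      · have := S.edgeSet_subset he
        exact SimpleGraph.not_isDiag_of_mem_edgeSet _ this
      · rw [Finset.mem_coe, mem_es]
        exact he
    · rintro ⟨e', he', rfl⟩
      rw [Finset.mem_coe, mem_es] at he'
      exact he'
  rw [h2, Set.ncard_image_of_injective _ Subtype.val_injective, Set.ncard_coe_finset]

theorem mem_edgeSet_smul {n : ℕ} (g : Equiv.Perm (Fin n)) (S : SG n) (e : Sym2 (Fin n)) :
    Sym2.map g e ∈ (g • S).edgeSet ↔ e ∈ S.edgeSet := by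
  induction e using Sym2.ind with
  | _ a b =>
    rw [Sym2.map_mk, SimpleGraph.Subgraph.mem_edgeSet, SimpleGraph.Subgraph.mem_edgeSet]
    simp [smul_adj]

theorem es_smul {n : ℕ} (g : Equiv.Perm (Fin n)) (S : SG n) : es (g • S) = g • es S := by
  classical
  ext e
  rw [mem_es]
  have : e ∈ g • es S ↔ g⁻¹ • e ∈ es S := by
    rw [Finset.mem_inv_smul_finset_iff.symm.trans]; simp
  have h3 : Sym2.map g (Sym2.map (⇑g⁻¹) e.1) = e.1 := by
    rw [Sym2.map_map]
    simp
  rw [this, mem_es, smulPE_val, ← mem_edgeSet_smul g S (Sym2.map (⇑g⁻¹) e.1), h3]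

/-- the subgraph without isolated vertices having edge set `U` -/
def sub {n : ℕ} (U : Finset (PE n)) : SG n where
  verts := {a | ∃ b, ∃ h : ¬ (s(a, b)).IsDiag, (⟨s(a, b), h⟩ : PE n) ∈ U}
  Adj a b := ∃ h : ¬ (s(a, b)).IsDiag, (⟨s(a, b), h⟩ : PE n) ∈ U
  adj_sub := by
    rintro a b ⟨h, _⟩
    simpa using h
  edge_vert := by
    rintro a b h
    exact ⟨b, h⟩
  symm := ⟨by
    rintro a b ⟨h, hU⟩
    have h2 : s(b, a) = s(a, b) := Sym2.eq_swap
    refine ⟨by rw [h2]; exact h, ?_⟩
    have h3 : (⟨s(b, a), by rw [h2]; exact h⟩ : PE n) = ⟨s(a, b), h⟩ := Subtype.ext h2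
    rw [h3]
    exact hU⟩

theorem sub_adj {n : ℕ} (U : Finset (PE n)) (a b : Fin n) :
    (sub U).Adj a b ↔ ∃ h : ¬ (s(a, b)).IsDiag, (⟨s(a, b), h⟩ : PE n) ∈ U := Iff.rfl

theorem sub_verts {n : ℕ} (U : Finset (PE n)) (a : Fin n) :
    a ∈ (sub U).verts ↔ ∃ b, (sub U).Adj a b := Iff.rfl

theorem es_sub {n : ℕ} (U : Finset (PE n)) : es (sub U) = U := by
  ext e
  obtain ⟨e, he⟩ := e
  rw [mem_es]
  induction e using Sym2.ind with
  | _ a b =>
    rw [SimpleGraph.Subgraph.mem_edgeSet, sub_adj]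
    constructor
    · rintro ⟨_, h⟩
      exact h
    · intro h
      exact ⟨he, h⟩

theorem adj_iff_es {n : ℕ} (S : SG n) (a b : Fin n) :
    S.Adj a b ↔ ∃ h : ¬ (s(a, b)).IsDiag, (⟨s(a, b), h⟩ : PE n) ∈ es S := by
  constructor
  · intro h
    have h1 : a ≠ b := S.adj_sub h
    exact ⟨by simpa using h1, by rw [mem_es]; exact h⟩
  · rintro ⟨h, h2⟩
    rw [mem_es] at h2
    exact h2

theorem sub_smul {n : ℕ} (U : Finset (PE n)) (g : Equiv.Perm (Fin n)) (h : g • U = U) :
    g • sub U = sub U := by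
  have hadj : ∀ a b, (g • sub U).Adj a b ↔ (sub U).Adj a b := by
    intro a b
    rw [adj_iff_es, adj_iff_es (sub U), es_smul, es_sub, h]
  apply SimpleGraph.Subgraph.ext
  · ext a
    rw [smul_verts]
    constructor
    · rintro ⟨x, hx, rfl⟩
      rw [sub_verts] at hx ⊢
      obtain ⟨y, hy⟩ := hx
      refine ⟨g y, ?_⟩
      rw [← hadj, smul_adj]
      simpa using hy
    · intro ha
      rw [sub_verts] at ha
      obtain ⟨b, hb⟩ := ha
      rw [← hadj, smul_adj] at hb
      exact ⟨g⁻¹ a, (sub_verts _ _).2 ⟨_, hb⟩, by simp⟩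
  · funext a b
    exact propext (hadj a b)

theorem mem_eset {n : ℕ} (G : SimpleGraph (Fin n)) (e : PE n) :
    e ∈ eset G ↔ e.1 ∈ G.edgeSet := by
  simp [eset]

theorem map_adj_iff {n : ℕ} {V : Type} (H : SimpleGraph V) (φ : V ↪ Fin n) (a b : V) :
    (H.map φ).Adj (φ a) (φ b) ↔ H.Adj a b := by
  simp

theorem es_im_subset {n : ℕ} {V : Type} (H : SimpleGraph V) (φ : V ↪ Fin n) (K : H.Subgraph) :
    es (im H φ K) ⊆ eset (H.map φ) := by
  intro e he
  obtain ⟨e, hd⟩ := e
  rw [mem_es] at he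
  rw [mem_eset]
  induction e using Sym2.ind with
  | _ a b =>
    rw [SimpleGraph.Subgraph.mem_edgeSet, im_adj] at he
    obtain ⟨a', b', h, rfl, rfl⟩ := he
    rw [SimpleGraph.mem_edgeSet, map_adj_iff]
    exact K.adj_sub h

end CountAux

open CountAux

theorem stab_bound {n : ℕ} {V : Type} [Finite V] (H : SimpleGraph V) (φ : V ↪ Fin n)
    (U : Finset (PE n)) (hU : U ⊆ eset (H.map φ)) :
    ∃ F : H.Subgraph, F.coe.edgeSet.ncard = U.card ∧
      (univ.filter (fun g : Equiv.Perm (Fin n) => g • U = U)).card *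
        (⊤ : SimpleGraph (Fin n)).copyCount F.coe ≤ Nat.factorial n := by
  classical
  have hsub : ∀ a b, (sub U).Adj a b → ∃ a' b', H.Adj a' b' ∧ φ a' = a ∧ φ b' = b := by
    rintro a b ⟨h, hab⟩
    have h1 := hU hab
    rw [mem_eset] at h1
    have h2 : (H.map φ).Adj a b := h1
    rw [SimpleGraph.map_adj] at h2
    exact h2
  let F : H.Subgraph :=
    { verts := {a | φ a ∈ (sub U).verts}
      Adj := fun a b => (sub U).Adj (φ a) (φ b)
      adj_sub := by
        intro a b h
        obtain ⟨a', b', h', ha, hb⟩ := hsub _ _ h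
        rw [← φ.injective ha, ← φ.injective hb]
        exact h'
      edge_vert := by
        intro a b h
        exact (sub U).edge_vert h
      symm := ⟨fun _ _ h => SimpleGraph.Subgraph.Adj.symm h⟩ }
  have him : im H φ F = sub U := by
    apply SimpleGraph.Subgraph.ext
    · rw [im_verts]
      ext a
      constructor
      · rintro ⟨x, hx, rfl⟩
        exact hx
      · intro ha
        have ha' := ha
        rw [sub_verts] at ha'
        obtain ⟨b, hb⟩ := ha'
        obtain ⟨a', b', _, rfl, rfl⟩ := hsub _ _ hb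
        exact ⟨a', ha, rfl⟩
    · funext a b
      apply propext
      rw [im_adj]
      constructor
      · rintro ⟨a', b', h, rfl, rfl⟩
        exact h
      · intro h
        obtain ⟨a', b', _, rfl, rfl⟩ := hsub _ _ h
        exact ⟨a', b', h, rfl, rfl⟩
  have hiso : Nonempty (F.coe ≃g (sub U).coe) := by
    rw [← him]
    exact im_iso H φ F
  refine ⟨F, ?_, ?_⟩
  · obtain ⟨e⟩ := hiso
    have h1 : F.coe.edgeSet.ncard = (sub U).coe.edgeSet.ncard :=
      Nat.card_congr e.mapEdgeSet
    rw [h1, ← es_card, es_sub]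
  · rw [← orbit_stab F.coe (sub U) hiso]
    apply Nat.mul_le_mul_right
    have htar : (univ.filter (fun g : Equiv.Perm (Fin n) => g • U = U)).card =
        Nat.card {g : Equiv.Perm (Fin n) // g • U = U} := by
      rw [Nat.card_eq_fintype_card, Fintype.card_subtype]
    rw [htar]
    let f : {g : Equiv.Perm (Fin n) // g • U = U} →
        MulAction.stabilizer (Equiv.Perm (Fin n)) (sub U) :=
      fun x => ⟨x.1, sub_smul U x.1 x.2⟩
    apply Nat.card_le_card_of_injective f
    intro x y h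
    have h1 : (f x).1 = (f y).1 := by rw [h]
    exact Subtype.ext h1

theorem count_bound {n : ℕ} {V : Type} [Fintype V] (H : SimpleGraph V) (φ : V ↪ Fin n)
    (F : H.Subgraph) :
    ∃ A : Finset (PE n), A.card = F.coe.edgeSet.ncard ∧
      H.copyCount F.coe * Nat.factorial n ≤
        (univ.filter (fun g : Equiv.Perm (Fin n) => g • A ⊆ eset (H.map φ))).card *
          (⊤ : SimpleGraph (Fin n)).copyCount F.coe := by
  classical
  refine ⟨es (im H φ F), ?_, ?_⟩
  · obtain ⟨e⟩ := im_iso H φ F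
    rw [es_card]
    exact (Nat.card_congr e.mapEdgeSet).symm
  · rw [← orbit_stab F.coe (im H φ F) (im_iso H φ F), ← mul_assoc]
    apply Nat.mul_le_mul_right
    have hex : ∀ K : {K : H.Subgraph // Nonempty (F.coe ≃g K.coe)},
        ∃ g : Equiv.Perm (Fin n), g • im H φ F = im H φ K.1 := by
      rintro ⟨K, ⟨e⟩⟩
      obtain ⟨e1⟩ := im_iso H φ F
      obtain ⟨e2⟩ := im_iso H φ K
      exact exists_smul _ _ ⟨e2.comp (e.comp e1.symm)⟩
    choose γ hγ using hex
    have hcard : H.copyCount F.coe * Nat.card (MulAction.stabilizer (Equiv.Perm (Fin n)) (im H φ F))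
        = Nat.card ({K : H.Subgraph // Nonempty (F.coe ≃g K.coe)} ×
          MulAction.stabilizer (Equiv.Perm (Fin n)) (im H φ F)) := by
      rw [Nat.card_prod, copyCount_eq_ncard]
      rfl
    rw [hcard]
    have htar : (univ.filter (fun g : Equiv.Perm (Fin n) =>
        g • es (im H φ F) ⊆ eset (H.map φ))).card =
        Nat.card {g : Equiv.Perm (Fin n) // g • es (im H φ F) ⊆ eset (H.map φ)} := by
      rw [Nat.card_eq_fintype_card, Fintype.card_subtype]
    rw [htar]
    let f : ({K : H.Subgraph // Nonempty (F.coe ≃g K.coe)} ×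
          MulAction.stabilizer (Equiv.Perm (Fin n)) (im H φ F)) →
          {g : Equiv.Perm (Fin n) // g • es (im H φ F) ⊆ eset (H.map φ)} := fun x =>
      ⟨γ x.1 * x.2.1, by
        have h2 : x.2.1 • im H φ F = im H φ F := x.2.2
        rw [← es_smul, mul_smul, h2, hγ]
        exact es_im_subset H φ _⟩
    apply Nat.card_le_card_of_injective f
    rintro ⟨K, s⟩ ⟨L, t⟩ h
    have h1 : γ K * s.1 = γ L * t.1 := congrArg Subtype.val h
    have hs : s.1 • im H φ F = im H φ F := s.2
    have ht : t.1 • im H φ F = im H φ F := t.2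
    have hK : (γ K * s.1) • im H φ F = im H φ K.1 := by rw [mul_smul, hs, hγ]
    have hL : (γ L * t.1) • im H φ F = im H φ L.1 := by rw [mul_smul, ht, hγ]
    have hKL : K = L := by
      apply Subtype.ext
      apply im_injective H φ
      rw [← hK, ← hL, h1]
    subst hKL
    have h2 : s.1 = t.1 := mul_left_cancel h1
    rw [Prod.mk.injEq]
    exact ⟨rfl, Subtype.ext h2⟩

/-- a graph whose edge set contains a permuted copy of `H` contains `H` -/
theorem copy_of_subset {n : ℕ} {V : Type} (H : SimpleGraph V) (φ : V ↪ Fin n)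
    (g : Equiv.Perm (Fin n)) (G : SimpleGraph (Fin n)) (h : g • eset (H.map φ) ⊆ eset G) :
    0 < G.copyCount H := by
  classical
  rw [SimpleGraph.copyCount_pos]
  refine ⟨⟨⟨fun a => g (φ a), ?_⟩, fun a b hab => φ.injective (g.injective hab)⟩⟩
  intro a b hab
  have hne : ¬ (s(φ a, φ b)).IsDiag := by
    simpa using fun h' => hab.ne (φ.injective h')
  have h1 : (⟨s(φ a, φ b), hne⟩ : PE n) ∈ eset (H.map φ) := by
    rw [mem_eset, SimpleGraph.mem_edgeSet, map_adj_iff]
    exact hab
  have h2 := h (Finset.smul_mem_smul_finset (a := g) h1)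
  rw [mem_eset, smulPE_val] at h2
  exact h2

end Vale.Agent.P064
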