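import Mathlib

/-!
# P064: definitions

`G(n,p)`, the probability threshold `pc`, the expectation threshold `pE` and the
(fractional) expectation threshold `ptE`, exactly as in the problem file.
`G.copyCount F` (Mathlib) is the number of subgraphs of `G` isomorphic to `F`.
-/

namespace Vale.Agent.P064

open Finset

/-- The probability of the graph `G` on `Fin n` under `G(n,p)`. -/
noncomputable def gwt (n : ℕ) (p : ℝ) (G : SimpleGraph (Fin n)) : ℝ :=
  p ^ G.edgeSet.ncard * (1 - p) ^ Gᶜ.edgeSet.ncard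

/-- Expectation of `f` under `G(n,p)`. -/
noncomputable def gE (n : ℕ) (p : ℝ) (f : SimpleGraph (Fin n) → ℝ) : ℝ :=
  ∑ G : SimpleGraph (Fin n), gwt n p G * f G

open Classical in
/-- Probability of the event `Q` under `G(n,p)`. -/
noncomputable def gP (n : ℕ) (p : ℝ) (Q : SimpleGraph (Fin n) → Prop) : ℝ :=
  gE n p (fun G => if Q G then 1 else 0)

/-- `p_c(n,H)`: least `p` with `P(N(G(n,p),H) > 0) ≥ 1/2`. -/
noncomputable def pc (n : ℕ) {V : Type} (H : SimpleGraph V) : ℝ :=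
  sInf {p : ℝ | 0 ≤ p ∧ p ≤ 1 ∧ 1 / 2 ≤ gP n p (fun G => 0 < G.copyCount H)}

/-- `p_E(n,H)`: least `p` with `E N(G(n,p),F) ≥ 1/2` for every subgraph `F` of `H`. -/
noncomputable def pE (n : ℕ) {V : Type} (H : SimpleGraph V) : ℝ :=
  sInf {p : ℝ | 0 ≤ p ∧ p ≤ 1 ∧
    ∀ F : H.Subgraph, 1 / 2 ≤ gE n p (fun G => (G.copyCount F.coe : ℝ))}

/-- `p̃_E(n,H)`: least `p` with `E N(G(n,p),F) ≥ N(H,F)/2` for every subgraph `F` of `H`. -/
noncomputable def ptE (n : ℕ) {V : Type} [Fintype V] (H : SimpleGraph V) : ℝ :=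
  sInf {p : ℝ | 0 ≤ p ∧ p ≤ 1 ∧
    ∀ F : H.Subgraph, (H.copyCount F.coe : ℝ) / 2 ≤ gE n p (fun G => (G.copyCount F.coe : ℝ))}

end Vale.Agent.P064
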