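import Vale.Agent.P064.Tools

/-!
# P064 [B2]: spread families have small thresholds (Frankston–Kahn–Narayanan–Park, in the form of
the Park–Pham fragment argument)
-/

namespace Vale.Agent.P064

open Finset

namespace FragAux

section Union

variable {X : Type*} [Fintype X]

theorem wt_nonneg {p : ℝ} (hp0 : 0 ≤ p) (hp1 : p ≤ 1) (W : Finset X) :
    0 ≤ wt p W := by
  unfold wt
  have : 0 ≤ 1 - p := by linarith
  positivity

theorem wt_sum (p : ℝ) : ∑ W : Finset X, wt p W = 1 := by
  classical
  have h := Finset.sum_pow_mul_eq_add_pow p (1 - p) (univ : Finset X)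
  rw [Finset.powerset_univ, Finset.card_univ] at h
  unfold wt
  rw [h]
  simp

theorem wt_union [DecidableEq X] (p s : ℝ) (f : Finset X → ℝ) :
    ∑ W₁ : Finset X, ∑ W₂ : Finset X, wt p W₁ * wt s W₂ * f (W₁ ∪ W₂) =
      ∑ W : Finset X, wt (p + s - p * s) W * f W := by
  -- for fixed `W₁` group `W₂` by the union
  have h1 : ∀ W₁ : Finset X, ∑ W₂ : Finset X, wt p W₁ * wt s W₂ * f (W₁ ∪ W₂) =
      ∑ W ∈ univ.filter (fun W : Finset X => W₁ ⊆ W), p ^ W₁.card *
        (1 - p) ^ (Fintype.card X - W₁.card) *
          (s ^ (W \ W₁).card * (1 - s) ^ (Fintype.card X - W.card)) * f W := by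
    intro W₁
    have hfib : ∑ W₂ : Finset X, wt p W₁ * wt s W₂ * f (W₁ ∪ W₂) =
        ∑ W ∈ univ.filter (fun W : Finset X => W₁ ⊆ W),
          ∑ W₂ ∈ univ.filter (fun W₂ : Finset X => W₁ ∪ W₂ = W),
            wt p W₁ * wt s W₂ * f (W₁ ∪ W₂) := by
      rw [← Finset.sum_fiberwise_of_maps_to (s := (univ : Finset (Finset X)))
        (t := univ.filter (fun W : Finset X => W₁ ⊆ W)) (g := fun W₂ => W₁ ∪ W₂)]
      intro W₂ _
      simp only [mem_filter, mem_univ, true_and]
      exact subset_union_left
    rw [hfib]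
    refine Finset.sum_congr rfl fun W hW => ?_
    simp only [mem_filter, mem_univ, true_and] at hW
    have h2 : ∑ W₂ ∈ univ.filter (fun W₂ : Finset X => W₁ ∪ W₂ = W),
            wt p W₁ * wt s W₂ * f (W₁ ∪ W₂) =
        ∑ V ∈ W₁.powerset, wt p W₁ * (s ^ ((W \ W₁).card + V.card) *
          (1 - s) ^ (Fintype.card X - W.card + (W₁.card - V.card))) * f W := by
      refine Finset.sum_bij' (fun W₂ _ => W₂ ∩ W₁) (fun V _ => (W \ W₁) ∪ V) ?_ ?_ ?_ ?_ ?_
      · intro W₂ hW₂
        simp only [mem_powerset]
        exact inter_subset_right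
      · intro V hV
        simp only [mem_filter, mem_univ, true_and, mem_powerset] at hV ⊢
        rw [← Finset.union_assoc, Finset.union_sdiff_of_subset hW]
        exact Finset.union_eq_left.2 (hV.trans hW)
      · intro W₂ hW₂
        simp only [mem_filter, mem_univ, true_and] at hW₂
        subst hW₂
        ext x
        simp only [mem_union, mem_sdiff, mem_inter]
        tauto
      · intro V hV
        simp only [mem_powerset] at hV
        ext x
        simp only [mem_union, mem_sdiff, mem_inter]
        constructor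
        · rintro ⟨h | h, h'⟩
          · exact absurd h' h.2
          · exact h
        · intro h
          exact ⟨Or.inr h, hV h⟩
      · intro W₂ hW₂
        simp only [mem_filter, mem_univ, true_and] at hW₂
        have hsd : W \ W₁ = W₂ \ W₁ := by
          subst hW₂
          ext x
          simp only [mem_union, mem_sdiff]
          tauto
        have hc2 : W₂.card = (W \ W₁).card + (W₂ ∩ W₁).card := by
          rw [hsd]
          exact (Finset.card_sdiff_add_card_inter W₂ W₁).symm
        have hcW : W.card = (W \ W₁).card + W₁.card :=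
          (Finset.card_sdiff_add_card_eq_card hW).symm
        have hle1 : (W₂ ∩ W₁).card ≤ W₁.card := card_le_card inter_subset_right
        have hle2 : W.card ≤ Fintype.card X := card_le_univ W
        rw [hW₂]
        congr 2
        unfold wt
        congr 2
        omega
    rw [h2]
    have h3 := Finset.sum_pow_mul_eq_add_pow s (1 - s) W₁
    calc ∑ V ∈ W₁.powerset, wt p W₁ * (s ^ ((W \ W₁).card + V.card) *
          (1 - s) ^ (Fintype.card X - W.card + (W₁.card - V.card))) * f W
        = wt p W₁ * (s ^ (W \ W₁).card * (1 - s) ^ (Fintype.card X - W.card)) * f W *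
          ∑ V ∈ W₁.powerset, s ^ V.card * (1 - s) ^ (W₁.card - V.card) := by
          rw [Finset.mul_sum]
          refine Finset.sum_congr rfl fun V _ => ?_
          rw [pow_add, pow_add]
          ring
      _ = _ := by
          rw [h3]
          unfold wt
          simp
  rw [Finset.sum_congr rfl fun W₁ _ => h1 W₁]
  -- swap
  have h4 : ∑ W₁ : Finset X, ∑ W ∈ univ.filter (fun W : Finset X => W₁ ⊆ W), p ^ W₁.card *
        (1 - p) ^ (Fintype.card X - W₁.card) *
          (s ^ (W \ W₁).card * (1 - s) ^ (Fintype.card X - W.card)) * f W =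
      ∑ W : Finset X, ∑ W₁ ∈ W.powerset, p ^ W₁.card *
        (1 - p) ^ (Fintype.card X - W₁.card) *
          (s ^ (W \ W₁).card * (1 - s) ^ (Fintype.card X - W.card)) * f W := by
    refine Finset.sum_comm' ?_
    intro W₁ W
    simp [mem_powerset]
  rw [h4]
  refine Finset.sum_congr rfl fun W _ => ?_
  have hle2 : W.card ≤ Fintype.card X := card_le_univ W
  have h5 := Finset.sum_pow_mul_eq_add_pow p ((1 - p) * s) W
  calc ∑ W₁ ∈ W.powerset, p ^ W₁.card *
        (1 - p) ^ (Fintype.card X - W₁.card) *
          (s ^ (W \ W₁).card * (1 - s) ^ (Fintype.card X - W.card)) * f W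
      = ((1 - p) * (1 - s)) ^ (Fintype.card X - W.card) * f W *
        ∑ W₁ ∈ W.powerset, p ^ W₁.card * ((1 - p) * s) ^ (W.card - W₁.card) := by
        rw [Finset.mul_sum]
        refine Finset.sum_congr rfl fun W₁ hW₁ => ?_
        have hsub := mem_powerset.1 hW₁
        have hc1 : (W \ W₁).card = W.card - W₁.card := card_sdiff_of_subset hsub
        have hc2 : W₁.card ≤ W.card := card_le_card hsub
        have hc3 : Fintype.card X - W₁.card =
            (Fintype.card X - W.card) + (W.card - W₁.card) := by omega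
        rw [hc1, hc3, pow_add, mul_pow, mul_pow]
        ring
    _ = _ := by
        rw [h5]
        unfold wt
        have e1 : p + (1 - p) * s = p + s - p * s := by ring
        have e2 : (1 - p) * (1 - s) = 1 - (p + s - p * s) := by ring
        rw [e1, e2]
        ring

theorem wt_mono {p s : ℝ} (hp0 : 0 ≤ p) (hps : p ≤ s)
    (hs1 : s ≤ 1) (f : Finset X → ℝ) (hf : ∀ A B : Finset X, A ⊆ B → f A ≤ f B) :
    ∑ W : Finset X, wt p W * f W ≤ ∑ W : Finset X, wt s W * f W := by
  classical
  rcases eq_or_lt_of_le (hps.trans hs1) with h1 | h1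
  · have : s = p := by linarith
    rw [this]
  · set t : ℝ := (s - p) / (1 - p) with ht
    have h1p : 0 < 1 - p := by linarith
    have ht0 : 0 ≤ t := by rw [ht]; exact div_nonneg (by linarith) h1p.le
    have ht1 : t ≤ 1 := by rw [ht, div_le_one h1p]; linarith
    have hs : s = p + t - p * t := by
      rw [ht]; field_simp; ring
    rw [hs, ← wt_union]
    refine Finset.sum_le_sum fun W _ => ?_
    have h2 : wt p W * f W = ∑ W₂ : Finset X, wt p W * wt t W₂ * f W := by
      rw [← Finset.sum_mul, ← Finset.mul_sum, wt_sum, mul_one]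
    rw [h2]
    refine Finset.sum_le_sum fun W₂ _ => ?_
    exact mul_le_mul_of_nonneg_left (hf _ _ subset_union_left)
      (mul_nonneg (wt_nonneg hp0 h1.le W) (wt_nonneg ht0 ht1 W₂))

end Union

variable {X I : Type*} [Fintype X] [DecidableEq X] [DecidableEq I]

omit [Fintype X] in
/-- minimal fragments -/
theorem exists_frag (J : Finset I) (T : I → Finset X) :
    ∃ F : Finset X → I → Finset X, (∀ W, ∀ j ∈ J, ∃ i ∈ J, F W j = T i \ W ∧ T i ⊆ W ∪ T j) ∧
      (∀ W, ∀ j ∈ J, ∀ i ∈ J, T i ⊆ W ∪ T j → (F W j).card ≤ (T i \ W).card) := by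
  have h : ∀ (W : Finset X) (j : I), ∃ F : Finset X, j ∈ J →
      (∃ i ∈ J, F = T i \ W ∧ T i ⊆ W ∪ T j) ∧
      (∀ i ∈ J, T i ⊆ W ∪ T j → F.card ≤ (T i \ W).card) := by
    intro W j
    by_cases hj : j ∈ J
    · have hne : (J.filter (fun i => T i ⊆ W ∪ T j)).Nonempty :=
        ⟨j, mem_filter.2 ⟨hj, subset_union_right⟩⟩
      obtain ⟨i, hi, hmin⟩ := Finset.exists_min_image _ (fun i => (T i \ W).card) hne
      rw [mem_filter] at hi
      refine ⟨T i \ W, fun _ => ⟨⟨i, hi.1, rfl, hi.2⟩, fun i' hi' hsub => ?_⟩⟩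
      exact hmin i' (mem_filter.2 ⟨hi', hsub⟩)
    · exact ⟨∅, fun h => absurd h hj⟩
  choose F hF using h
  exact ⟨F, fun W j hj => (hF W j hj).1, fun W j hj => (hF W j hj).2⟩

omit [DecidableEq I] in
/-- key counting step -/
theorem count_frag (J : Finset I) (T : I → Finset X) (k : ℕ) (hT : ∀ j ∈ J, (T j).card ≤ k)
    {r N : ℝ} (hr : 0 ≤ r) (hN : 0 ≤ N)
    (hspread : ∀ R : Finset X, ((J.filter (fun j => R ⊆ T j)).card : ℝ) ≤ r ^ R.card * N)
    {p₀ : ℝ} (hp0 : 0 ≤ p₀) (hp1 : p₀ ≤ 1)
    (F : Finset X → I → Finset X)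
    (hF1 : ∀ W, ∀ j ∈ J, ∃ i ∈ J, F W j = T i \ W ∧ T i ⊆ W ∪ T j)
    (hF2 : ∀ W, ∀ j ∈ J, ∀ i ∈ J, T i ⊆ W ∪ T j → (F W j).card ≤ (T i \ W).card) (t : ℕ) :
    p₀ ^ t * ∑ W : Finset X, wt p₀ W * ((J.filter (fun j => (F W j).card = t)).card : ℝ) ≤
      (k.choose t : ℝ) * r ^ t * N := by
  -- fragments are disjoint from `W` and contained in `T j`
  have hdisj : ∀ W, ∀ j ∈ J, Disjoint W (F W j) := by
    intro W j hj
    obtain ⟨i, _, h, _⟩ := hF1 W j hj
    rw [h]
    exact disjoint_sdiff
  have hsub : ∀ W, ∀ j ∈ J, F W j ⊆ T j := by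
    intro W j hj
    obtain ⟨i, _, h, h'⟩ := hF1 W j hj
    rw [h]
    intro x hx
    rw [mem_sdiff] at hx
    rcases mem_union.1 (h' hx.1) with h2 | h2
    · exact absurd h2 hx.2
    · exact h2
  set c : Finset X → Finset X → ℝ := fun W U => ((J.filter (fun j => F W j = U)).card : ℝ)
    with hc
  have hc0 : ∀ W U, 0 ≤ c W U := fun W U => by rw [hc]; positivity
  have hcU : ∀ W U, c W U ≤ r ^ U.card * N := by
    intro W U
    refine le_trans ?_ (hspread U)
    rw [hc]
    simp only
    norm_cast
    refine card_le_card ?_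
    intro j hj
    rw [mem_filter] at hj ⊢
    exact ⟨hj.1, hj.2 ▸ hsub W j hj.1⟩
  -- split over `U`
  have h1 : ∀ W, ((J.filter (fun j => (F W j).card = t)).card : ℝ) =
      ∑ U ∈ (univ : Finset X).powersetCard t, c W U := by
    intro W
    rw [Finset.card_eq_sum_card_fiberwise (f := fun j => F W j)
      (t := (univ : Finset X).powersetCard t)]
    · push_cast
      refine Finset.sum_congr rfl fun U hU => ?_
      rw [mem_powersetCard] at hU
      rw [hc]
      simp only
      congr 2
      ext j
      simp only [mem_filter]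
      constructor
      · rintro ⟨⟨a, _⟩, b⟩
        exact ⟨a, b⟩
      · rintro ⟨a, b⟩
        exact ⟨⟨a, by rw [b]; exact hU.2⟩, b⟩
    · intro j hj
      have hj' : j ∈ J.filter (fun j => (F W j).card = t) := hj
      rw [mem_filter] at hj'
      have : F W j ∈ (univ : Finset X).powersetCard t :=
        mem_powersetCard.2 ⟨subset_univ _, hj'.2⟩
      exact this
  have h2 : ∑ W : Finset X, wt p₀ W * ((J.filter (fun j => (F W j).card = t)).card : ℝ) =
      ∑ U ∈ (univ : Finset X).powersetCard t, ∑ W : Finset X, wt p₀ W * c W U := by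
    rw [Finset.sum_comm]
    refine Finset.sum_congr rfl fun W _ => ?_
    rw [h1, Finset.mul_sum]
  -- reindex
  have h3 : ∀ U : Finset X, ∑ W : Finset X, wt p₀ W * c W U =
      ∑ Z ∈ univ.filter (fun Z : Finset X => U ⊆ Z), wt p₀ (Z \ U) * c (Z \ U) U := by
    intro U
    have h4 : ∑ W : Finset X, wt p₀ W * c W U =
        ∑ W ∈ univ.filter (fun W : Finset X => Disjoint W U), wt p₀ W * c W U := by
      symm
      refine Finset.sum_subset (filter_subset _ _) ?_
      intro W _ hW
      simp only [mem_filter, mem_univ, true_and] at hW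
      have : c W U = 0 := by
        rw [hc]
        simp only [Nat.cast_eq_zero, card_eq_zero]
        rw [filter_eq_empty_iff]
        intro j hj hjU
        exact hW (hjU ▸ hdisj W j hj)
      rw [this, mul_zero]
    rw [h4]
    refine Finset.sum_bij' (fun W _ => W ∪ U) (fun Z _ => Z \ U) ?_ ?_ ?_ ?_ ?_
    · intro W hW
      simp only [mem_filter, mem_univ, true_and]
      exact subset_union_right
    · intro Z hZ
      simp only [mem_filter, mem_univ, true_and]
      exact sdiff_disjoint
    · intro W hW
      simp only [mem_filter, mem_univ, true_and] at hW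
      exact union_sdiff_cancel_right hW
    · intro Z hZ
      simp only [mem_filter, mem_univ, true_and] at hZ
      exact sdiff_union_of_subset hZ
    · intro W hW
      simp only [mem_filter, mem_univ, true_and] at hW
      rw [union_sdiff_cancel_right hW]
  -- weights
  have h5 : ∀ Z U : Finset X, U ⊆ Z → U.card = t → p₀ ^ t * wt p₀ (Z \ U) ≤ wt p₀ Z := by
    intro Z U hUZ hU
    have hcz : Z.card = (Z \ U).card + t := by
      rw [← hU]; exact (card_sdiff_add_card_eq_card hUZ).symm
    have hle : Z.card ≤ Fintype.card X := card_le_univ Z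
    unfold wt
    have e1 : Fintype.card X - (Z \ U).card = (Fintype.card X - Z.card) + t := by omega
    rw [e1, hcz, pow_add, pow_add]
    have h1p : 0 ≤ 1 - p₀ := by linarith
    have h1p' : (1 - p₀) ^ t ≤ 1 := pow_le_one₀ h1p (by linarith)
    have e2 : Fintype.card X - ((Z \ U).card + t) = Fintype.card X - Z.card := by omega
    rw [e2]
    calc p₀ ^ t * (p₀ ^ (Z \ U).card * ((1 - p₀) ^ (Fintype.card X - Z.card) * (1 - p₀) ^ t))
        ≤ p₀ ^ t * (p₀ ^ (Z \ U).card * ((1 - p₀) ^ (Fintype.card X - Z.card) * 1)) := by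
          gcongr
      _ = _ := by ring
  -- the number of possible fragments for a given `Z`
  have h6 : ∀ Z : Finset X, ∑ U ∈ Z.powersetCard t, c (Z \ U) U ≤
      (k.choose t : ℝ) * r ^ t * N := by
    intro Z
    by_cases hex : ∃ U ∈ Z.powersetCard t, c (Z \ U) U ≠ 0
    · -- a canonical edge inside `Z`
      obtain ⟨U₀, hU₀, hne⟩ := hex
      have hexj : ∃ j₀ ∈ J, T j₀ ⊆ Z := by
        have : (J.filter (fun j => F (Z \ U₀) j = U₀)).Nonempty := by
          rw [Finset.nonempty_iff_ne_empty]
          intro h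
          apply hne
          rw [hc]
          simp [h]
        obtain ⟨j, hj⟩ := this
        rw [mem_filter] at hj
        obtain ⟨i, hi, h, h'⟩ := hF1 (Z \ U₀) j hj.1
        refine ⟨i, hi, ?_⟩
        intro x hx
        by_cases hxW : x ∈ Z \ U₀
        · exact (mem_sdiff.1 hxW).1
        · have : x ∈ F (Z \ U₀) j := by
            rw [h]; exact mem_sdiff.2 ⟨hx, hxW⟩
          rw [hj.2] at this
          exact (mem_powersetCard.1 hU₀).1 this
      obtain ⟨j₀, hj₀, hj₀Z⟩ := hexj
      have h7 : ∀ U ∈ Z.powersetCard t, U ∉ (T j₀).powersetCard t → c (Z \ U) U = 0 := by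
        intro U hU hU'
        rw [mem_powersetCard] at hU
        rw [hc]
        simp only [Nat.cast_eq_zero, card_eq_zero]
        rw [filter_eq_empty_iff]
        intro j hj hjU
        apply hU'
        rw [mem_powersetCard]
        refine ⟨?_, hU.2⟩
        have hcov : T j₀ ⊆ (Z \ U) ∪ T j := by
          intro x hx
          by_cases hxU : x ∈ U
          · exact mem_union_right _ (hsub _ j hj (hjU ▸ hxU))
          · exact mem_union_left _ (mem_sdiff.2 ⟨hj₀Z hx, hxU⟩)
        have hmin := hF2 (Z \ U) j hj j₀ hj₀ hcov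
        rw [hjU] at hmin
        have hss : T j₀ \ (Z \ U) ⊆ U := by
          intro x hx
          rw [mem_sdiff, mem_sdiff] at hx
          by_contra hxU
          exact hx.2 ⟨hj₀Z hx.1, hxU⟩
        have heq := Finset.eq_of_subset_of_card_le hss hmin
        rw [← heq]
        exact sdiff_subset
      calc ∑ U ∈ Z.powersetCard t, c (Z \ U) U
          ≤ ∑ U ∈ (T j₀).powersetCard t, c (Z \ U) U := by
            calc ∑ U ∈ Z.powersetCard t, c (Z \ U) U
                = ∑ U ∈ Z.powersetCard t ∩ (T j₀).powersetCard t, c (Z \ U) U := by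
                  symm
                  refine Finset.sum_subset inter_subset_left ?_
                  intro U hU hU'
                  refine h7 U hU ?_
                  intro h
                  exact hU' (mem_inter.2 ⟨hU, h⟩)
              _ ≤ _ := Finset.sum_le_sum_of_subset_of_nonneg inter_subset_right
                  (fun U _ _ => hc0 _ _)
        _ ≤ ∑ U ∈ (T j₀).powersetCard t, r ^ t * N := by
            refine Finset.sum_le_sum fun U hU => ?_
            have := hcU (Z \ U) U
            rwa [(mem_powersetCard.1 hU).2] at this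
        _ = ((T j₀).card.choose t : ℝ) * (r ^ t * N) := by
            rw [Finset.sum_const, card_powersetCard, nsmul_eq_mul]
        _ ≤ (k.choose t : ℝ) * (r ^ t * N) := by
            refine mul_le_mul_of_nonneg_right ?_ (by positivity)
            exact_mod_cast Nat.choose_le_choose t (hT j₀ hj₀)
        _ = _ := by ring
    · push Not at hex
      rw [Finset.sum_eq_zero hex]
      positivity
  rw [h2, Finset.mul_sum]
  calc ∑ U ∈ (univ : Finset X).powersetCard t, p₀ ^ t * ∑ W : Finset X, wt p₀ W * c W U
      ≤ ∑ U ∈ (univ : Finset X).powersetCard t,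
          ∑ Z ∈ univ.filter (fun Z : Finset X => U ⊆ Z), wt p₀ Z * c (Z \ U) U := by
        refine Finset.sum_le_sum fun U hU => ?_
        rw [h3, Finset.mul_sum]
        refine Finset.sum_le_sum fun Z hZ => ?_
        simp only [mem_filter, mem_univ, true_and] at hZ
        rw [← mul_assoc]
        exact mul_le_mul_of_nonneg_right (h5 Z U hZ (mem_powersetCard.1 hU).2) (hc0 _ _)
    _ = ∑ Z : Finset X, ∑ U ∈ Z.powersetCard t, wt p₀ Z * c (Z \ U) U := by
        refine Finset.sum_comm' ?_
        intro U Z
        simp only [mem_powersetCard, mem_filter, mem_univ, true_and, subset_univ]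
        tauto
    _ ≤ ∑ Z : Finset X, wt p₀ Z * ((k.choose t : ℝ) * r ^ t * N) := by
        refine Finset.sum_le_sum fun Z _ => ?_
        rw [← Finset.mul_sum]
        exact mul_le_mul_of_nonneg_left (h6 Z) (wt_nonneg hp0 hp1 Z)
    _ = _ := by
        rw [← Finset.sum_mul, wt_sum, one_mul]


/-- number of halvings -/
def L (k : ℕ) : ℕ := if k = 0 then 0 else Nat.log 2 k + 1

theorem L_step {k : ℕ} (hk : k ≠ 0) : L k = L (k / 2) + 1 := by
  unfold L
  rw [if_neg hk]
  by_cases h : k / 2 = 0
  · have : k = 1 := by omega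
    subst this
    simp
  · rw [if_neg h, Nat.log_of_one_lt_of_le (by norm_num) (by omega : 2 ≤ k)]

open Classical in
theorem claim (k : ℕ) : ∀ (J : Finset I) (T : I → Finset X), (∀ j ∈ J, (T j).card ≤ k) →
    ∀ (r N : ℝ), 0 < r → 0 < N →
    (∀ R : Finset X, ((J.filter (fun j => R ⊆ T j)).card : ℝ) ≤ r ^ R.card * N) →
    ∀ p : ℝ, p ≤ 1 → 0 ≤ p → 64 * r * L k ≤ p →
    (J.card : ℝ) / N - 1 / 2 * (1 - (1 / 4 : ℝ) ^ k) ≤
      ∑ W : Finset X, wt p W * (if ∃ j ∈ J, T j ⊆ W then 1 else 0) := by
  induction k using Nat.strong_induction_on with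
  | _ k ih =>
    intro J T hT r N hr hN hspread p hp1 hp0 hpL
    by_cases hk : k = 0
    · subst hk
      simp only [pow_zero, sub_self, mul_zero, sub_zero]
      by_cases hJ : J.Nonempty
      · obtain ⟨j, hj⟩ := hJ
        have h1 : ∀ W : Finset X, ∃ j ∈ J, T j ⊆ W := by
          intro W
          have : T j = ∅ := by
            have := hT j hj
            simpa using this
          exact ⟨j, hj, by rw [this]; exact empty_subset _⟩
        simp only [h1, if_true, mul_one]
        rw [wt_sum, div_le_one hN]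
        have := hspread ∅
        simpa using this
      · rw [not_nonempty_iff_eq_empty] at hJ
        subst hJ
        simp
    · have hk2 : k / 2 < k := Nat.div_lt_self (by omega) (by norm_num)
      obtain ⟨F, hF1, hF2⟩ := exists_frag J T
      set p₀ : ℝ := 64 * r with hp₀
      set p' : ℝ := 64 * r * L (k / 2) with hp'
      have hLs := L_step hk
      have hp₀0 : 0 < p₀ := by positivity
      have hp'0 : 0 ≤ p' := by positivity
      have hsum : p₀ + p' ≤ p := by
        rw [hp₀, hp']
        rw [hLs] at hpL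
        push_cast at hpL
        linarith
      have hp₀1 : p₀ ≤ 1 := by linarith
      have hp'1 : p' ≤ 1 := by linarith
      set P : Finset X → ℝ := fun W => if ∃ j ∈ J, T j ⊆ W then 1 else 0 with hP
      have hPmono : ∀ A B : Finset X, A ⊆ B → P A ≤ P B := by
        intro A B hAB
        simp only [hP]
        by_cases h : ∃ j ∈ J, T j ⊆ A
        · obtain ⟨j, hj, hjA⟩ := h
          rw [if_pos ⟨j, hj, hjA⟩, if_pos ⟨j, hj, hjA.trans hAB⟩]
        · rw [if_neg h]
          split_ifs <;> norm_num
      have hq0 : 0 ≤ p₀ + p' - p₀ * p' := by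
        have : p₀ * p' ≤ 1 * p' := mul_le_mul_of_nonneg_right hp₀1 hp'0
        linarith
      have hq1 : p₀ + p' - p₀ * p' ≤ p := by
        have : 0 ≤ p₀ * p' := by positivity
        linarith
      have h1 := wt_mono hq0 hq1 hp1 P hPmono
      refine le_trans ?_ h1
      rw [← wt_union]
      -- the inner sums
      set J' : Finset X → Finset I := fun W => J.filter (fun j => (F W j).card ≤ k / 2) with hJ'
      have h2 : ∀ W : Finset X, ((J' W).card : ℝ) / N - 1 / 2 * (1 - (1 / 4 : ℝ) ^ (k / 2)) ≤
          ∑ W₂ : Finset X, wt p' W₂ * (if ∃ j ∈ J' W, F W j ⊆ W₂ then 1 else 0) := by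
        intro W
        refine ih (k / 2) hk2 (J' W) (F W) ?_ r N hr hN ?_ p' hp'1 hp'0 le_rfl
        · intro j hj
          rw [hJ', mem_filter] at hj
          exact hj.2
        · intro R
          refine le_trans ?_ (hspread R)
          norm_cast
          refine card_le_card ?_
          intro j hj
          rw [hJ', mem_filter, mem_filter] at hj
          rw [mem_filter]
          refine ⟨hj.1.1, hj.2.trans ?_⟩
          obtain ⟨i, _, h, h'⟩ := hF1 W j hj.1.1
          rw [h]
          intro x hx
          rw [mem_sdiff] at hx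
          rcases mem_union.1 (h' hx.1) with h2 | h2
          · exact absurd h2 hx.2
          · exact h2
      have h3 : ∀ W : Finset X, wt p₀ W * (((J' W).card : ℝ) / N -
          1 / 2 * (1 - (1 / 4 : ℝ) ^ (k / 2))) ≤
          ∑ W₂ : Finset X, wt p₀ W * wt p' W₂ * P (W ∪ W₂) := by
        intro W
        refine (mul_le_mul_of_nonneg_left (h2 W) (wt_nonneg hp₀0.le hp₀1 W)).trans ?_
        rw [Finset.mul_sum]
        refine Finset.sum_le_sum fun W₂ _ => ?_
        rw [← mul_assoc]
        refine mul_le_mul_of_nonneg_left ?_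
          (mul_nonneg (wt_nonneg hp₀0.le hp₀1 W) (wt_nonneg hp'0 hp'1 W₂))
        simp only [hP]
        by_cases h : ∃ j ∈ J' W, F W j ⊆ W₂
        · rw [if_pos h]
          obtain ⟨j, hj, hjW⟩ := h
          rw [hJ', mem_filter] at hj
          obtain ⟨i, hi, h, h'⟩ := hF1 W j hj.1
          rw [if_pos]
          refine ⟨i, hi, ?_⟩
          intro x hx
          by_cases hxW : x ∈ W
          · exact mem_union_left _ hxW
          · refine mem_union_right _ (hjW ?_)
            rw [h]
            exact mem_sdiff.2 ⟨hx, hxW⟩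
        · rw [if_neg h]
          split_ifs <;> norm_num
      refine le_trans ?_ (Finset.sum_le_sum fun W _ => h3 W)
      -- the number of lost indices
      have h4 : ∀ W : Finset X, ((J' W).card : ℝ) = J.card -
          ∑ t ∈ Finset.Ioc (k / 2) k, ((J.filter (fun j => (F W j).card = t)).card : ℝ) := by
        intro W
        have h5 : (J' W).card + (J.filter (fun j => ¬ (F W j).card ≤ k / 2)).card = J.card :=
          Finset.card_filter_add_card_filter_not _
        have h6 : (J.filter (fun j => ¬ (F W j).card ≤ k / 2)).card =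
            ∑ t ∈ Finset.Ioc (k / 2) k, (J.filter (fun j => (F W j).card = t)).card := by
          rw [Finset.card_eq_sum_card_fiberwise (f := fun j => (F W j).card)
            (t := Finset.Ioc (k / 2) k)]
          · refine Finset.sum_congr rfl fun t ht => ?_
            rw [mem_Ioc] at ht
            congr 1
            ext j
            simp only [mem_filter]
            constructor
            · rintro ⟨⟨a, _⟩, b⟩
              exact ⟨a, b⟩
            · rintro ⟨a, b⟩
              exact ⟨⟨a, by omega⟩, b⟩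
          · intro j hj
            have hj' : j ∈ J.filter (fun j => ¬ (F W j).card ≤ k / 2) := hj
            rw [mem_filter] at hj'
            have hle : (F W j).card ≤ k := by
              refine le_trans (card_le_card ?_) (hT j hj'.1)
              obtain ⟨i, _, h, h'⟩ := hF1 W j hj'.1
              rw [h]
              intro x hx
              rw [mem_sdiff] at hx
              rcases mem_union.1 (h' hx.1) with h2 | h2
              · exact absurd h2 hx.2
              · exact h2
            have : (F W j).card ∈ Finset.Ioc (k / 2) k := by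
              rw [mem_Ioc]; omega
            exact this
        rw [h6] at h5
        have h7 : ((J' W).card : ℝ) + ((∑ t ∈ Finset.Ioc (k / 2) k,
            (J.filter (fun j => (F W j).card = t)).card : ℕ) : ℝ) = J.card := by
          exact_mod_cast h5
        push_cast at h7
        linarith
      have h8 : ∑ W : Finset X, wt p₀ W * (((J' W).card : ℝ) / N -
          1 / 2 * (1 - (1 / 4 : ℝ) ^ (k / 2))) =
          (J.card : ℝ) / N - 1 / 2 * (1 - (1 / 4 : ℝ) ^ (k / 2)) -
          (∑ t ∈ Finset.Ioc (k / 2) k, ∑ W : Finset X, wt p₀ W *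
            ((J.filter (fun j => (F W j).card = t)).card : ℝ)) / N := by
        rw [Finset.sum_comm, Finset.sum_div]
        have h9 : ∀ W : Finset X, wt p₀ W * (((J' W).card : ℝ) / N -
            1 / 2 * (1 - (1 / 4 : ℝ) ^ (k / 2))) =
            wt p₀ W * ((J.card : ℝ) / N - 1 / 2 * (1 - (1 / 4 : ℝ) ^ (k / 2))) -
            (∑ t ∈ Finset.Ioc (k / 2) k, wt p₀ W *
              ((J.filter (fun j => (F W j).card = t)).card : ℝ)) / N := by
          intro W
          rw [h4, ← Finset.mul_sum]
          ring
        rw [Finset.sum_congr rfl fun W _ => h9 W, Finset.sum_sub_distrib, ← Finset.sum_mul,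
          wt_sum, one_mul]
      rw [h8]
      -- the bound for each `t`
      have h10 : ∀ t, ∑ W : Finset X, wt p₀ W *
            ((J.filter (fun j => (F W j).card = t)).card : ℝ) ≤
            (k.choose t : ℝ) * (1 / 64) ^ t * N := by
        intro t
        have h11 := count_frag J T k hT hr.le hN.le hspread hp₀0.le hp₀1 F hF1 hF2 t
        have h12 : p₀ ^ t = 64 ^ t * r ^ t := by rw [hp₀, mul_pow]
        have h13 : 0 < p₀ ^ t := by positivity
        rw [← mul_le_mul_iff_right₀ h13]
        refine h11.trans (le_of_eq ?_)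
        rw [h12]
        have : (64 : ℝ) ^ t * (1 / 64) ^ t = 1 := by
          rw [← mul_pow]; norm_num
        calc (k.choose t : ℝ) * r ^ t * N = (k.choose t : ℝ) * r ^ t * N * 1 := by ring
          _ = (k.choose t : ℝ) * r ^ t * N * ((64 : ℝ) ^ t * (1 / 64) ^ t) := by rw [this]
          _ = _ := by ring
      have h14 : (∑ t ∈ Finset.Ioc (k / 2) k, ∑ W : Finset X, wt p₀ W *
            ((J.filter (fun j => (F W j).card = t)).card : ℝ)) / N ≤
            2 ^ k * (1 / 64 : ℝ) ^ (k / 2 + 1) := by
        rw [div_le_iff₀ hN]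
        calc (∑ t ∈ Finset.Ioc (k / 2) k, ∑ W : Finset X, wt p₀ W *
            ((J.filter (fun j => (F W j).card = t)).card : ℝ))
            ≤ ∑ t ∈ Finset.Ioc (k / 2) k, (k.choose t : ℝ) * (1 / 64 : ℝ) ^ (k / 2 + 1) * N := by
              refine Finset.sum_le_sum fun t ht => (h10 t).trans ?_
              rw [mem_Ioc] at ht
              have : (1 / 64 : ℝ) ^ t ≤ (1 / 64 : ℝ) ^ (k / 2 + 1) :=
                pow_le_pow_of_le_one (by norm_num) (by norm_num) ht.1
              gcongr
          _ = (∑ t ∈ Finset.Ioc (k / 2) k, (k.choose t : ℝ)) *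
                (1 / 64 : ℝ) ^ (k / 2 + 1) * N := by
              rw [Finset.sum_mul, Finset.sum_mul]
          _ ≤ (∑ t ∈ Finset.range (k + 1), (k.choose t : ℝ)) *
                (1 / 64 : ℝ) ^ (k / 2 + 1) * N := by
              have : ∑ t ∈ Finset.Ioc (k / 2) k, (k.choose t : ℝ) ≤
                  ∑ t ∈ Finset.range (k + 1), (k.choose t : ℝ) := by
                refine Finset.sum_le_sum_of_subset_of_nonneg ?_ (fun _ _ _ => by positivity)
                intro t ht
                rw [mem_Ioc] at ht
                rw [mem_range]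
                omega
              gcongr
          _ = 2 ^ k * (1 / 64 : ℝ) ^ (k / 2 + 1) * N := by
              have := Nat.sum_range_choose k
              have h' : ∑ t ∈ Finset.range (k + 1), (k.choose t : ℝ) = 2 ^ k := by
                exact_mod_cast this
              rw [h']
      have h15 : 2 ^ k * (1 / 64 : ℝ) ^ (k / 2 + 1) ≤
          1 / 2 * ((1 / 4 : ℝ) ^ (k / 2) - (1 / 4 : ℝ) ^ k) := by
        set m := k / 2 with hm
        have hk1 : k ≤ 2 * m + 1 := by omega
        have hk2' : m + 1 ≤ k := by omega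
        have e1 : (2 : ℝ) ^ k ≤ 2 ^ (2 * m + 1) := pow_le_pow_right₀ (by norm_num) hk1
        have e2 : (1 / 4 : ℝ) ^ k ≤ (1 / 4 : ℝ) ^ (m + 1) :=
          pow_le_pow_of_le_one (by norm_num) (by norm_num) hk2'
        have e3 : (2 : ℝ) ^ (2 * m + 1) * (1 / 64 : ℝ) ^ (m + 1) = 1 / 32 * (1 / 16) ^ m := by
          rw [pow_succ, pow_mul, pow_succ]
          have : (1 / 16 : ℝ) ^ m = (2 ^ 2) ^ m * (1 / 64) ^ m := by
            rw [← mul_pow]; norm_num
          rw [this]
          ring
        have e4 : (1 / 16 : ℝ) ^ m ≤ (1 / 4 : ℝ) ^ m :=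
          pow_le_pow_left₀ (by norm_num) (by norm_num) m
        have e5 : (0 : ℝ) < (1 / 4 : ℝ) ^ m := by positivity
        calc (2 : ℝ) ^ k * (1 / 64 : ℝ) ^ (m + 1) ≤ 2 ^ (2 * m + 1) * (1 / 64 : ℝ) ^ (m + 1) := by
              gcongr
          _ = 1 / 32 * (1 / 16) ^ m := e3
          _ ≤ 1 / 32 * (1 / 4 : ℝ) ^ m := by gcongr
          _ ≤ 1 / 2 * ((1 / 4 : ℝ) ^ m - (1 / 4 : ℝ) ^ (m + 1)) := by
              rw [pow_succ]
              linarith
          _ ≤ _ := by linarith
      linarith

end FragAux

open Classical in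
/-- Park–Pham / Frankston–Kahn–Narayanan–Park for spread families. -/
theorem spread_threshold {X I : Type} [Fintype X] [Fintype I] [Nonempty I]
    (S : I → Finset X) (ℓ : ℕ) (hS : ∀ i, (S i).card ≤ ℓ) (r : ℝ) (hr : 0 < r)
    (hspread : ∀ R : Finset X,
      ((univ.filter (fun i => R ⊆ S i)).card : ℝ) ≤ r ^ R.card * Fintype.card I)
    (p : ℝ) (hp : p ≤ 1) (hlarge : 64 * r * (Nat.log 2 ℓ + 1) ≤ p) :
    1 / 2 ≤ ∑ W : Finset X, wt p W * (if ∃ i, S i ⊆ W then 1 else 0) := by
  have hN : (0 : ℝ) < Fintype.card I := by exact_mod_cast Fintype.card_pos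
  have hp0 : 0 ≤ p := le_trans (by positivity) hlarge
  have hL : (FragAux.L ℓ : ℝ) ≤ Nat.log 2 ℓ + 1 := by
    unfold FragAux.L
    split_ifs with h
    · push_cast; positivity
    · push_cast; exact le_rfl
  have h := FragAux.claim ℓ (univ : Finset I) S (fun j _ => hS j) r (Fintype.card I) hr hN
    (fun R => by convert hspread R) p hp hp0
    (le_trans (mul_le_mul_of_nonneg_left hL (by positivity)) hlarge)
  rw [Finset.card_univ, div_self hN.ne'] at h
  have h2 : (0 : ℝ) ≤ (1 / 4 : ℝ) ^ ℓ := by positivity
  have h3 : ∑ W : Finset X, wt p W * (if ∃ j ∈ (univ : Finset I), S j ⊆ W then (1 : ℝ) else 0) =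
      ∑ W : Finset X, wt p W * (if ∃ i, S i ⊆ W then 1 else 0) := by
    refine Finset.sum_congr rfl fun W _ => ?_
    simp
  rw [h3] at h
  linarith

end Vale.Agent.P064
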