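import Vale.Agent.P064.Tools

/-!
# P064: expectations over `G(n,p)` as sums over sets of edges
-/

namespace Vale.Agent.P064

open Finset
open scoped Pointwise

namespace ProbAux

theorem mem_eset {n : ℕ} (G : SimpleGraph (Fin n)) (e : PE n) : e ∈ eset G ↔ e.1 ∈ G.edgeSet := by
  classical
  simp [eset]

theorem card_filter_ncard {n : ℕ} (W : Finset (PE n)) (T : Set (Sym2 (Fin n)))
    (hT : ∀ e ∈ T, ¬ e.IsDiag) (h : ∀ e : PE n, e ∈ W ↔ e.1 ∈ T) : W.card = T.ncard := by
  classical
  have h1 : T = (W.map (Function.Embedding.subtype _) : Finset (Sym2 (Fin n))) := by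
    ext e
    simp only [Finset.coe_map, Set.mem_image, Finset.mem_coe, Function.Embedding.subtype_apply]
    constructor
    · intro he
      exact ⟨⟨e, hT e he⟩, (h _).2 he, rfl⟩
    · rintro ⟨x, hx, rfl⟩
      exact (h x).1 hx
  rw [h1, Set.ncard_coe_finset, Finset.card_map]

theorem card_eset {n : ℕ} (G : SimpleGraph (Fin n)) : (eset G).card = G.edgeSet.ncard :=
  card_filter_ncard _ _ (fun _ he => G.not_isDiag_of_mem_edgeSet he) (mem_eset G)

theorem eset_compl {n : ℕ} (G : SimpleGraph (Fin n)) : eset Gᶜ = (eset G)ᶜ := by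
  classical
  ext e
  rw [Finset.mem_compl, mem_eset, mem_eset]
  obtain ⟨e, hne⟩ := e
  induction e with
  | h x y =>
    have hxy : x ≠ y := by
      intro h
      exact hne (by rw [Sym2.mk_isDiag_iff]; exact h)
    simp only [SimpleGraph.mem_edgeSet, SimpleGraph.compl_adj]
    tauto

theorem gwt_eq {n : ℕ} (p : ℝ) (G : SimpleGraph (Fin n)) : gwt n p G = wt p (eset G) := by
  classical
  unfold gwt wt
  rw [← card_eset, ← card_eset, eset_compl, Finset.card_compl]

theorem eset_injective {n : ℕ} : Function.Injective (eset (n := n)) := by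
  intro G G' h
  ext x y
  by_cases hxy : x = y
  · subst hxy
    simp
  · have hne : ¬ (s(x, y)).IsDiag := by
      rw [Sym2.mk_isDiag_iff]; exact hxy
    have h1 := mem_eset G ⟨s(x, y), hne⟩
    have h2 := mem_eset G' ⟨s(x, y), hne⟩
    rw [h] at h1
    exact h1.symm.trans h2

theorem eset_surjective {n : ℕ} : Function.Surjective (eset (n := n)) := by
  classical
  intro W
  refine ⟨SimpleGraph.fromEdgeSet (Subtype.val '' (W : Set (PE n))), ?_⟩
  ext e
  rw [mem_eset, SimpleGraph.edgeSet_fromEdgeSet]
  constructor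
  · rintro ⟨⟨x, hx, hxe⟩, _⟩
    have : x = e := Subtype.ext hxe
    rw [← this]; exact hx
  · intro he
    exact ⟨⟨e, he, rfl⟩, e.2⟩

theorem sum_wt_superset {X : Type*} [Fintype X] [DecidableEq X] (p : ℝ) (A : Finset X) :
    ∑ W : Finset X, wt p W * (if A ⊆ W then 1 else 0) = p ^ A.card := by
  classical
  have h := Finset.prod_add (fun _ : X => p) (fun x => if x ∈ A then (0 : ℝ) else 1 - p) univ
  have h1 : ∏ x : X, (p + if x ∈ A then (0 : ℝ) else 1 - p) = p ^ A.card := by
    have : ∀ x : X, (p + if x ∈ A then (0 : ℝ) else 1 - p) = if x ∈ A then p else 1 := by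
      intro x
      split_ifs <;> ring
    rw [Finset.prod_congr rfl (fun x _ => this x), Finset.prod_ite, Finset.prod_const,
      Finset.prod_const_one, mul_one]
    congr 2
    ext; simp
  rw [← h1, h, Finset.powerset_univ]
  refine Finset.sum_congr rfl (fun W _ => ?_)
  rw [Finset.prod_const]
  by_cases hAW : A ⊆ W
  · rw [if_pos hAW, mul_one]
    unfold wt
    congr 1
    have : ∏ i ∈ univ \ W, (if i ∈ A then (0 : ℝ) else 1 - p) = ∏ i ∈ univ \ W, (1 - p) := by
      refine Finset.prod_congr rfl (fun x hx => ?_)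
      rw [Finset.mem_sdiff] at hx
      rw [if_neg (fun h => hx.2 (hAW h))]
    rw [this, Finset.prod_const, Finset.card_univ_sdiff]
  · rw [if_neg hAW, mul_zero]
    obtain ⟨x, hx, hxW⟩ := Finset.not_subset.1 hAW
    have : ∏ i ∈ univ \ W, (if i ∈ A then (0 : ℝ) else 1 - p) = 0 := by
      refine Finset.prod_eq_zero (i := x) ?_ (by rw [if_pos hx])
      rw [Finset.mem_sdiff]
      exact ⟨Finset.mem_univ _, hxW⟩
    rw [this, mul_zero]

end ProbAux

open ProbAux

/-- transfer of the sum over graphs to a sum over subsets of `PE n` -/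
theorem gE_eq_of_eset {n : ℕ} (p : ℝ) (f : Finset (PE n) → ℝ) :
    gE n p (fun G => f (eset G)) = ∑ W : Finset (PE n), wt p W * f W := by
  classical
  unfold gE
  exact Fintype.sum_bijective eset ⟨eset_injective, eset_surjective⟩ _ _
    (fun G => by rw [gwt_eq])

namespace ProbAux

/-- subgraphs of the complete graph -/
abbrev KS (n : ℕ) := (⊤ : SimpleGraph (Fin n)).Subgraph

open Classical in
/-- edge finset of a subgraph of the complete graph -/
noncomputable def eS {n : ℕ} (S : KS n) : Finset (PE n) :=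
  univ.filter (fun e => e.1 ∈ S.edgeSet)

theorem mem_eS {n : ℕ} (S : KS n) (e : PE n) : e ∈ eS S ↔ e.1 ∈ S.edgeSet := by
  classical
  simp [eS]

theorem card_eS {n : ℕ} (S : KS n) : (eS S).card = S.edgeSet.ncard :=
  card_filter_ncard _ _
    (fun _ he => (⊤ : SimpleGraph (Fin n)).not_isDiag_of_mem_edgeSet (S.edgeSet_subset he))
    (mem_eS S)

theorem ncard_coe {V : Type*} {G : SimpleGraph V} (S : G.Subgraph) :
    S.coe.edgeSet.ncard = S.edgeSet.ncard := by
  rw [← SimpleGraph.Subgraph.image_coe_edgeSet_coe,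
    Set.ncard_image_of_injective _ (Sym2.map.injective Subtype.val_injective)]

theorem ncard_iso {V W : Type*} {G : SimpleGraph V} {G' : SimpleGraph W} (e : G ≃g G') :
    G.edgeSet.ncard = G'.edgeSet.ncard :=
  Nat.card_congr e.mapEdgeSet

open Classical in
theorem copyCount_eq {n : ℕ} {W : Type*} (G : SimpleGraph (Fin n)) (F : SimpleGraph W) :
    G.copyCount F =
      (univ.filter (fun S : KS n => Nonempty (F ≃g S.coe) ∧ eS S ⊆ eset G)).card := by
  unfold SimpleGraph.copyCount
  refine Finset.card_bij' (fun (S : G.Subgraph) _ =>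
      ({ verts := S.verts
         Adj := S.Adj
         adj_sub := fun h => by simpa using h.ne
         edge_vert := S.edge_vert
         symm := S.symm } : KS n))
    (fun (S : KS n) hS =>
      ({ verts := S.verts
         Adj := S.Adj
         adj_sub := by
          intro a b hab
          have h2 := (Finset.mem_filter.1 hS).2.2
          have hne : ¬ (s(a, b)).IsDiag := by
            rw [Sym2.mk_isDiag_iff]; exact hab.ne
          have h3 : (⟨s(a, b), hne⟩ : PE n) ∈ eS S := (mem_eS S _).2 hab
          exact (mem_eset G _).1 (h2 h3)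
         edge_vert := S.edge_vert
         symm := S.symm } : G.Subgraph)) ?_ ?_ ?_ ?_
  · intro S hS
    rw [Finset.mem_filter]
    refine ⟨Finset.mem_univ _, ?_, ?_⟩
    · have h1 : Nonempty (F ≃g S.coe) := by simpa using hS
      exact h1
    · intro e he
      rw [mem_eS] at he
      rw [mem_eset]
      obtain ⟨e, hne⟩ := e
      induction e with
      | h x y => exact S.adj_sub he
  · intro S hS
    have h1 := (Finset.mem_filter.1 hS).2.1
    simp only [Finset.mem_filter, Finset.mem_univ, true_and]
    exact h1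
  · intro S hS
    rfl
  · intro S hS
    rfl

open Classical in
theorem copyCount_top_eq {n : ℕ} {W : Type*} (F : SimpleGraph W) :
    (⊤ : SimpleGraph (Fin n)).copyCount F =
      (univ.filter (fun S : KS n => Nonempty (F ≃g S.coe))).card := by
  rw [copyCount_eq]
  congr 1
  refine Finset.filter_congr (fun S _ => ?_)
  refine ⟨fun h => h.1, fun h => ⟨h, ?_⟩⟩
  intro e _
  rw [mem_eset]
  obtain ⟨e, hne⟩ := e
  induction e with
  | h x y =>
    rw [SimpleGraph.mem_edgeSet, SimpleGraph.top_adj]
    intro h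
    exact hne (by rw [Sym2.mk_isDiag_iff]; exact h)

open Classical in
theorem copyCount_eq_sum {n : ℕ} {W : Type*} (F : SimpleGraph W) (G : SimpleGraph (Fin n)) :
    (G.copyCount F : ℝ) = ∑ S ∈ univ.filter (fun S : KS n => Nonempty (F ≃g S.coe)),
        (if eS S ⊆ eset G then (1 : ℝ) else 0) := by
  rw [copyCount_eq, ← Finset.filter_filter, Finset.card_filter, Nat.cast_sum]
  refine Finset.sum_congr rfl (fun S _ => ?_)
  split_ifs <;> simp

open Classical in
theorem sum_wt_copies {n : ℕ} {W : Type*} (p : ℝ) (F : SimpleGraph W) :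
    ∑ U : Finset (PE n), wt p U * (∑ S ∈ univ.filter (fun S : KS n => Nonempty (F ≃g S.coe)),
        (if eS S ⊆ U then (1 : ℝ) else 0)) =
      ((univ.filter (fun S : KS n => Nonempty (F ≃g S.coe))).card : ℝ) *
        p ^ F.edgeSet.ncard := by
  simp only [Finset.mul_sum]
  rw [Finset.sum_comm]
  have h2 : ∀ S ∈ univ.filter (fun S : KS n => Nonempty (F ≃g S.coe)),
      ∑ U : Finset (PE n), wt p U * (if eS S ⊆ U then (1 : ℝ) else 0) = p ^ F.edgeSet.ncard := by
    intro S hS
    obtain ⟨e⟩ := (Finset.mem_filter.1 hS).2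
    rw [ncard_iso e, ncard_coe, ← card_eS]
    refine Eq.trans ?_ (sum_wt_superset p (eS S))
    refine Finset.sum_congr rfl (fun U _ => ?_)
    congr
  rw [Finset.sum_congr rfl h2, Finset.sum_const, nsmul_eq_mul]

end ProbAux

theorem gE_copyCount {n : ℕ} {W : Type} [Finite W] (p : ℝ) (F : SimpleGraph W) :
    gE n p (fun G => (G.copyCount F : ℝ)) =
      ((⊤ : SimpleGraph (Fin n)).copyCount F : ℝ) * p ^ F.edgeSet.ncard := by
  classical
  rw [copyCount_top_eq, ← sum_wt_copies, ← gE_eq_of_eset]
  congr 1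
  funext G
  exact copyCount_eq_sum F G

end Vale.Agent.P064
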