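import Vale.Agent.P064.Group
import Vale.Agent.P064.Fragment
import Vale.Agent.P064.Prob
import Vale.Agent.P064.Count

/-!
# P064: assembly
-/

namespace Vale.Agent.P064

open Finset
open scoped Pointwise

theorem eset_map_card {n : ℕ} {V : Type} [Finite V] (H : SimpleGraph V) (φ : V ↪ Fin n) :
    (eset (H.map φ)).card = H.edgeSet.ncard := by
  classical
  have h1 : (H.map φ).edgeSet.ncard = H.edgeSet.ncard := by
    rw [SimpleGraph.edgeSet_map]
    exact Set.ncard_image_of_injective _ (Function.Embedding.injective _)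
  rw [← h1]
  have h2 : (H.map φ).edgeSet = Subtype.val '' ((eset (H.map φ) : Finset (PE n)) : Set (PE n)) := by
    ext e
    simp only [eset, coe_filter, mem_univ, true_and, Set.mem_image, Set.mem_ofPred_eq]
    constructor
    · intro he
      exact ⟨⟨e, SimpleGraph.not_isDiag_of_mem_edgeSet _ he⟩, he, rfl⟩
    · rintro ⟨x, hx, rfl⟩
      exact hx
  rw [h2, Set.ncard_image_of_injective _ Subtype.val_injective, Set.ncard_coe_finset]

/-- The core statement: if `q` is admissible for `pE` then `r = C (log e(H) + 1) q` controls all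
embedding counts. -/
theorem emb_bound : ∃ C : ℝ, 0 < C ∧ ∀ (n : ℕ) (V : Type) [Fintype V]
    (H : SimpleGraph V) (φ : V ↪ Fin n) (q : ℝ), 0 ≤ q →
      (∀ F : H.Subgraph, 1 / 2 ≤ gE n q (fun G => (G.copyCount F.coe : ℝ))) →
      ∀ A : Finset (PE n),
        ((univ.filter (fun g : Equiv.Perm (Fin n) => g • A ⊆ eset (H.map φ))).card : ℝ) ≤
          (C * (1 + Real.log H.edgeSet.ncard) * q) ^ A.card * Nat.factorial n := by
  obtain ⟨C, hC, hspread⟩ := group_spread
  refine ⟨C * 2, by positivity, ?_⟩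
  intro n V _ H φ q hq hE A
  have hEc := eset_map_card H φ
  set E : Finset (PE n) := eset (H.map φ) with hEdef
  have hstab : ∀ U : Finset (PE n), U ⊆ E → U.Nonempty →
      ((univ.filter (fun g : Equiv.Perm (Fin n) => g • U = U)).card : ℝ) ≤
        (2 * q) ^ U.card * Fintype.card (Equiv.Perm (Fin n)) := by
    intro U hU hUn
    obtain ⟨F, hFc, hF⟩ := stab_bound H φ U hU
    have h1 := hE F
    rw [gE_copyCount, hFc] at h1
    have h2 : ((univ.filter (fun g : Equiv.Perm (Fin n) => g • U = U)).card : ℝ) *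
        ((⊤ : SimpleGraph (Fin n)).copyCount F.coe : ℝ) ≤ Nat.factorial n := by
      exact_mod_cast hF
    rw [Fintype.card_perm, Fintype.card_fin]
    have hs : (0 : ℝ) ≤ ((univ.filter (fun g : Equiv.Perm (Fin n) => g • U = U)).card : ℝ) :=
      Nat.cast_nonneg _
    have hqU : 0 ≤ q ^ U.card := pow_nonneg hq _
    calc ((univ.filter (fun g : Equiv.Perm (Fin n) => g • U = U)).card : ℝ)
        = ((univ.filter (fun g : Equiv.Perm (Fin n) => g • U = U)).card : ℝ) * (2 * (1 / 2)) := by
          ring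
      _ ≤ ((univ.filter (fun g : Equiv.Perm (Fin n) => g • U = U)).card : ℝ) *
          (2 * (((⊤ : SimpleGraph (Fin n)).copyCount F.coe : ℝ) * q ^ U.card)) := by gcongr
      _ = 2 * q ^ U.card * (((univ.filter (fun g : Equiv.Perm (Fin n) => g • U = U)).card : ℝ) *
          ((⊤ : SimpleGraph (Fin n)).copyCount F.coe : ℝ)) := by ring
      _ ≤ 2 * q ^ U.card * Nat.factorial n := by gcongr
      _ ≤ 2 ^ U.card * q ^ U.card * Nat.factorial n := by
          gcongr
          calc (2 : ℝ) = 2 ^ 1 := (pow_one _).symm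
            _ ≤ 2 ^ U.card := pow_le_pow_right₀ (by norm_num) hUn.card_pos
      _ = (2 * q) ^ U.card * Nat.factorial n := by rw [mul_pow]
  have h := hspread E (2 * q) (by positivity) hstab A
  rw [Fintype.card_perm, Fintype.card_fin, hEc] at h
  refine h.trans (le_of_eq ?_)
  congr 2
  ring

/-- edge count of `H` as a subgraph of itself: `q = 0` is not admissible -/
theorem q_pos {n : ℕ} {V : Type} [Finite V] (H : SimpleGraph V) (hH : H ≠ ⊥) (q : ℝ)
    (hq : 0 ≤ q)
    (hE : ∀ F : H.Subgraph, 1 / 2 ≤ gE n q (fun G => (G.copyCount F.coe : ℝ))) : 0 < q := by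
  rcases hq.lt_or_eq with h | h
  · exact h
  · exfalso
    have h1 := hE ⊤
    rw [gE_copyCount, ← h] at h1
    have h2 : (⊤ : H.Subgraph).coe.edgeSet.ncard ≠ 0 := by
      intro h0
      have hfin : (⊤ : H.Subgraph).coe.edgeSet.Finite := Set.toFinite _
      rw [Set.ncard_eq_zero hfin, SimpleGraph.edgeSet_eq_empty] at h0
      apply hH
      ext a b
      constructor
      · intro hab
        have : (⊤ : H.Subgraph).coe.Adj ⟨a, trivial⟩ ⟨b, trivial⟩ := by
          simpa using hab
        rw [h0] at this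
        exact absurd this (by simp)
      · intro hab; exact absurd hab (by simp)
    rw [zero_pow h2] at h1
    norm_num at h1

/-- value at `p = 1` -/
theorem wt_one_sum {n : ℕ} (f : Finset (PE n) → ℝ) :
    ∑ W : Finset (PE n), wt 1 W * f W = f univ := by
  rw [Finset.sum_eq_single univ]
  · simp [wt]
  · intro W _ hW
    have : W.card < Fintype.card (PE n) := by
      rw [← Finset.card_univ]
      exact Finset.card_lt_card (Finset.ssubset_univ_iff.2 hW)
    unfold wt
    rw [sub_self, zero_pow (by omega)]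
    ring
  · intro h; exact absurd (mem_univ _) h

open Classical in
/-- indicator of a proposition -/
noncomputable def ind (Q : Prop) : ℝ := if Q then 1 else 0

theorem ind_pos {Q : Prop} (h : Q) : ind Q = 1 := by unfold ind; rw [if_pos h]
theorem ind_neg {Q : Prop} (h : ¬ Q) : ind Q = 0 := by unfold ind; rw [if_neg h]
theorem ind_nonneg (Q : Prop) : 0 ≤ ind Q := by
  by_cases h : Q
  · rw [ind_pos h]; norm_num
  · rw [ind_neg h]

/-- the event that `W` contains a permuted copy of `E` -/
def evt {n : ℕ} (E W : Finset (PE n)) : Prop := ∃ g : Equiv.Perm (Fin n), g • E ⊆ W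

theorem spread_threshold_f {X I : Type} [Fintype X] [Fintype I] [Nonempty I]
    (S : I → Finset X) (ℓ : ℕ) (hS : ∀ i, (S i).card ≤ ℓ) (r : ℝ) (hr : 0 < r)
    (hspread : ∀ R : Finset X,
      (Nat.card {i : I // R ⊆ S i} : ℝ) ≤ r ^ R.card * Fintype.card I)
    (p : ℝ) (hp : p ≤ 1) (hlarge : 64 * r * (Nat.log 2 ℓ + 1) ≤ p)
    (f : Finset X → ℝ) (hf0 : ∀ W, 0 ≤ f W) (hf1 : ∀ W i, S i ⊆ W → 1 ≤ f W) :
    1 / 2 ≤ ∑ W : Finset X, wt p W * f W := by
  classical
  have hp0 : 0 ≤ p := by
    have : 0 ≤ 64 * r * ((Nat.log 2 ℓ : ℝ) + 1) := by positivity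
    linarith
  have hth := spread_threshold S ℓ hS r hr (fun R => by
    refine le_trans (le_of_eq ?_) (hspread R)
    rw [Nat.card_eq_fintype_card, Fintype.card_subtype]) p hp hlarge
  refine le_trans hth (sum_le_sum (fun W _ => ?_))
  have hw : 0 ≤ wt p W := by
    unfold wt
    have : 0 ≤ 1 - p := by linarith
    positivity
  apply mul_le_mul_of_nonneg_left _ hw
  split_ifs with h
  · obtain ⟨i, hi⟩ := h
    exact hf1 W i hi
  · exact hf0 W

theorem gP_ge {n : ℕ} {V : Type} (H : SimpleGraph V) (φ : V ↪ Fin n) (p : ℝ) (hp0 : 0 ≤ p)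
    (hp1 : p ≤ 1) :
    ∑ W : Finset (PE n), wt p W * ind (evt (eset (H.map φ)) W) ≤
      gP n p (fun G => 0 < G.copyCount H) := by
  classical
  rw [← gE_eq_of_eset (n := n) p (fun W => ind (evt (eset (H.map φ)) W))]
  unfold gP gE
  apply sum_le_sum
  intro G _
  have hw : 0 ≤ gwt n p G := by
    unfold gwt
    have : 0 ≤ 1 - p := by linarith
    positivity
  apply mul_le_mul_of_nonneg_left _ hw
  by_cases h : evt (eset (H.map φ)) (eset G)
  · have h2 : 0 < G.copyCount H := by
      obtain ⟨g, hg⟩ := h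
      exact copy_of_subset H φ g G hg
    simp only [h2, if_true]
    exact (ind_pos h).le
  · simp only [ind_neg h]
    split_ifs <;> norm_num

theorem one_mem_pc {n : ℕ} {V : Type} (H : SimpleGraph V) (φ : V ↪ Fin n) :
    1 / 2 ≤ gP n 1 (fun G => 0 < G.copyCount H) := by
  refine le_trans ?_ (gP_ge H φ 1 zero_le_one le_rfl)
  rw [wt_one_sum (n := n), ind_pos ⟨1, subset_univ _⟩]
  norm_num

/-- copies in `H` versus copies in the complete graph -/
theorem count_le {n : ℕ} {V : Type} [Fintype V] (H : SimpleGraph V) (φ : V ↪ Fin n)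
    (r : ℝ) (hr : 0 ≤ r)
    (hA : ∀ A : Finset (PE n),
        ((univ.filter (fun g : Equiv.Perm (Fin n) => g • A ⊆ eset (H.map φ))).card : ℝ) ≤
          r ^ A.card * Nat.factorial n) (F : H.Subgraph) :
    (H.copyCount F.coe : ℝ) ≤
      ((⊤ : SimpleGraph (Fin n)).copyCount F.coe : ℝ) * r ^ F.coe.edgeSet.ncard := by
  obtain ⟨A, hAc, hcount⟩ := count_bound H φ F
  have h1 := hA A
  rw [hAc] at h1
  have h2 : (H.copyCount F.coe : ℝ) * Nat.factorial n ≤
      ((univ.filter (fun g : Equiv.Perm (Fin n) => g • A ⊆ eset (H.map φ))).card : ℝ) *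
        ((⊤ : SimpleGraph (Fin n)).copyCount F.coe : ℝ) := by exact_mod_cast hcount
  have hn : (0 : ℝ) < Nat.factorial n := by exact_mod_cast Nat.factorial_pos n
  have h3 : (H.copyCount F.coe : ℝ) * Nat.factorial n ≤
      (((⊤ : SimpleGraph (Fin n)).copyCount F.coe : ℝ) * r ^ F.coe.edgeSet.ncard) *
        Nat.factorial n := by
    calc (H.copyCount F.coe : ℝ) * Nat.factorial n
        ≤ ((univ.filter (fun g : Equiv.Perm (Fin n) => g • A ⊆ eset (H.map φ))).card : ℝ) *
        ((⊤ : SimpleGraph (Fin n)).copyCount F.coe : ℝ) := h2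
      _ ≤ (r ^ F.coe.edgeSet.ncard * Nat.factorial n) *
        ((⊤ : SimpleGraph (Fin n)).copyCount F.coe : ℝ) := by gcongr
      _ = _ := by ring
  exact le_of_mul_le_mul_right h3 hn

theorem ptE_le {n : ℕ} {V : Type} [Fintype V] (H : SimpleGraph V) (φ : V ↪ Fin n)
    (r : ℝ) (hr : 0 ≤ r)
    (hA : ∀ A : Finset (PE n),
        ((univ.filter (fun g : Equiv.Perm (Fin n) => g • A ⊆ eset (H.map φ))).card : ℝ) ≤
          r ^ A.card * Nat.factorial n) : ptE n H ≤ r := by
  have hmem : ∀ p : ℝ, 0 ≤ p → p ≤ 1 → (p = 1 ∨ r ≤ p) → ptE n H ≤ p := by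
    intro p hp0 hp1 hp
    apply csInf_le ⟨0, fun x hx => hx.1⟩
    refine ⟨hp0, hp1, fun F => ?_⟩
    rw [gE_copyCount]
    have hcc : (0 : ℝ) ≤ (H.copyCount F.coe : ℝ) := Nat.cast_nonneg _
    rcases hp with hp | hp
    · subst hp
      have h1 := count_le H φ 1 zero_le_one (fun A => by
        rw [one_pow, one_mul]
        have h2 : (univ.filter (fun g : Equiv.Perm (Fin n) => g • A ⊆ eset (H.map φ))).card ≤
            Nat.factorial n := by
          calc _ ≤ Fintype.card (Equiv.Perm (Fin n)) := card_le_univ _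
            _ = Nat.factorial n := by rw [Fintype.card_perm, Fintype.card_fin]
        exact_mod_cast h2) F
      linarith
    · have h1 := count_le H φ r hr hA F
      have h2 : r ^ F.coe.edgeSet.ncard ≤ p ^ F.coe.edgeSet.ncard := pow_le_pow_left₀ hr hp _
      have h3 : ((⊤ : SimpleGraph (Fin n)).copyCount F.coe : ℝ) * r ^ F.coe.edgeSet.ncard ≤
          ((⊤ : SimpleGraph (Fin n)).copyCount F.coe : ℝ) * p ^ F.coe.edgeSet.ncard := by
        gcongr
      linarith
  rcases le_total r 1 with h | h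
  · exact hmem r hr h (Or.inr le_rfl)
  · exact (hmem 1 zero_le_one le_rfl (Or.inl rfl)).trans h

theorem pc_le {n : ℕ} {V : Type} [Finite V] (H : SimpleGraph V) (φ : V ↪ Fin n)
    (r : ℝ) (hr : 0 < r)
    (hA : ∀ A : Finset (PE n),
        ((univ.filter (fun g : Equiv.Perm (Fin n) => g • A ⊆ eset (H.map φ))).card : ℝ) ≤
          r ^ A.card * Nat.factorial n) :
    pc n H ≤ 64 * r * (Nat.log 2 (eset (H.map φ)).card + 1) := by
  classical
  set p₀ : ℝ := 64 * r * (Nat.log 2 (eset (H.map φ)).card + 1) with hp₀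
  have hp₀pos : 0 ≤ p₀ := by positivity
  rcases le_total p₀ 1 with h | h
  · apply csInf_le ⟨0, fun x hx => hx.1⟩
    refine ⟨hp₀pos, h, ?_⟩
    refine le_trans ?_ (gP_ge H φ p₀ hp₀pos h)
    have hspread : ∀ R : Finset (PE n),
        (Nat.card {g : Equiv.Perm (Fin n) // R ⊆ g • eset (H.map φ)} : ℝ) ≤
          r ^ R.card * Fintype.card (Equiv.Perm (Fin n)) := by
      intro R
      rw [Fintype.card_perm, Fintype.card_fin]
      refine le_trans ?_ (hA R)
      rw [Nat.card_eq_fintype_card, Fintype.card_subtype]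
      apply Nat.cast_le.2
      apply Finset.card_le_card_of_injOn (fun g => g⁻¹)
      · intro g hg
        simp only [coe_filter, mem_univ, true_and, Set.mem_ofPred_eq] at hg ⊢
        have h2 := Finset.smul_finset_subset_smul_finset (a := g⁻¹) hg
        rwa [inv_smul_smul] at h2
      · intro a _ b _ hab
        exact inv_injective hab
    exact spread_threshold_f (fun g : Equiv.Perm (Fin n) => g • eset (H.map φ))
      (eset (H.map φ)).card (fun g => (Finset.card_smul_finset g _).le) r hr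
      hspread p₀ h le_rfl (fun W => ind (evt (eset (H.map φ)) W)) (fun W => ind_nonneg _)
      (fun W g hg => (ind_pos ⟨g, hg⟩).ge)
  · refine le_trans ?_ h
    apply csInf_le ⟨0, fun x hx => hx.1⟩
    exact ⟨zero_le_one, le_rfl, one_mem_pc H φ⟩

theorem main_e : ∃ C : ℝ, 0 < C ∧ ∀ (n : ℕ) (V : Type) [Fintype V]
    (H : SimpleGraph V), Fintype.card V ≤ n → H ≠ ⊥ →
      ptE n H ≤ C * (1 + Real.log H.edgeSet.ncard) * pE n H ∧
      pc n H ≤ C * (1 + Real.log H.edgeSet.ncard) ^ 2 * pE n H := by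
  obtain ⟨C, hC, hemb⟩ := emb_bound
  refine ⟨C * 64 * 2, by positivity, ?_⟩
  intro n V _ H hV hH
  obtain ⟨φ⟩ : Nonempty (V ↪ Fin n) :=
    Function.Embedding.nonempty_of_card_le (by rwa [Fintype.card_fin])
  have hEc := eset_map_card H φ
  set ℒ : ℝ := 1 + Real.log H.edgeSet.ncard with hℒ
  have hℒpos : 1 ≤ ℒ := by
    have := Real.log_natCast_nonneg H.edgeSet.ncard
    linarith
  have hlog2 : 0.69 < Real.log 2 := by linarith [Real.log_two_gt_d9]
  -- bounds for every admissible `q`
  have key : ∀ q : ℝ, 0 ≤ q → (∀ F : H.Subgraph,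
      1 / 2 ≤ gE n q (fun G => (G.copyCount F.coe : ℝ))) →
      ptE n H ≤ C * ℒ * q ∧ pc n H ≤ C * 64 * 2 * ℒ ^ 2 * q := by
    intro q hq hE
    have hqpos : 0 < q := q_pos H hH q hq hE
    have hA := hemb n V H φ q hq hE
    have hr : 0 < C * ℒ * q := by positivity
    refine ⟨ptE_le H φ _ hr.le hA, (pc_le H φ _ hr hA).trans ?_⟩
    have hlogE : (Nat.log 2 (eset (H.map φ)).card : ℝ) + 1 ≤ 2 * ℒ := by
      rw [hEc]
      rcases Nat.eq_zero_or_pos H.edgeSet.ncard with h0 | h0
      · rw [h0]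
        simp only [Nat.log_zero_right, Nat.cast_zero, zero_add]
        linarith
      · have h3 : 2 ^ Nat.log 2 H.edgeSet.ncard ≤ H.edgeSet.ncard :=
          Nat.pow_log_le_self 2 h0.ne'
        have h4 : (2 : ℝ) ^ Nat.log 2 H.edgeSet.ncard ≤ (H.edgeSet.ncard : ℝ) := by
          exact_mod_cast h3
        have h5 := Real.log_le_log (by positivity) h4
        rw [Real.log_pow] at h5
        have h7 : (0 : ℝ) ≤ Nat.log 2 H.edgeSet.ncard := Nat.cast_nonneg _
        rw [hℒ]
        nlinarith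
    calc 64 * (C * ℒ * q) * (Nat.log 2 (eset (H.map φ)).card + 1)
        ≤ 64 * (C * ℒ * q) * (2 * ℒ) := by gcongr
      _ = C * 64 * 2 * ℒ ^ 2 * q := by ring
  -- pass to the infimum
  have hset : ({p : ℝ | 0 ≤ p ∧ p ≤ 1 ∧
      ∀ F : H.Subgraph, 1 / 2 ≤ gE n p (fun G => (G.copyCount F.coe : ℝ))}).Nonempty := by
    refine ⟨1, zero_le_one, le_rfl, fun F => ?_⟩
    rw [gE_copyCount, one_pow, mul_one]
    have h1 := count_le H φ 1 zero_le_one (fun A => by
        rw [one_pow, one_mul]
        have h2 : (univ.filter (fun g : Equiv.Perm (Fin n) => g • A ⊆ eset (H.map φ))).card ≤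
            Nat.factorial n := by
          calc _ ≤ Fintype.card (Equiv.Perm (Fin n)) := card_le_univ _
            _ = Nat.factorial n := by rw [Fintype.card_perm, Fintype.card_fin]
        exact_mod_cast h2) F
    rw [one_pow, mul_one] at h1
    have h2 : (1 : ℝ) ≤ (H.copyCount F.coe : ℝ) := by
      have : 0 < H.copyCount F.coe := SimpleGraph.copyCount_pos.2 F.coe_isContained
      exact_mod_cast this
    linarith
  have hpE0 : 0 ≤ pE n H := Real.sInf_nonneg (fun q hq => hq.1)
  constructor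
  · have hptE : ptE n H ≤ C * ℒ * pE n H := by
      rw [mul_comm, ← div_le_iff₀ (by positivity)]
      apply le_csInf hset
      intro q hq
      rw [div_le_iff₀ (by positivity), mul_comm]
      exact (key q hq.1 hq.2.2).1
    refine hptE.trans ?_
    have : C * ℒ * pE n H ≤ (C * ℒ * pE n H) * (64 * 2) := by
      apply le_mul_of_one_le_right (by positivity) (by norm_num)
    linarith
  · rw [mul_comm, ← div_le_iff₀ (by positivity)]
    apply le_csInf hset
    intro q hq
    rw [div_le_iff₀ (by positivity), mul_comm]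
    exact (key q hq.1 hq.2.2).2

/-- Final statement: both the `log e(H)` and the `log n` versions. -/
theorem main : ∃ C : ℝ, 0 < C ∧ ∀ (n : ℕ), 2 ≤ n → ∀ (V : Type) [Fintype V]
    (H : SimpleGraph V), Fintype.card V ≤ n → H ≠ ⊥ →
      ptE n H ≤ C * Real.log n * pE n H ∧
      pc n H ≤ C * Real.log n ^ 2 * pE n H ∧
      ptE n H ≤ C * (1 + Real.log H.edgeSet.ncard) * pE n H ∧
      pc n H ≤ C * (1 + Real.log H.edgeSet.ncard) ^ 2 * pE n H := by
  obtain ⟨C, hC, hmain⟩ := main_e
  refine ⟨C * 16, by positivity, ?_⟩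
  intro n hn V _ H hV hH
  obtain ⟨h1, h2⟩ := hmain n V H hV hH
  have hpE0 : 0 ≤ pE n H := Real.sInf_nonneg (fun q hq => hq.1)
  have hn' : (2 : ℝ) ≤ n := by exact_mod_cast hn
  have hlogn : Real.log 2 ≤ Real.log n := Real.log_le_log (by norm_num) hn'
  have hlog2 : 0.69 < Real.log 2 := by linarith [Real.log_two_gt_d9]
  obtain ⟨φ⟩ : Nonempty (V ↪ Fin n) :=
    Function.Embedding.nonempty_of_card_le (by rwa [Fintype.card_fin])
  have hEc := eset_map_card H φ
  have hEcard : (H.edgeSet.ncard : ℝ) ≤ (n : ℝ) ^ 2 := by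
    have h3 : H.edgeSet.ncard ≤ n ^ 2 := by
      rw [← hEc]
      calc (eset (H.map φ)).card ≤ Fintype.card (PE n) := card_le_univ _
        _ = n.choose 2 := by rw [Sym2.card_subtype_not_diag, Fintype.card_fin]
        _ ≤ n ^ 2 := Nat.choose_le_pow n 2
    exact_mod_cast h3
  have hElog : Real.log H.edgeSet.ncard ≤ 2 * Real.log n := by
    rcases Nat.eq_zero_or_pos H.edgeSet.ncard with h0 | h0
    · rw [h0]; simp only [Nat.cast_zero, Real.log_zero]; linarith
    · have : (0 : ℝ) < H.edgeSet.ncard := by exact_mod_cast h0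
      calc Real.log H.edgeSet.ncard ≤ Real.log ((n : ℝ) ^ 2) := Real.log_le_log this hEcard
        _ = 2 * Real.log n := by rw [Real.log_pow]; push_cast; ring
  have hE0 : 0 ≤ Real.log H.edgeSet.ncard := Real.log_natCast_nonneg _
  have hb : 1 + Real.log H.edgeSet.ncard ≤ 4 * Real.log n := by linarith
  have hlogpos : 0 < Real.log n := by linarith
  refine ⟨?_, ?_, ?_, ?_⟩
  · refine h1.trans ?_
    calc C * (1 + Real.log H.edgeSet.ncard) * pE n H ≤ C * (4 * Real.log n) * pE n H := by gcongr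
      _ ≤ C * (16 * Real.log n) * pE n H := by gcongr; norm_num
      _ = C * 16 * Real.log n * pE n H := by ring
  · refine h2.trans ?_
    calc C * (1 + Real.log H.edgeSet.ncard) ^ 2 * pE n H
        ≤ C * (4 * Real.log n) ^ 2 * pE n H := by gcongr
      _ = C * 16 * Real.log n ^ 2 * pE n H := by ring
  · refine h1.trans ?_
    have : 0 ≤ C * (1 + Real.log H.edgeSet.ncard) * pE n H := by positivity
    nlinarith
  · refine h2.trans ?_
    have : 0 ≤ C * (1 + Real.log H.edgeSet.ncard) ^ 2 * pE n H := by positivity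
    nlinarith

end Vale.Agent.P064
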