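import Vale.Agent.P064.Tools

/-!
# P064, part A: the group inequality
-/

namespace Vale.Agent.P064

open Finset
open scoped Pointwise

namespace GroupPart

set_option linter.unusedSectionVars false

variable {G X : Type} [Group G] [Fintype G] [Fintype X] [DecidableEq X] [MulAction G X]

/-- number of `g` with `g • F ⊆ A` -/
def emb (G : Type) {X : Type} [Group G] [Fintype G] [DecidableEq X] [MulAction G X]
    (F A : Finset X) : ℕ := (univ.filter (fun g : G => g • F ⊆ A)).card

/-- `L F T h = ∑` over all `T`-tuples `(g_1,…,g_T)` of `h (g_1 F ∪ … ∪ g_T F)`. -/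
def L (G : Type) {X : Type} [Group G] [Fintype G] [DecidableEq X] [MulAction G X]
    (F : Finset X) : ℕ → (Finset X → ℝ) → ℝ
  | 0, h => h ∅
  | T + 1, h => L G F T (fun U => ∑ g : G, h (U ∪ g • F))

theorem L_mono (F : Finset X) (T : ℕ) : ∀ (h h' : Finset X → ℝ), (∀ U, h U ≤ h' U) →
    L G F T h ≤ L G F T h' := by
  induction T with
  | zero => intro h h' hh; exact hh ∅
  | succ T ih =>
    intro h h' hh
    exact ih _ _ (fun U => sum_le_sum (fun g _ => hh _))

theorem L_sum {ι : Type} (s : Finset ι) (F : Finset X) (T : ℕ) : ∀ (h : ι → Finset X → ℝ),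
    L G F T (fun U => ∑ i ∈ s, h i U) = ∑ i ∈ s, L G F T (h i) := by
  induction T with
  | zero => intro h; rfl
  | succ T ih =>
    intro h
    have := ih (fun i U => ∑ g : G, h i (U ∪ g • F))
    simp only [L]
    rw [← this]
    congr 1
    funext U
    exact sum_comm

theorem L_mul (F : Finset X) (T : ℕ) : ∀ (c : ℝ) (h : Finset X → ℝ),
    L G F T (fun U => c * h U) = c * L G F T h := by
  induction T with
  | zero => intro c h; rfl
  | succ T ih =>
    intro c h
    simp only [L]
    rw [← ih]
    congr 1
    funext U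
    rw [mul_sum]

theorem L_inv (F : Finset X) (T : ℕ) : ∀ (k : G) (h : Finset X → ℝ),
    L G F T (fun U => h (k • U)) = L G F T h := by
  induction T with
  | zero => intro k h; simp [L]
  | succ T ih =>
    intro k h
    simp only [L]
    rw [← ih k (fun U => ∑ g : G, h (U ∪ g • F))]
    congr 1
    funext U
    have : ∀ g : G, h (k • (U ∪ g • F)) = h (k • U ∪ (k * g) • F) := by
      intro g
      rw [Finset.smul_finset_union, mul_smul]
    simp_rw [this]
    exact (Group.mulLeft_bijective k).sum_comp (fun g => h (k • U ∪ g • F))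

/-- tuples whose union lies in `B` -/
theorem L_subset (F B : Finset X) (T : ℕ) :
    L G F T (fun U => if U ⊆ B then (1 : ℝ) else 0) = (emb G F B : ℝ) ^ T := by
  induction T with
  | zero => simp [L]
  | succ T ih =>
    simp only [L]
    have : (fun U : Finset X => ∑ g : G, (if U ∪ g • F ⊆ B then (1 : ℝ) else 0)) =
        fun U => (emb G F B : ℝ) * (if U ⊆ B then (1 : ℝ) else 0) := by
      funext U
      by_cases hU : U ⊆ B
      · simp only [hU, if_true, mul_one, emb]
        rw [← Finset.sum_boole]
        apply sum_congr rfl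
        intro g _
        simp [union_subset_iff, hU]
      · have : ∀ g : G, ¬ (U ∪ g • F ⊆ B) := fun g h => hU (subset_union_left.trans h)
        simp [hU, this]
    rw [this, L_mul, ih, pow_succ]
    ring

theorem emb_translate (P U A : Finset X) (h : G) (hU : h • U ⊆ A) :
    emb G P U ≤ emb G P A := by
  unfold emb
  apply Finset.card_le_card_of_injOn (fun g => h * g)
  · intro g hg
    simp only [coe_filter, mem_univ, true_and, Set.mem_setOf_eq] at hg ⊢
    rw [mul_smul]
    exact (Finset.smul_finset_subset_smul_finset hg).trans hU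
  · intro a _ b _ hab
    exact mul_left_cancel hab

open Classical in
/-- weight of the family of sets having a translate inside `A` -/
noncomputable def zw (G : Type) {X : Type} [Group G] [DecidableEq X] [MulAction G X]
    (A : Finset X) (y : ℝ) (U : Finset X) : ℝ :=
  if ∃ h : G, h • U ⊆ A then y ^ U.card else 0

theorem zw_nonneg (A : Finset X) {y : ℝ} (hy : 0 ≤ y) (U : Finset X) : 0 ≤ zw G A y U := by
  unfold zw; split_ifs
  · positivity
  · exact le_rfl

/-- one step of the exploration -/
theorem zw_step (F A : Finset X) (κ y : ℝ) (hκ : 0 ≤ κ) (hy : 0 ≤ y)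
    (h1 : ∀ P : Finset X, (emb G P A : ℝ) ≤ κ ^ P.card * Fintype.card G) (U : Finset X) :
    ∑ g : G, zw G A y (U ∪ g • F) ≤
      (Fintype.card G * (κ + y) ^ F.card) * zw G A y U := by
  by_cases hU : ∃ h : G, h • U ⊆ A
  · obtain ⟨h, hU'⟩ := hU
    have hz : zw G A y U = y ^ U.card := by
      unfold zw; rw [if_pos ⟨h, hU'⟩]
    rw [hz]
    -- pattern of `g`
    let pat : G → Finset X := fun g => F.filter (fun x => g • x ∈ U)
    have hcard : ∀ g : G, (U ∪ g • F).card = U.card + (F.card - (pat g).card) := by
      intro g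
      have h1 : (U ∪ g • F).card = U.card + (g • F \ U).card := by
        rw [← card_union_of_disjoint (disjoint_sdiff), union_sdiff_self_eq_union]
      rw [h1]
      congr 1
      have h2 : g • F \ U = g • (F \ pat g) := by
        ext x
        simp only [mem_sdiff, Finset.mem_smul_finset, pat, mem_filter]
        constructor
        · rintro ⟨⟨z, hz, rfl⟩, hx⟩
          exact ⟨z, ⟨hz, fun h => hx h.2⟩, rfl⟩
        · rintro ⟨z, ⟨hz, hz2⟩, rfl⟩
          exact ⟨⟨z, hz, rfl⟩, fun h => hz2 ⟨hz, h⟩⟩
      rw [h2, Finset.card_smul_finset, card_sdiff_of_subset (filter_subset _ _)]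
    have hle : ∀ g : G, zw G A y (U ∪ g • F) ≤ y ^ U.card * y ^ (F.card - (pat g).card) := by
      intro g
      rw [← pow_add, ← hcard g]
      unfold zw
      split_ifs
      · exact le_rfl
      · positivity
    calc ∑ g : G, zw G A y (U ∪ g • F) ≤ ∑ g : G, y ^ U.card * y ^ (F.card - (pat g).card) :=
          sum_le_sum (fun g _ => hle g)
      _ = y ^ U.card * ∑ g : G, y ^ (F.card - (pat g).card) := by rw [mul_sum]
      _ ≤ y ^ U.card * (Fintype.card G * (κ + y) ^ F.card) := by
          apply mul_le_mul_of_nonneg_left _ (by positivity)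
          calc ∑ g : G, y ^ (F.card - (pat g).card)
              = ∑ P ∈ F.powerset, ∑ g ∈ univ.filter (fun g : G => pat g = P),
                  y ^ (F.card - (pat g).card) := by
                rw [Finset.sum_fiberwise_of_maps_to]
                intro g _
                exact mem_powerset.2 (filter_subset _ _)
            _ ≤ ∑ P ∈ F.powerset, (κ ^ P.card * Fintype.card G) * y ^ (F.card - P.card) := by
                apply sum_le_sum
                intro P _
                calc ∑ g ∈ univ.filter (fun g : G => pat g = P), y ^ (F.card - (pat g).card)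
                    = ∑ g ∈ univ.filter (fun g : G => pat g = P), y ^ (F.card - P.card) := by
                      apply sum_congr rfl
                      intro g hg
                      rw [(mem_filter.1 hg).2]
                  _ = (univ.filter (fun g : G => pat g = P)).card * y ^ (F.card - P.card) := by
                      rw [sum_const, nsmul_eq_mul]
                  _ ≤ (κ ^ P.card * Fintype.card G) * y ^ (F.card - P.card) := by
                      apply mul_le_mul_of_nonneg_right _ (by positivity)
                      refine le_trans ?_ (h1 P)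
                      refine le_trans ?_ (Nat.cast_le.2 (emb_translate P U A h hU'))
                      unfold emb
                      apply Nat.cast_le.2
                      apply card_le_card
                      intro g hg
                      simp only [mem_filter, mem_univ, true_and] at hg ⊢
                      rw [← hg]
                      intro x hx
                      obtain ⟨z, hz, rfl⟩ := Finset.mem_smul_finset.1 hx
                      exact (mem_filter.1 hz).2
            _ = Fintype.card G * ∑ P ∈ F.powerset, κ ^ P.card * y ^ (F.card - P.card) := by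
                rw [mul_sum]
                apply sum_congr rfl
                intro P _
                ring
            _ = Fintype.card G * (κ + y) ^ F.card := by
                rw [Finset.sum_pow_mul_eq_add_pow]
      _ = (Fintype.card G * (κ + y) ^ F.card) * y ^ U.card := by ring
  · have h0 : zw G A y U = 0 := by unfold zw; rw [if_neg hU]
    have h1 : ∀ g : G, zw G A y (U ∪ g • F) = 0 := by
      intro g
      unfold zw
      rw [if_neg]
      rintro ⟨h, hh⟩
      exact hU ⟨h, (Finset.smul_finset_subset_smul_finset subset_union_left).trans hh⟩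
    rw [h0, mul_zero]
    exact le_of_eq (sum_eq_zero (fun g _ => h1 g))

theorem L_zw (F A : Finset X) (κ y : ℝ) (hκ : 0 ≤ κ) (hy : 0 ≤ y)
    (h1 : ∀ P : Finset X, (emb G P A : ℝ) ≤ κ ^ P.card * Fintype.card G) (T : ℕ) :
    L G F T (zw G A y) ≤ (Fintype.card G * (κ + y) ^ F.card) ^ T := by
  induction T with
  | zero =>
    simp only [L, pow_zero]
    unfold zw
    split_ifs <;> simp
  | succ T ih =>
    simp only [L]
    calc L G F T (fun U => ∑ g : G, zw G A y (U ∪ g • F))
        ≤ L G F T (fun U => (Fintype.card G * (κ + y) ^ F.card) * zw G A y U) :=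
          L_mono _ _ _ _ (fun U => zw_step F A κ y hκ hy h1 U)
      _ = (Fintype.card G * (κ + y) ^ F.card) * L G F T (zw G A y) := L_mul _ _ _ _
      _ ≤ (Fintype.card G * (κ + y) ^ F.card) * (Fintype.card G * (κ + y) ^ F.card) ^ T :=
          mul_le_mul_of_nonneg_left ih (by positivity)
      _ = (Fintype.card G * (κ + y) ^ F.card) ^ (T + 1) := by rw [pow_succ]; ring

open Classical in
/-- number of tuples with a given union `U ⊆ A` -/
theorem L_eq_bound (F A : Finset X) (κ y : ℝ) (hκ : 0 ≤ κ) (hy : 0 ≤ y)
    (h1 : ∀ P : Finset X, (emb G P A : ℝ) ≤ κ ^ P.card * Fintype.card G) (T : ℕ)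
    (U : Finset X) (hU : U ⊆ A) :
    L G F T (fun W => if W = U then (1 : ℝ) else 0) * Fintype.card G * y ^ U.card ≤
      (univ.filter (fun g : G => g • U = U)).card *
        (Fintype.card G * (κ + y) ^ F.card) ^ T := by
  have e1 : ∀ k : G, L G F T (fun W => if k • W = U then (1 : ℝ) else 0) =
      L G F T (fun W => if W = U then (1 : ℝ) else 0) := fun k =>
    L_inv F T k (fun W => if W = U then (1 : ℝ) else 0)
  have e2 : L G F T (fun W => if W = U then (1 : ℝ) else 0) * Fintype.card G * y ^ U.card =
      L G F T (fun W => y ^ U.card * ∑ k : G, (if k • W = U then (1 : ℝ) else 0)) := by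
    rw [L_mul, L_sum, sum_congr rfl (fun k _ => e1 k), sum_const, nsmul_eq_mul, card_univ]
    ring
  rw [e2]
  calc L G F T (fun W => y ^ U.card * ∑ k : G, (if k • W = U then (1 : ℝ) else 0))
      ≤ L G F T (fun W => ((univ.filter (fun g : G => g • U = U)).card : ℝ) * zw G A y W) := by
        apply L_mono
        intro W
        by_cases hW : ∃ k : G, k • W = U
        · obtain ⟨k, hk⟩ := hW
          have hc : W.card = U.card := by rw [← hk, Finset.card_smul_finset]
          have hz : zw G A y W = y ^ U.card := by
            unfold zw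
            rw [if_pos ⟨k, by rw [hk]; exact hU⟩, hc]
          rw [hz, Finset.sum_boole, mul_comm]
          apply mul_le_mul_of_nonneg_right _ (by positivity)
          apply Nat.cast_le.2
          apply Finset.card_le_card_of_injOn (fun g => g * k⁻¹)
          · intro g hg
            simp only [coe_filter, mem_univ, true_and, Set.mem_setOf_eq] at hg ⊢
            rw [mul_smul, ← hk, inv_smul_smul, hg, hk]
          · intro a _ b _ hab
            exact mul_right_cancel hab
        · have : ∀ k : G, ¬ (k • W = U) := fun k hk => hW ⟨k, hk⟩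
          simp only [this, if_false, sum_const_zero, mul_zero]
          exact mul_nonneg (Nat.cast_nonneg _) (zw_nonneg A hy W)
    _ = (univ.filter (fun g : G => g • U = U)).card * L G F T (zw G A y) := L_mul _ _ _ _
    _ ≤ _ := mul_le_mul_of_nonneg_left (L_zw F A κ y hκ hy h1 T) (Nat.cast_nonneg _)

/-- the core estimate for a pair `(A, F)` satisfying the extremality conditions -/
theorem core (A F : Finset X) (κ q ε : ℝ) (hκ : 0 < κ) (hq : 0 ≤ q) (hε : 0 < ε) (hε1 : ε ≤ 1)
    (hF : F.Nonempty) (hFA : F.card ≤ A.card)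
    (h1 : ∀ P : Finset X, (emb G P A : ℝ) ≤ κ ^ P.card * Fintype.card G)
    (h2 : (emb G F A : ℝ) = κ ^ F.card * Fintype.card G)
    (h3 : ∀ e ∈ A, (emb G F (A.erase e) : ℝ) ≤
      κ ^ F.card * Fintype.card G * Real.exp (-(ε * F.card / A.card)))
    (h4 : ∀ U : Finset X, U ⊆ A → U.Nonempty →
      ((univ.filter (fun g : G => g • U = U)).card : ℝ) ≤ q ^ U.card * Fintype.card G) :
    κ ≤ 30 ^ 4 * q / ε := by
  classical
  by_contra hcon
  push Not at hcon
  have hf : (1 : ℝ) ≤ F.card := by exact_mod_cast hF.card_pos
  have hm : (1 : ℝ) ≤ A.card := by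
    exact_mod_cast (lt_of_lt_of_le hF.card_pos hFA)
  have hfm : (F.card : ℝ) ≤ A.card := by exact_mod_cast hFA
  have hG : (0 : ℝ) < Fintype.card G := by exact_mod_cast Fintype.card_pos
  set f : ℝ := (F.card : ℝ) with hfdef
  set m : ℝ := (A.card : ℝ) with hmdef
  set y : ℝ := ε * κ with hy
  have hy0 : 0 < y := by positivity
  have hqy : q ≤ y / 30 ^ 4 := by
    rw [div_lt_iff₀ hε] at hcon
    rw [le_div_iff₀ (by norm_num)]
    nlinarith
  set T : ℕ := ⌈m / (ε * f)⌉₊ with hT
  have hT1 : m / (ε * f) ≤ T := Nat.le_ceil _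
  have hT2 : (T : ℝ) ≤ m / (ε * f) + 1 := (Nat.ceil_lt_add_one (by positivity)).le
  have hTa : 1 ≤ T * (ε * f / m) := by
    have : m ≤ T * (ε * f) := by
      rwa [div_le_iff₀ (by positivity)] at hT1
    rw [← mul_div_assoc, le_div_iff₀ (by linarith)]
    linarith
  have hTb : ε * (f * T) ≤ 2 * m := by
    have h5 : f * T ≤ m / ε + f := by
      calc f * T ≤ f * (m / (ε * f) + 1) := by gcongr
        _ = m / ε + f := by field_simp
    calc ε * (f * T) ≤ ε * (m / ε + f) := by gcongr
      _ = m + ε * f := by field_simp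
      _ ≤ m + 1 * m := by gcongr
      _ = 2 * m := by ring
  set N : ℝ := κ ^ F.card * Fintype.card G with hN
  have hNpos : 0 < N := by positivity
  -- total number of tuples inside `A`
  have ha : L G F T (fun U => if U ⊆ A then (1 : ℝ) else 0) = N ^ T := by
    rw [L_subset, h2]
  -- expected number of uncovered elements
  have hb : L G F T (fun U => ∑ e ∈ A, (if U ⊆ A.erase e then (1 : ℝ) else 0)) ≤
      m * (N ^ T * Real.exp (-1)) := by
    rw [L_sum]
    calc ∑ e ∈ A, L G F T (fun U => if U ⊆ A.erase e then (1 : ℝ) else 0)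
        ≤ ∑ e ∈ A, N ^ T * Real.exp (-1) := by
          apply sum_le_sum
          intro e he
          rw [L_subset]
          calc (emb G F (A.erase e) : ℝ) ^ T ≤ (N * Real.exp (-(ε * f / m))) ^ T := by
                apply pow_le_pow_left₀ (Nat.cast_nonneg _)
                exact h3 e he
            _ = N ^ T * Real.exp (-(T * (ε * f / m))) := by
                rw [mul_pow, ← Real.exp_nat_mul]
                congr 2; ring
            _ ≤ N ^ T * Real.exp (-1) := by
                apply mul_le_mul_of_nonneg_left _ (by positivity)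
                apply Real.exp_le_exp.2
                linarith
      _ = m * (N ^ T * Real.exp (-1)) := by rw [sum_const, nsmul_eq_mul]
  -- pointwise inequality
  have hc : ∀ U : Finset X, (3 * m / 4) * (if U ⊆ A then (1 : ℝ) else 0) ≤
      (∑ e ∈ A, (if U ⊆ A.erase e then (1 : ℝ) else 0)) +
        (3 * m / 4) * (if U ⊆ A ∧ A.card ≤ 4 * U.card then (1 : ℝ) else 0) := by
    intro U
    by_cases hU : U ⊆ A
    · by_cases hU4 : A.card ≤ 4 * U.card
      · simp only [hU, hU4, and_self, if_true]
        have : 0 ≤ ∑ e ∈ A, (if U ⊆ A.erase e then (1 : ℝ) else 0) :=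
          sum_nonneg (fun e _ => by split_ifs <;> norm_num)
        linarith
      · simp only [hU, hU4, and_false, if_true, if_false, mul_one, mul_zero, add_zero]
        have hsum : ∑ e ∈ A, (if U ⊆ A.erase e then (1 : ℝ) else 0) = (A \ U).card := by
          rw [Finset.sum_boole]
          congr 2
          ext e
          simp only [mem_filter, mem_sdiff, subset_erase, hU, true_and]
        rw [hsum, card_sdiff_of_subset hU, Nat.cast_sub (card_le_card hU)]
        push Not at hU4
        have : (4 : ℝ) * U.card < m := by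
          rw [hmdef]; exact_mod_cast hU4
        linarith
    · have : 0 ≤ ∑ e ∈ A, (if U ⊆ A.erase e then (1 : ℝ) else 0) :=
          sum_nonneg (fun e _ => by split_ifs <;> norm_num)
      simp only [hU, false_and, if_false, mul_zero, add_zero]
      exact this
  have hd : (3 * m / 4) * N ^ T ≤ m * (N ^ T * Real.exp (-1)) + (3 * m / 4) *
      L G F T (fun U => if U ⊆ A ∧ A.card ≤ 4 * U.card then (1 : ℝ) else 0) := by
    rw [← ha, ← L_mul]
    refine le_trans (L_mono F T _ _ hc) ?_
    have hadd : ∀ (h h' : Finset X → ℝ), L G F T (fun U => h U + h' U) =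
        L G F T h + L G F T h' := by
      intro h h'
      have := L_sum (G := G) (univ : Finset (Fin 2)) F T (fun i => if i = 0 then h else h')
      simpa [Fin.sum_univ_two] using this
    rw [hadd, L_mul, ha]
    gcongr
  have he1 : Real.exp (-1) ≤ 3 / 8 := by
    have := Real.exp_one_gt_d9
    rw [Real.exp_neg]
    rw [inv_le_comm₀ (Real.exp_pos _) (by norm_num)]
    linarith
  have he : N ^ T / 2 ≤
      L G F T (fun U => if U ⊆ A ∧ A.card ≤ 4 * U.card then (1 : ℝ) else 0) := by
    have hNT : 0 < N ^ T := by positivity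
    have : m * (N ^ T * Real.exp (-1)) ≤ m * (N ^ T * (3 / 8)) := by gcongr
    have h6 : (3 * m / 4) * (N ^ T / 2) ≤ (3 * m / 4) *
        L G F T (fun U => if U ⊆ A ∧ A.card ≤ 4 * U.card then (1 : ℝ) else 0) := by
      nlinarith
    exact le_of_mul_le_mul_left h6 (by positivity)
  -- upper bound by counting unions
  have hU : ∀ U ∈ A.powerset.filter (fun U => A.card ≤ 4 * U.card),
      L G F T (fun W => if W = U then (1 : ℝ) else 0) ≤
        (1 / 30) ^ A.card * (N ^ T * Real.exp (2 * m)) := by
    intro U hU
    obtain ⟨hUA, hU4⟩ := mem_filter.1 hU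
    rw [mem_powerset] at hUA
    have hUne : U.Nonempty := by
      rw [← card_pos]
      have : 0 < A.card := lt_of_lt_of_le hF.card_pos hFA
      omega
    have h7 := L_eq_bound (G := G) F A κ y hκ.le hy0.le h1 T U hUA
    have h8 := h4 U hUA hUne
    have h9 : (Fintype.card G * (κ + y) ^ F.card) ^ T ≤ N ^ T * Real.exp (2 * m) := by
      have h10 : κ + y = κ * (1 + ε) := by rw [hy]; ring
      have h10' : (Fintype.card G : ℝ) * (κ * (1 + ε)) ^ F.card = N * (1 + ε) ^ F.card := by
        rw [hN, mul_pow]; ring
      rw [h10, h10', mul_pow, ← pow_mul]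
      apply mul_le_mul_of_nonneg_left _ (by positivity)
      calc (1 + ε) ^ (F.card * T) ≤ (Real.exp ε) ^ (F.card * T) := by
            apply pow_le_pow_left₀ (by positivity)
            linarith [Real.add_one_le_exp ε]
        _ = Real.exp (ε * (f * T)) := by
            rw [← Real.exp_nat_mul]
            congr 1
            push_cast
            ring
        _ ≤ Real.exp (2 * m) := Real.exp_le_exp.2 hTb
    have h11 : q ^ U.card ≤ y ^ U.card * (1 / 30) ^ A.card := by
      calc q ^ U.card ≤ (y / 30 ^ 4) ^ U.card := pow_le_pow_left₀ hq hqy _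
        _ = y ^ U.card * (1 / 30) ^ (4 * U.card) := by
            rw [div_pow, div_eq_mul_inv, ← pow_mul, one_div, inv_pow]
        _ ≤ y ^ U.card * (1 / 30) ^ A.card := by
            apply mul_le_mul_of_nonneg_left _ (by positivity)
            exact pow_le_pow_of_le_one (by norm_num) (by norm_num) hU4
    have h12 : L G F T (fun W => if W = U then (1 : ℝ) else 0) *
        (Fintype.card G * y ^ U.card) ≤
        (1 / 30) ^ A.card * (N ^ T * Real.exp (2 * m)) * (Fintype.card G * y ^ U.card) := by
      calc L G F T (fun W => if W = U then (1 : ℝ) else 0) * (Fintype.card G * y ^ U.card)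
          = L G F T (fun W => if W = U then (1 : ℝ) else 0) * Fintype.card G * y ^ U.card := by
            ring
        _ ≤ (univ.filter (fun g : G => g • U = U)).card *
            (Fintype.card G * (κ + y) ^ F.card) ^ T := h7
        _ ≤ (q ^ U.card * Fintype.card G) * (N ^ T * Real.exp (2 * m)) := by
            gcongr
        _ ≤ ((y ^ U.card * (1 / 30) ^ A.card) * Fintype.card G) * (N ^ T * Real.exp (2 * m)) := by
            gcongr
        _ = _ := by ring
    exact le_of_mul_le_mul_right h12 (by positivity)
  have hV : L G F T (fun U => if U ⊆ A ∧ A.card ≤ 4 * U.card then (1 : ℝ) else 0) ≤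
      2 ^ A.card * ((1 / 30) ^ A.card * (N ^ T * Real.exp (2 * m))) := by
    have h13 : (fun U : Finset X => if U ⊆ A ∧ A.card ≤ 4 * U.card then (1 : ℝ) else 0) =
        fun W => ∑ U ∈ A.powerset.filter (fun U => A.card ≤ 4 * U.card),
          (if W = U then (1 : ℝ) else 0) := by
      funext W
      rw [Finset.sum_ite_eq]
      simp only [mem_filter, mem_powerset]
    rw [h13, L_sum]
    refine le_trans (sum_le_sum hU) ?_
    rw [sum_const, nsmul_eq_mul]
    apply mul_le_mul_of_nonneg_right _ (by positivity)
    calc ((A.powerset.filter (fun U => A.card ≤ 4 * U.card)).card : ℝ) ≤ A.powerset.card := by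
          exact_mod_cast card_le_card (filter_subset _ _)
      _ = 2 ^ A.card := by rw [card_powerset]; push_cast; rfl
  have hW : N ^ T / 2 ≤ N ^ T * (2 * Real.exp 2 / 30) ^ A.card := by
    refine le_trans (le_trans he hV) (le_of_eq ?_)
    have : Real.exp (2 * m) = Real.exp 2 ^ A.card := by
      rw [← Real.exp_nat_mul, mul_comm]
    have e3 : (2 * Real.exp 2 / 30) ^ A.card =
        2 ^ A.card * ((1 / 30) ^ A.card * Real.exp 2 ^ A.card) := by
      rw [← mul_pow, ← mul_pow]
      congr 1
      ring
    rw [this, e3]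
    ring
  have hexp2 : 2 * Real.exp 2 / 30 < 1 / 2 := by
    have h14 := Real.exp_one_lt_d9
    have h15 : Real.exp 2 = Real.exp 1 * Real.exp 1 := by
      rw [← Real.exp_add]; norm_num
    rw [h15]
    have h16 : Real.exp 1 * Real.exp 1 < 2.7182818286 * 2.7182818286 := by
      have := Real.exp_pos 1
      nlinarith
    linarith
  have hfin : (2 * Real.exp 2 / 30) ^ A.card < 1 / 2 := by
    have hA : A.card ≠ 0 := by
      have : 0 < A.card := lt_of_lt_of_le hF.card_pos hFA
      omega
    calc (2 * Real.exp 2 / 30) ^ A.card ≤ (2 * Real.exp 2 / 30) ^ 1 := by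
          apply pow_le_pow_of_le_one (by positivity) (by linarith)
          omega
      _ = 2 * Real.exp 2 / 30 := pow_one _
      _ < 1 / 2 := hexp2
  have hNT : 0 < N ^ T := by positivity
  nlinarith

/-- Part A. -/
theorem main_group (H : Finset X) (q : ℝ) (hq : 0 ≤ q)
    (hstab : ∀ U : Finset X, U ⊆ H → U.Nonempty →
      ((univ.filter (fun g : G => g • U = U)).card : ℝ) ≤ q ^ U.card * Fintype.card G)
    (F₀ : Finset X) (hF₀ : F₀.Nonempty) (hH : H.Nonempty) :
    (emb G F₀ H : ℝ) ≤
      ((30 ^ 4 * 3) * q * (Real.log H.card + 1)) ^ F₀.card * Fintype.card G := by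
  classical
  have hG : (0 : ℝ) < Fintype.card G := by exact_mod_cast Fintype.card_pos
  have hHc : (1 : ℝ) ≤ H.card := by exact_mod_cast hH.card_pos
  have hlog : 0 ≤ Real.log H.card := Real.log_nonneg hHc
  set ε : ℝ := 1 / (Real.log H.card + 1) with hε
  have hε0 : 0 < ε := by positivity
  have hε1 : ε ≤ 1 := by
    rw [hε, div_le_one (by positivity)]
    linarith
  let κ : Finset X → Finset X → ℝ := fun A F =>
    ((emb G F A : ℝ) / Fintype.card G) ^ ((1 : ℝ) / F.card)
  have hκ0 : ∀ A F, 0 ≤ κ A F := fun A F => Real.rpow_nonneg (by positivity) _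
  have hκpow : ∀ A F : Finset X, F.Nonempty →
      κ A F ^ F.card * Fintype.card G = (emb G F A : ℝ) := by
    intro A F hF
    have hFc : F.card ≠ 0 := hF.card_pos.ne'
    simp only [κ]
    rw [one_div, Real.rpow_inv_natCast_pow (by positivity) hFc]
    field_simp
  let Φ : Finset X × Finset X → ℝ := fun AF => κ AF.1 AF.2 * (AF.1.card : ℝ) ^ (-ε)
  let 𝒮 : Finset (Finset X × Finset X) :=
    (H.powerset.filter (fun A => A.Nonempty)) ×ˢ (univ.filter (fun F : Finset X => F.Nonempty))
  have hmem : ∀ A F : Finset X, (A, F) ∈ 𝒮 ↔ (A ⊆ H ∧ A.Nonempty) ∧ F.Nonempty := by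
    intro A F
    simp [𝒮]
  obtain ⟨⟨A, F⟩, hAF, hmax⟩ := 𝒮.exists_max_image Φ
    ⟨(H, F₀), (hmem _ _).2 ⟨⟨subset_rfl, hH⟩, hF₀⟩⟩
  obtain ⟨⟨hAH, hA⟩, hF⟩ := (hmem _ _).1 hAF
  have hmax' : ∀ B P : Finset X, B ⊆ H → B.Nonempty → P.Nonempty →
      κ B P * (B.card : ℝ) ^ (-ε) ≤ κ A F * (A.card : ℝ) ^ (-ε) :=
    fun B P hB hBn hP => hmax (B, P) ((hmem _ _).2 ⟨⟨hB, hBn⟩, hP⟩)
  have hAc : (1 : ℝ) ≤ A.card := by exact_mod_cast hA.card_pos
  -- positivity of `κ`
  have hκpos : 0 < κ A F := by
    obtain ⟨x, hx⟩ := hA
    have h1 := hmax' {x} {x} (by simpa using hAH hx) (singleton_nonempty x) (singleton_nonempty x)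
    have h2 : 0 < κ {x} {x} := by
      apply Real.rpow_pos_of_pos
      apply div_pos _ hG
      unfold emb
      have : (1 : G) ∈ univ.filter (fun g : G => g • ({x} : Finset X) ⊆ {x}) := by simp
      exact_mod_cast card_pos.2 ⟨_, this⟩
    have h3 : 0 < κ {x} {x} * (({x} : Finset X).card : ℝ) ^ (-ε) := by
      simpa using h2
    have h4 : 0 < κ A F * (A.card : ℝ) ^ (-ε) := lt_of_lt_of_le h3 h1
    exact pos_of_mul_pos_left h4 (by positivity)
  have hgen : ∀ B P : Finset X, B ⊆ H → B.Nonempty → P.Nonempty →
      κ B P ≤ κ A F * ((B.card : ℝ) / A.card) ^ ε := by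
    intro B P hB hBn hP
    have h1 := hmax' B P hB hBn hP
    have hBc : (0 : ℝ) < B.card := by exact_mod_cast hBn.card_pos
    have h5 : (0 : ℝ) < (B.card : ℝ) ^ ε := Real.rpow_pos_of_pos hBc _
    have h6 : (B.card : ℝ) ^ (-ε) * (B.card : ℝ) ^ ε = 1 := by
      rw [← Real.rpow_add hBc]; simp
    calc κ B P = κ B P * (B.card : ℝ) ^ (-ε) * (B.card : ℝ) ^ ε := by
          rw [mul_assoc, h6, mul_one]
      _ ≤ κ A F * (A.card : ℝ) ^ (-ε) * (B.card : ℝ) ^ ε := by gcongr
      _ = κ A F * ((B.card : ℝ) / A.card) ^ ε := by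
          rw [Real.div_rpow hBc.le (by linarith), Real.rpow_neg (by linarith)]
          ring
  have h1 : ∀ P : Finset X, (emb G P A : ℝ) ≤ κ A F ^ P.card * Fintype.card G := by
    intro P
    by_cases hP : P.Nonempty
    · rw [← hκpow A P hP]
      have h2 := hgen A P hAH hA hP
      rw [div_self (by linarith : (A.card : ℝ) ≠ 0), Real.one_rpow, mul_one] at h2
      have h0 := hκ0 A P
      gcongr
    · rw [not_nonempty_iff_eq_empty] at hP
      subst hP
      simp [emb]
  have h2 : (emb G F A : ℝ) = κ A F ^ F.card * Fintype.card G := (hκpow A F hF).symm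
  have hFA : F.card ≤ A.card := by
    have : 0 < (emb G F A : ℝ) := by rw [h2]; positivity
    have h3 : 0 < emb G F A := by exact_mod_cast this
    obtain ⟨g, hg⟩ := card_pos.1 h3
    have h4 := card_le_card (mem_filter.1 hg).2
    rwa [Finset.card_smul_finset] at h4
  have h3 : ∀ e ∈ A, (emb G F (A.erase e) : ℝ) ≤
      κ A F ^ F.card * Fintype.card G * Real.exp (-(ε * F.card / A.card)) := by
    intro e he
    by_cases hB : (A.erase e).Nonempty
    · have h5 := hgen (A.erase e) F ((erase_subset _ _).trans hAH) hB hF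
      rw [← hκpow (A.erase e) F hF]
      have hBc : (0 : ℝ) < (A.erase e).card := by exact_mod_cast hB.card_pos
      have h6 : ((A.erase e).card : ℝ) / A.card ≤ Real.exp (-(1 / A.card)) := by
        rw [card_erase_of_mem he, Nat.cast_sub hA.card_pos]
        have h7 := Real.add_one_le_exp (-(1 / (A.card : ℝ)))
        refine le_trans (le_of_eq ?_) h7
        have : (A.card : ℝ) ≠ 0 := by linarith
        field_simp
        push_cast
        ring
      have h7 : (((A.erase e).card : ℝ) / A.card) ^ ε ≤ Real.exp (-(ε / A.card)) := by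
        calc (((A.erase e).card : ℝ) / A.card) ^ ε ≤ (Real.exp (-(1 / A.card))) ^ ε :=
              Real.rpow_le_rpow (div_nonneg (Nat.cast_nonneg _) (Nat.cast_nonneg _)) h6 hε0.le
          _ = Real.exp (-(ε / A.card)) := by
              rw [← Real.exp_mul]
              congr 1
              ring
      have h8 : κ (A.erase e) F ≤ κ A F * Real.exp (-(ε / A.card)) :=
        h5.trans (mul_le_mul_of_nonneg_left h7 hκpos.le)
      calc κ (A.erase e) F ^ F.card * Fintype.card G
          ≤ (κ A F * Real.exp (-(ε / A.card))) ^ F.card * Fintype.card G := by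
            have h0 := hκ0 (A.erase e) F
            gcongr
        _ = κ A F ^ F.card * Fintype.card G * Real.exp (-(ε * F.card / A.card)) := by
            rw [mul_pow, ← Real.exp_nat_mul]
            have : (F.card : ℝ) * -(ε / A.card) = -(ε * F.card / A.card) := by ring
            rw [this]
            ring
    · rw [not_nonempty_iff_eq_empty] at hB
      rw [hB]
      have : emb G F ∅ = 0 := by
        unfold emb
        rw [card_eq_zero, filter_eq_empty_iff]
        intro g _ hg
        rw [subset_empty, Finset.smul_finset_eq_empty] at hg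
        exact hF.ne_empty hg
      rw [this]
      push_cast
      positivity
  have hcore := core (G := G) A F (κ A F) q ε hκpos hq hε0 hε1 hF hFA h1 h2 h3
    (fun U hU hUn => hstab U (hU.trans hAH) hUn)
  -- conclusion
  have h9 := hgen H F₀ subset_rfl hH hF₀
  have h10 : ((H.card : ℝ) / A.card) ^ ε ≤ 3 := by
    calc ((H.card : ℝ) / A.card) ^ ε ≤ (H.card : ℝ) ^ ε := by
          apply Real.rpow_le_rpow (div_nonneg (Nat.cast_nonneg _) (Nat.cast_nonneg _)) _ hε0.le
          exact div_le_self (by linarith) hAc
      _ = Real.exp (Real.log H.card * ε) := by rw [Real.rpow_def_of_pos (by linarith)]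
      _ ≤ Real.exp 1 := by
          apply Real.exp_le_exp.2
          rw [hε, mul_one_div, div_le_one (by positivity)]
          linarith
      _ ≤ 3 := by linarith [Real.exp_one_lt_d9]
  have h11 : κ H F₀ ≤ (30 ^ 4 * 3) * q * (Real.log H.card + 1) := by
    calc κ H F₀ ≤ κ A F * ((H.card : ℝ) / A.card) ^ ε := h9
      _ ≤ (30 ^ 4 * q / ε) * 3 := by
          apply mul_le_mul hcore h10 (Real.rpow_nonneg
            (div_nonneg (Nat.cast_nonneg _) (Nat.cast_nonneg _)) _) (by positivity)
      _ = (30 ^ 4 * 3) * q * (Real.log H.card + 1) := by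
          rw [hε]; field_simp
  rw [← hκpow H F₀ hF₀]
  have h0 := hκ0 H F₀
  gcongr

end GroupPart

theorem group_spread : ∃ C : ℝ, 0 < C ∧ ∀ {G X : Type} [Group G] [Fintype G] [Fintype X]
    [DecidableEq X] [MulAction G X] (H : Finset X) (q : ℝ), 0 ≤ q →
    (∀ U : Finset X, U ⊆ H → U.Nonempty →
      ((univ.filter (fun g : G => g • U = U)).card : ℝ) ≤ q ^ U.card * Fintype.card G) →
    ∀ F : Finset X, ((univ.filter (fun g : G => g • F ⊆ H)).card : ℝ) ≤
      (C * q * (Real.log H.card + 1)) ^ F.card * Fintype.card G := by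
  refine ⟨30 ^ 4 * 3, by norm_num, ?_⟩
  intro G X _ _ _ _ _ H q hq hstab F
  by_cases hF : F.Nonempty
  · by_cases hH : H.Nonempty
    · exact GroupPart.main_group H q hq hstab F hF hH
    · rw [not_nonempty_iff_eq_empty] at hH
      subst hH
      have : (univ.filter (fun g : G => g • F ⊆ ∅)) = ∅ := by
        rw [filter_eq_empty_iff]
        intro g _ hg
        rw [subset_empty, Finset.smul_finset_eq_empty] at hg
        exact hF.ne_empty hg
      rw [this]
      simp only [card_empty, Nat.cast_zero, Real.log_zero, zero_add, mul_one]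
      positivity
  · rw [not_nonempty_iff_eq_empty] at hF
    subst hF
    simp

end Vale.Agent.P064
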