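import Vale.Agent.P064.NestDefs
import Vale.Agent.P064.Group

/-!
# P064: the chain of maximisers, in group language
-/

namespace Vale.Agent.P064

open Finset
open scoped Pointwise

namespace NestChainAux

set_option linter.unusedSectionVars false

variable {G X : Type} [Group G] [Fintype G] [Fintype X] [DecidableEq X] [MulAction G X]

theorem card_inv (K F : Finset X) (k : G) :
    (univ.filter (fun g : G => k • K ⊆ g • F)).card = GroupPart.emb G K F := by
  unfold GroupPart.emb
  refine Finset.card_bij' (fun g _ => g⁻¹ * k) (fun g _ => k * g⁻¹) ?_ ?_ ?_ ?_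
  · intro g hg
    simp only [mem_filter, mem_univ, true_and] at hg ⊢
    rwa [mul_smul, ← Finset.subset_smul_finset_iff]
  · intro g hg
    simp only [mem_filter, mem_univ, true_and] at hg ⊢
    rw [Finset.subset_smul_finset_iff, ← mul_smul]
    simpa using hg
  · intro g _; group
  · intro g _; group

theorem emb_smul (K F : Finset X) (k : G) :
    GroupPart.emb G (k • K) F = GroupPart.emb G K F := by
  unfold GroupPart.emb
  refine Finset.card_bij' (fun g _ => g * k) (fun g _ => g * k⁻¹) ?_ ?_ ?_ ?_
  · intro g hg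
    simp only [mem_filter, mem_univ, true_and] at hg ⊢
    rwa [mul_smul]
  · intro g hg
    simp only [mem_filter, mem_univ, true_and] at hg ⊢
    rw [smul_smul]
    simpa using hg
  · intro g _; group
  · intro g _; group

theorem emb_le (F' F : Finset X) :
    GroupPart.emb G F' F ≤ (univ.filter (fun g : G => g • F' = F')).card * 2 ^ F.card := by
  unfold GroupPart.emb
  rw [← card_powerset]
  apply Finset.card_le_mul_card_image_of_maps_to (f := fun g : G => g • F')
  · intro g hg
    exact mem_powerset.2 (mem_filter.1 hg).2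
  · intro U _
    by_cases hU : ∃ g1 : G, g1 • F' = U
    · obtain ⟨g1, rfl⟩ := hU
      apply Finset.card_le_card_of_injOn (fun g => g1⁻¹ * g)
      · intro g hg
        simp only [coe_filter, mem_filter, mem_univ, true_and, Set.mem_ofPred_eq] at hg ⊢
        rw [mul_smul, hg.2, inv_smul_smul]
      · intro x _ y _ hxy
        exact mul_left_cancel hxy
    · rw [filter_eq_empty_iff.2]
      · simp
      · intro g _ hg
        exact hU ⟨g, hg⟩

theorem step (H : Finset X) (q : ℝ) (hq : 0 < q)
    (hstab : ∀ U : Finset X, U ⊆ H → U.Nonempty →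
      ((univ.filter (fun g : G => g • U = U)).card : ℝ) ≤ q ^ U.card * Fintype.card G)
    (F : Finset X) (hF : F ⊆ H) :
    ∃ F' : Finset X, F' ⊆ F ∧ 4 * F'.card ≤ F.card ∧ 0 < GroupPart.emb G F' F ∧
      ∀ K : Finset X, (GroupPart.emb G K F : ℝ) * (16 * q) ^ F'.card ≤
        GroupPart.emb G F' F * (16 * q) ^ K.card := by
  have hp0 : 0 < 16 * q := by positivity
  have hG : (0 : ℝ) < Fintype.card G := by exact_mod_cast Fintype.card_pos
  obtain ⟨K, _, hK⟩ := (univ : Finset (Finset X)).exists_max_image
    (fun K => (GroupPart.emb G K F : ℝ) / (16 * q) ^ K.card) ⟨∅, mem_univ _⟩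
  have h0 := hK ∅ (mem_univ _)
  have he0 : GroupPart.emb G (∅ : Finset X) F = Fintype.card G := by
    simp [GroupPart.emb]
  rw [he0, card_empty, pow_zero, div_one] at h0
  have hKp : 0 < (16 * q) ^ K.card := by positivity
  have h0' : (Fintype.card G : ℝ) * (16 * q) ^ K.card ≤ GroupPart.emb G K F := by
    rwa [le_div_iff₀ hKp] at h0
  have hpos : (0 : ℝ) < GroupPart.emb G K F := lt_of_lt_of_le (by positivity) h0'
  have hpos' : 0 < GroupPart.emb G K F := by exact_mod_cast hpos
  obtain ⟨g0, hg0⟩ := card_pos.1 hpos'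
  have hg0' : g0 • K ⊆ F := (mem_filter.1 hg0).2
  have hcard : (g0 • K).card = K.card := Finset.card_smul_finset _ _
  refine ⟨g0 • K, hg0', ?_, ?_, ?_⟩
  · by_cases hne : (g0 • K).Nonempty
    · have h1 := emb_le (G := G) (g0 • K) F
      have h2 := hstab (g0 • K) (hg0'.trans hF) hne
      have h3 : (GroupPart.emb G (g0 • K) F : ℝ) ≤
          (univ.filter (fun g : G => g • (g0 • K) = g0 • K)).card * 2 ^ F.card := by
        exact_mod_cast h1
      rw [emb_smul] at h3
      rw [hcard] at h2 ⊢
      have h4 : (Fintype.card G : ℝ) * (16 * q) ^ K.card ≤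
          (q ^ K.card * Fintype.card G) * 2 ^ F.card :=
        h0'.trans (h3.trans (mul_le_mul_of_nonneg_right h2 (by positivity)))
      rw [mul_pow] at h4
      have h5 : (0 : ℝ) < Fintype.card G * q ^ K.card := by positivity
      have h6 : (Fintype.card G * q ^ K.card) * (16 : ℝ) ^ K.card ≤
          (Fintype.card G * q ^ K.card) * 2 ^ F.card := by linarith
      have h7 : (16 : ℝ) ^ K.card ≤ 2 ^ F.card := le_of_mul_le_mul_left h6 h5
      have h8 : (16 : ℝ) ^ K.card = 2 ^ (4 * K.card) := by
        rw [pow_mul]; norm_num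
      rw [h8] at h7
      exact (pow_le_pow_iff_right₀ (by norm_num)).1 h7
    · rw [not_nonempty_iff_eq_empty] at hne
      rw [hne]; simp
  · rwa [emb_smul]
  · intro L
    rw [emb_smul, hcard]
    have h1 := hK L (mem_univ _)
    have hLp : 0 < (16 * q) ^ L.card := by positivity
    rwa [div_le_div_iff₀ hLp hKp] at h1

theorem ns_step (ℱ : Finset X → Prop) (p : ℝ) (hp : 0 < p) (F F' : Finset X)
    (hpos : 0 < GroupPart.emb G F' F)
    (hmax : ∀ K : Finset X, (GroupPart.emb G K F : ℝ) * p ^ F'.card ≤
      GroupPart.emb G F' F * p ^ K.card)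
    (h a : ℕ) (hc : F.card < 2 ^ a) (hNS : ∀ g : G, NS ℱ p h (a + 2) (g • F)) (k : G) :
    NS ℱ p (h + 1) a (k • F') := by
  classical
  set S : Finset G := univ.filter (fun g : G => k • F' ⊆ g • F) with hS
  have hScard : S.card = GroupPart.emb G F' F := card_inv F' F k
  have hSpos : (0 : ℝ) < S.card := by rw [hScard]; exact_mod_cast hpos
  refine ⟨fun T => ((S.filter (fun g : G => g • F \ k • F' = T)).card : ℝ) / S.card,
    ?_, ?_, ?_, ?_⟩
  · intro T; positivity
  · rw [← sum_div, div_eq_one_iff_eq hSpos.ne']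
    have := Finset.card_eq_sum_card_fiberwise (s := S) (t := (univ : Finset (Finset X)))
      (f := fun g : G => g • F \ k • F') (fun _ _ => mem_coe.2 (mem_univ _))
    rw [this]
    push_cast
    rfl
  · intro K hK
    rw [← sum_div, div_le_iff₀ hSpos]
    have h1 : ∑ T ∈ univ.filter (fun T => K ⊆ T),
        ((S.filter (fun g : G => g • F \ k • F' = T)).card : ℝ) =
        ((S.filter (fun g : G => K ⊆ g • F \ k • F')).card : ℝ) := by
      have := Finset.card_eq_sum_card_fiberwise
        (s := S.filter (fun g : G => K ⊆ g • F \ k • F'))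
        (t := univ.filter (fun T : Finset X => K ⊆ T))
        (f := fun g : G => g • F \ k • F')
        (fun g hg => by
          simp only [coe_filter, mem_univ, true_and, Set.mem_ofPred_eq] at hg ⊢
          exact hg.2)
      rw [this]
      push_cast
      apply sum_congr rfl
      intro T hT
      congr 2
      ext g
      simp only [mem_filter, mem_univ, true_and] at hT ⊢
      constructor
      · rintro ⟨h1, h2⟩
        exact ⟨⟨h1, by rw [h2]; exact hT⟩, h2⟩
      · rintro ⟨⟨h1, _⟩, h2⟩
        exact ⟨h1, h2⟩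
    rw [h1]
    by_cases hdis : Disjoint K (k • F')
    · have h2 : ((S.filter (fun g : G => K ⊆ g • F \ k • F')).card : ℝ) ≤
          GroupPart.emb G (k • F' ∪ K) F := by
        rw [← card_inv (k • F' ∪ K) F (1 : G)]
        apply Nat.cast_le.2
        apply card_le_card
        intro g hg
        simp only [hS, mem_filter, mem_univ, true_and] at hg ⊢
        rw [one_smul]
        exact union_subset hg.1 (hg.2.trans sdiff_subset)
      have h3 := hmax (k • F' ∪ K)
      have h4 : (k • F' ∪ K).card = F'.card + K.card := by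
        rw [card_union_of_disjoint hdis.symm, Finset.card_smul_finset]
      rw [h4, pow_add, ← mul_assoc, mul_right_comm] at h3
      have h5 : (GroupPart.emb G (k • F' ∪ K) F : ℝ) ≤ GroupPart.emb G F' F * p ^ K.card :=
        le_of_mul_le_mul_right h3 (by positivity)
      rw [hScard]
      have h6 : (0 : ℝ) ≤ GroupPart.emb G F' F * p ^ K.card := by positivity
      have h7 : (1 : ℝ) ≤ 1 + 1 / 2 ^ a := by
        have : (0 : ℝ) ≤ 1 / 2 ^ a := by positivity
        linarith
      calc ((S.filter (fun g : G => K ⊆ g • F \ k • F')).card : ℝ)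
          ≤ GroupPart.emb G F' F * p ^ K.card := h2.trans h5
        _ ≤ (1 + 1 / 2 ^ a) * (GroupPart.emb G F' F * p ^ K.card) :=
            le_mul_of_one_le_left h6 h7
        _ = (1 + 1 / 2 ^ a) * p ^ K.card * GroupPart.emb G F' F := by ring
    · have h2 : S.filter (fun g : G => K ⊆ g • F \ k • F') = ∅ := by
        rw [filter_eq_empty_iff]
        intro g _ hg
        apply hdis
        exact disjoint_of_subset_left hg sdiff_disjoint
      rw [h2]
      simp only [card_empty, Nat.cast_zero]
      positivity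
  · intro T hT
    have hne : (S.filter (fun g : G => g • F \ k • F' = T)).Nonempty := by
      rw [nonempty_iff_ne_empty]
      intro h0
      apply hT
      simp [h0]
    obtain ⟨g, hg⟩ := hne
    rw [mem_filter] at hg
    obtain ⟨hgS, rfl⟩ := hg
    have hsub : k • F' ⊆ g • F := (mem_filter.1 hgS).2
    refine ⟨?_, ?_⟩
    · calc (g • F \ k • F').card ≤ (g • F).card := card_le_card sdiff_subset
        _ = F.card := Finset.card_smul_finset _ _
        _ < 2 ^ a := hc
    · rw [union_sdiff_of_subset hsub]
      exact hNS g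

theorem iterate (H : Finset X) (q : ℝ) (hq : 0 < q)
    (hstab : ∀ U : Finset X, U ⊆ H → U.Nonempty →
      ((univ.filter (fun g : G => g • U = U)).card : ℝ) ≤ q ^ U.card * Fintype.card G)
    (ℱ : Finset X → Prop) (b : ℕ) :
    ∀ (a h : ℕ) (F : Finset X), F ⊆ H → F.card < 2 ^ a → a + 2 * h ≤ b →
      (∀ g : G, NS ℱ (16 * q) h (a + 2) (g • F)) →
      ∃ h' a' : ℕ, a' + 2 * h' ≤ b + 2 ∧ NS ℱ (16 * q) h' a' ∅ := by
  intro a
  induction a using Nat.strong_induction_on with
  | _ a ih =>
    intro h F hF hc hab hNS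
    obtain ⟨F', hF', h4, hpos, hmax⟩ := step (G := G) H q hq hstab F hF
    have hstep := ns_step (G := G) ℱ (16 * q) (by positivity) F F' hpos hmax h a hc hNS
    by_cases hne : F' = ∅
    · refine ⟨h + 1, a, by omega, ?_⟩
      have := hstep 1
      rwa [hne, one_smul] at this
    · have h1 : 1 ≤ F'.card := card_pos.2 (nonempty_iff_ne_empty.2 hne)
      have ha : 2 < a := by
        by_contra hcon
        push Not at hcon
        have : 2 ^ a ≤ 2 ^ 2 := Nat.pow_le_pow_right (by norm_num) hcon
        omega
      obtain ⟨c, rfl⟩ : ∃ c, a = c + 2 := ⟨a - 2, by omega⟩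
      apply ih c (by omega) (h + 1) F' (hF'.trans hF) _ (by omega) hstep
      have : 2 ^ (c + 2) = 4 * 2 ^ c := by ring
      omega

end NestChainAux

/-- TASK G: the chain of maximisers, in group language -/
theorem ns_chain {G X : Type} [Group G] [Fintype G] [Fintype X] [DecidableEq X] [MulAction G X]
    (H : Finset X) (q : ℝ) (hq : 0 < q)
    (hstab : ∀ U : Finset X, U ⊆ H → U.Nonempty →
      ((univ.filter (fun g : G => g • U = U)).card : ℝ) ≤ q ^ U.card * Fintype.card G)
    (b : ℕ) (hb : H.card < 2 ^ b) :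
    ∃ h a : ℕ, a + 2 * h ≤ b + 2 ∧ NS (fun W => ∃ g : G, g • H ⊆ W) (16 * q) h a ∅ := by
  apply NestChainAux.iterate (G := G) H q hq hstab _ b b 0 H subset_rfl hb (by omega)
  intro g
  exact ⟨g, subset_rfl⟩

end Vale.Agent.P064
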