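import Vale.Agent.P064.Union

/-!
# P064: nested spread families (definition)
-/

namespace Vale.Agent.P064

open Finset

/-- Nested spread structure of height `h`, root level of size `< 2 ^ a`, next level
`< 2 ^ (a + 2)`, ..., all completing `U` to a member of `ℱ`. -/
def NS {X : Type} [Fintype X] [DecidableEq X] (ℱ : Finset X → Prop) (p : ℝ) :
    ℕ → ℕ → Finset X → Prop
  | 0, _, U => ℱ U
  | h + 1, a, U => ∃ ν : Finset X → ℝ, (∀ T, 0 ≤ ν T) ∧ ∑ T, ν T = 1 ∧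
      (∀ K : Finset X, K.Nonempty →
        ∑ T ∈ univ.filter (fun T => K ⊆ T), ν T ≤ (1 + 1 / 2 ^ a) * p ^ K.card) ∧
      (∀ T, ν T ≠ 0 → T.card < 2 ^ a ∧ NS ℱ p h (a + 2) (U ∪ T))

theorem NS_mono {X : Type} [Fintype X] [DecidableEq X] {ℱ : Finset X → Prop} {p : ℝ}
    (hℱ : ∀ A B : Finset X, A ⊆ B → ℱ A → ℱ B) : ∀ (h a : ℕ) (U V : Finset X), U ⊆ V →
    NS ℱ p h a U → NS ℱ p h a V := by
  intro h
  induction h with
  | zero => intro a U V hUV hU; exact hℱ U V hUV hU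
  | succ h ih =>
    rintro a U V hUV ⟨ν, h1, h2, h3, h4⟩
    refine ⟨ν, h1, h2, h3, fun T hT => ⟨(h4 T hT).1, ?_⟩⟩
    exact ih _ _ _ (union_subset_union_left hUV) (h4 T hT).2

/-- a root level of size `< 1` can be dropped -/
theorem NS_zero {X : Type} [Fintype X] [DecidableEq X] {ℱ : Finset X → Prop} {p : ℝ}
    (h : ℕ) (U : Finset X) (hU : NS ℱ p (h + 1) 0 U) : NS ℱ p h 2 U := by
  obtain ⟨ν, h1, h2, h3, h4⟩ := hU
  have : ∃ T, ν T ≠ 0 := by
    by_contra hcon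
    push Not at hcon
    rw [Finset.sum_eq_zero (fun T _ => hcon T)] at h2
    exact zero_ne_one h2
  obtain ⟨T, hT⟩ := this
  obtain ⟨hc, hN⟩ := h4 T hT
  have hT0 : T = ∅ := by
    rw [pow_zero, Nat.lt_one_iff, Finset.card_eq_zero] at hc
    exact hc
  rw [hT0, union_empty] at hN
  exact hN

end Vale.Agent.P064
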