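import Vale.Agent.P064.NestIter
import Vale.Agent.P064.NestChain
import Vale.Agent.P064.Final

/-!
# P064: the second Kahn-Kalai conjecture, assembly
-/

namespace Vale.Agent.P064

open Finset
open scoped Pointwise

/-- value at `p = 1` (any finite type) -/
theorem wt_one_sum' {X : Type} [Fintype X] [DecidableEq X] (f : Finset X → ℝ) :
    ∑ W : Finset X, wt 1 W * f W = f univ := by
  rw [Finset.sum_eq_single univ]
  · simp [wt]
  · intro W _ hW
    have : W.card < Fintype.card X := by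
      rw [← Finset.card_univ]
      exact Finset.card_lt_card (Finset.ssubset_univ_iff.2 hW)
    unfold wt
    rw [sub_self, zero_pow (by omega)]
    ring
  · intro h; exact absurd (mem_univ _) h

/-- threshold for group orbits -/
theorem nested_threshold : ∃ C : ℝ, 0 < C ∧ ∀ {G X : Type} [Group G] [Fintype G] [Fintype X]
    [DecidableEq X] [MulAction G X] (H : Finset X) (q : ℝ), 0 < q →
    (∀ U : Finset X, U ⊆ H → U.Nonempty →
      ((univ.filter (fun g : G => g • U = U)).card : ℝ) ≤ q ^ U.card * Fintype.card G) →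
    ∃ p' : ℝ, 0 ≤ p' ∧ p' ≤ 1 ∧ p' ≤ C * q * (Nat.log 2 H.card + 1) ∧
      1 / 2 ≤ ∑ W : Finset X, wt p' W * ind (∃ g : G, g • H ⊆ W) := by
  refine ⟨3 * (2 ^ 23 * 16), by norm_num, ?_⟩
  intro G X _ _ _ _ _ H q hq hstab
  have hb : H.card < 2 ^ (Nat.log 2 H.card + 1) := Nat.lt_pow_succ_log_self (by norm_num) _
  obtain ⟨h, a, hha, hNS⟩ := ns_chain H q hq hstab (Nat.log 2 H.card + 1) hb
  have hl : (0 : ℝ) ≤ Nat.log 2 H.card := Nat.cast_nonneg _
  rcases le_total (2 ^ 23 * (16 * q)) 1 with hw | hw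
  · obtain ⟨p', h0, h1, h2, h3⟩ := ns_iterate (w := 2 ^ 23 * (16 * q)) (p := 16 * q)
      (ℱ := fun W => ∃ g : G, g • H ⊆ W)
      (fun A B hAB ⟨g, hg⟩ => ⟨g, hg.trans hAB⟩) (by positivity) rfl hw h a
      (Nat.log 2 H.card + 1) hha hNS
    refine ⟨p', h0, h1, h2.trans ?_, h3⟩
    push_cast
    have h4 : 2 * ((Nat.log 2 H.card : ℝ) + 1) + 1 ≤ 3 * ((Nat.log 2 H.card : ℝ) + 1) := by
      linarith
    calc (2 * ((Nat.log 2 H.card : ℝ) + 1) + 1) * (2 ^ 23 * (16 * q))
        ≤ 3 * ((Nat.log 2 H.card : ℝ) + 1) * (2 ^ 23 * (16 * q)) :=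
          mul_le_mul_of_nonneg_right h4 (by positivity)
      _ = 3 * (2 ^ 23 * 16) * q * (Nat.log 2 H.card + 1) := by ring
  · refine ⟨1, zero_le_one, le_rfl, ?_, ?_⟩
    · have h4 : (1 : ℝ) ≤ 3 * ((Nat.log 2 H.card : ℝ) + 1) := by linarith
      calc (1 : ℝ) ≤ 2 ^ 23 * (16 * q) := hw
        _ ≤ 2 ^ 23 * (16 * q) * (3 * ((Nat.log 2 H.card : ℝ) + 1)) :=
          le_mul_of_one_le_right (by positivity) h4
        _ = 3 * (2 ^ 23 * 16) * q * (Nat.log 2 H.card + 1) := by ring
    · rw [wt_one_sum', ind_pos ⟨1, subset_univ _⟩]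
      norm_num

/-- stabilisers of the subsets of the edge set, for an admissible `q` -/
theorem stab_admissible {n : ℕ} {V : Type} [Fintype V] (H : SimpleGraph V) (φ : V ↪ Fin n)
    (q : ℝ) (hq : 0 ≤ q)
    (hE : ∀ F : H.Subgraph, 1 / 2 ≤ gE n q (fun G => (G.copyCount F.coe : ℝ)))
    (U : Finset (PE n)) (hU : U ⊆ eset (H.map φ)) (hUn : U.Nonempty) :
    ((univ.filter (fun g : Equiv.Perm (Fin n) => g • U = U)).card : ℝ) ≤
      (2 * q) ^ U.card * Fintype.card (Equiv.Perm (Fin n)) := by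
  obtain ⟨F, hFc, hF⟩ := stab_bound H φ U hU
  have h1 := hE F
  rw [gE_copyCount, hFc] at h1
  have h2 : ((univ.filter (fun g : Equiv.Perm (Fin n) => g • U = U)).card : ℝ) *
      ((⊤ : SimpleGraph (Fin n)).copyCount F.coe : ℝ) ≤ Nat.factorial n := by
    exact_mod_cast hF
  rw [Fintype.card_perm, Fintype.card_fin]
  have hs : (0 : ℝ) ≤ ((univ.filter (fun g : Equiv.Perm (Fin n) => g • U = U)).card : ℝ) :=
    Nat.cast_nonneg _
  have hqU : 0 ≤ q ^ U.card := pow_nonneg hq _
  calc ((univ.filter (fun g : Equiv.Perm (Fin n) => g • U = U)).card : ℝ)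
      = ((univ.filter (fun g : Equiv.Perm (Fin n) => g • U = U)).card : ℝ) * (2 * (1 / 2)) := by
        ring
    _ ≤ ((univ.filter (fun g : Equiv.Perm (Fin n) => g • U = U)).card : ℝ) *
        (2 * (((⊤ : SimpleGraph (Fin n)).copyCount F.coe : ℝ) * q ^ U.card)) := by gcongr
    _ = 2 * q ^ U.card * (((univ.filter (fun g : Equiv.Perm (Fin n) => g • U = U)).card : ℝ) *
        ((⊤ : SimpleGraph (Fin n)).copyCount F.coe : ℝ)) := by ring
    _ ≤ 2 * q ^ U.card * Nat.factorial n := by gcongr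
    _ ≤ 2 ^ U.card * q ^ U.card * Nat.factorial n := by
        gcongr
        calc (2 : ℝ) = 2 ^ 1 := (pow_one _).symm
          _ ≤ 2 ^ U.card := pow_le_pow_right₀ (by norm_num) hUn.card_pos
    _ = (2 * q) ^ U.card * Nat.factorial n := by rw [mul_pow]

/-- `log₂` versus the natural logarithm -/
theorem log2_le (e : ℕ) : (Nat.log 2 e : ℝ) + 1 ≤ 2 * (1 + Real.log e) := by
  have hlog2 : 0.69 < Real.log 2 := by linarith [Real.log_two_gt_d9]
  rcases Nat.eq_zero_or_pos e with h0 | h0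
  · rw [h0]
    simp
  · have h3 : 2 ^ Nat.log 2 e ≤ e := Nat.pow_log_le_self 2 h0.ne'
    have h4 : (2 : ℝ) ^ Nat.log 2 e ≤ (e : ℝ) := by exact_mod_cast h3
    have h5 := Real.log_le_log (by positivity) h4
    rw [Real.log_pow] at h5
    have h7 : (0 : ℝ) ≤ Nat.log 2 e := Nat.cast_nonneg _
    nlinarith

theorem main_log_e : ∃ C : ℝ, 0 < C ∧ ∀ (n : ℕ) (V : Type) [Fintype V]
    (H : SimpleGraph V), Fintype.card V ≤ n → H ≠ ⊥ →
      pc n H ≤ C * pE n H * (1 + Real.log H.edgeSet.ncard) := by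
  obtain ⟨C, hC, hth⟩ := nested_threshold
  refine ⟨C * 4, by positivity, ?_⟩
  intro n V _ H hV hH
  obtain ⟨φ⟩ : Nonempty (V ↪ Fin n) :=
    Function.Embedding.nonempty_of_card_le (by rwa [Fintype.card_fin])
  have hEc := eset_map_card H φ
  set ℒ : ℝ := 1 + Real.log H.edgeSet.ncard with hℒ
  have hℒpos : 1 ≤ ℒ := by
    have := Real.log_natCast_nonneg H.edgeSet.ncard
    linarith
  -- bound for every admissible `q`
  have key : ∀ q : ℝ, 0 ≤ q → (∀ F : H.Subgraph,
      1 / 2 ≤ gE n q (fun G => (G.copyCount F.coe : ℝ))) → pc n H ≤ C * 4 * ℒ * q := by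
    intro q hq hE
    have hqpos : 0 < q := q_pos H hH q hq hE
    obtain ⟨p', hp0, hp1, hp2, hp3⟩ := hth (G := Equiv.Perm (Fin n)) (X := PE n)
      (eset (H.map φ)) (2 * q) (by positivity) (stab_admissible H φ q hq hE)
    have h1 : pc n H ≤ p' := by
      apply csInf_le ⟨0, fun x hx => hx.1⟩
      exact ⟨hp0, hp1, hp3.trans (gP_ge H φ p' hp0 hp1)⟩
    refine h1.trans (hp2.trans ?_)
    have h2 := log2_le H.edgeSet.ncard
    rw [hEc]
    calc C * (2 * q) * ((Nat.log 2 H.edgeSet.ncard : ℝ) + 1)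
        ≤ C * (2 * q) * (2 * ℒ) := mul_le_mul_of_nonneg_left h2 (by positivity)
      _ = C * 4 * ℒ * q := by ring
  -- pass to the infimum
  have hset : ({p : ℝ | 0 ≤ p ∧ p ≤ 1 ∧
      ∀ F : H.Subgraph, 1 / 2 ≤ gE n p (fun G => (G.copyCount F.coe : ℝ))}).Nonempty := by
    refine ⟨1, zero_le_one, le_rfl, fun F => ?_⟩
    rw [gE_copyCount, one_pow, mul_one]
    have h1 := count_le H φ 1 zero_le_one (fun A => by
        rw [one_pow, one_mul]
        have h2 : (univ.filter (fun g : Equiv.Perm (Fin n) => g • A ⊆ eset (H.map φ))).card ≤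
            Nat.factorial n := by
          calc _ ≤ Fintype.card (Equiv.Perm (Fin n)) := card_le_univ _
            _ = Nat.factorial n := by rw [Fintype.card_perm, Fintype.card_fin]
        exact_mod_cast h2) F
    rw [one_pow, mul_one] at h1
    have h2 : (1 : ℝ) ≤ (H.copyCount F.coe : ℝ) := by
      have : 0 < H.copyCount F.coe := SimpleGraph.copyCount_pos.2 F.coe_isContained
      exact_mod_cast this
    linarith
  have h3 : pc n H ≤ C * 4 * ℒ * pE n H := by
    rw [mul_comm, ← div_le_iff₀ (by positivity)]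
    apply le_csInf hset
    intro q hq
    rw [div_le_iff₀ (by positivity), mul_comm]
    exact key q hq.1 hq.2.2
  refine h3.trans (le_of_eq ?_)
  ring

/-- the second Kahn-Kalai conjecture -/
theorem main_log : ∃ C : ℝ, 0 < C ∧ ∀ (n : ℕ), 2 ≤ n → ∀ (V : Type) [Fintype V]
    (H : SimpleGraph V), Fintype.card V ≤ n → H ≠ ⊥ →
      pc n H ≤ C * pE n H * Real.log n ∧
      pc n H ≤ C * pE n H * (1 + Real.log H.edgeSet.ncard) := by
  obtain ⟨C, hC, hmain⟩ := main_log_e
  refine ⟨C * 4, by positivity, ?_⟩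
  intro n hn V _ H hV hH
  have h1 := hmain n V H hV hH
  have hpE0 : 0 ≤ pE n H := Real.sInf_nonneg (fun q hq => hq.1)
  have hn' : (2 : ℝ) ≤ n := by exact_mod_cast hn
  have hlogn : Real.log 2 ≤ Real.log n := Real.log_le_log (by norm_num) hn'
  have hlog2 : 0.69 < Real.log 2 := by linarith [Real.log_two_gt_d9]
  obtain ⟨φ⟩ : Nonempty (V ↪ Fin n) :=
    Function.Embedding.nonempty_of_card_le (by rwa [Fintype.card_fin])
  have hEc := eset_map_card H φ
  have hEcard : (H.edgeSet.ncard : ℝ) ≤ (n : ℝ) ^ 2 := by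
    have h3 : H.edgeSet.ncard ≤ n ^ 2 := by
      rw [← hEc]
      calc (eset (H.map φ)).card ≤ Fintype.card (PE n) := card_le_univ _
        _ = n.choose 2 := by rw [Sym2.card_subtype_not_diag, Fintype.card_fin]
        _ ≤ n ^ 2 := Nat.choose_le_pow n 2
    exact_mod_cast h3
  have hElog : Real.log H.edgeSet.ncard ≤ 2 * Real.log n := by
    rcases Nat.eq_zero_or_pos H.edgeSet.ncard with h0 | h0
    · rw [h0]; simp only [Nat.cast_zero, Real.log_zero]; linarith
    · have : (0 : ℝ) < H.edgeSet.ncard := by exact_mod_cast h0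
      calc Real.log H.edgeSet.ncard ≤ Real.log ((n : ℝ) ^ 2) := Real.log_le_log this hEcard
        _ = 2 * Real.log n := by rw [Real.log_pow]; push_cast; ring
  have hE0 : 0 ≤ Real.log H.edgeSet.ncard := Real.log_natCast_nonneg _
  have hb : 1 + Real.log H.edgeSet.ncard ≤ 4 * Real.log n := by linarith
  refine ⟨h1.trans ?_, h1.trans ?_⟩
  · calc C * pE n H * (1 + Real.log H.edgeSet.ncard) ≤ C * pE n H * (4 * Real.log n) :=
          mul_le_mul_of_nonneg_left hb (by positivity)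
      _ = C * 4 * pE n H * Real.log n := by ring
  · have : 0 ≤ C * pE n H * (1 + Real.log H.edgeSet.ncard) := by positivity
    calc C * pE n H * (1 + Real.log H.edgeSet.ncard)
        ≤ C * pE n H * (1 + Real.log H.edgeSet.ncard) * 4 := by linarith
      _ = C * 4 * pE n H * (1 + Real.log H.edgeSet.ncard) := by ring

end Vale.Agent.P064
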