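import Vale.Agent.P064.NestRound
import Vale.Agent.P064.NestDefs
import Vale.Agent.P064.Final

/-!
# P064: iteration of the round lemma
-/

namespace Vale.Agent.P064

open Finset

/-- density of the union of `t` independent `w`-random sets -/
noncomputable def iterP (w : ℝ) : ℕ → ℝ
  | 0 => 0
  | t + 1 => w + iterP w t - w * iterP w t

theorem iterP_bounds {w : ℝ} (hw0 : 0 ≤ w) (hw1 : w ≤ 1) (t : ℕ) :
    0 ≤ iterP w t ∧ iterP w t ≤ 1 ∧ iterP w t ≤ t * w := by
  induction t with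
  | zero => simp [iterP]
  | succ t ih =>
    obtain ⟨h0, h1, h2⟩ := ih
    simp only [iterP]
    have h3 : 0 ≤ w * iterP w t := mul_nonneg hw0 h0
    have h4 : 0 ≤ (1 - w) * (1 - iterP w t) := mul_nonneg (by linarith) (by linarith)
    have h5 : w * iterP w t ≤ iterP w t := by nlinarith
    push_cast
    refine ⟨by linarith, by nlinarith, by linarith⟩

theorem ind_le_one (Q : Prop) : ind Q ≤ 1 := by
  by_cases h : Q
  · rw [ind_pos h]
  · rw [ind_neg h]; norm_num

theorem ind_not (Q : Prop) : ind (¬ Q) = 1 - ind Q := by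
  by_cases h : Q
  · rw [ind_pos h, ind_neg (not_not.2 h)]; norm_num
  · rw [ind_neg h, ind_pos h]; norm_num

/-- normal form: either `ℱ U` or a positive level -/
theorem ns_normal {X : Type} [Fintype X] [DecidableEq X] {ℱ : Finset X → Prop} {p : ℝ}
    (h a s : ℕ) (U : Finset X) (hs : a + 2 * h ≤ s + 2) (hN : NS ℱ p h a U) :
    ℱ U ∨ ∃ h' a', (a' + 1) + 2 * h' ≤ s + 2 ∧ 1 ≤ s ∧ NS ℱ p h' (a' + 1) U := by
  rcases Nat.eq_zero_or_pos h with rfl | hh
  · exact Or.inl hN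
  · rcases Nat.eq_zero_or_pos a with rfl | ha
    · obtain ⟨h', rfl⟩ : ∃ h', h = h' + 1 := ⟨h - 1, by omega⟩
      have h1 := NS_zero h' U hN
      rcases Nat.eq_zero_or_pos h' with rfl | hh'
      · exact Or.inl h1
      · exact Or.inr ⟨h', 1, by omega, by omega, h1⟩
    · obtain ⟨a', rfl⟩ : ∃ a', a = a' + 1 := ⟨a - 1, by omega⟩
      exact Or.inr ⟨h, a', hs, by omega, hN⟩

theorem ns_failure {X : Type} [Fintype X] [DecidableEq X] {ℱ : Finset X → Prop} {p w : ℝ}
    (hℱ : ∀ A B : Finset X, A ⊆ B → ℱ A → ℱ B) (hp : 0 < p) (hw : w = 2 ^ 23 * p) (hw1 : w ≤ 1)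
    (t : ℕ) : ∀ (h a s : ℕ) (U : Finset X), a + 2 * h ≤ s + 2 → NS ℱ p h a U →
      ∑ W : Finset X, wt (iterP w t) W * ind (¬ ℱ (U ∪ W)) ≤ 4 ^ s / 2 ^ t := by
  have hw0 : 0 ≤ w := by rw [hw]; positivity
  induction t with
  | zero =>
    intro h a s U _ _
    have hb := iterP_bounds hw0 hw1 0
    calc ∑ W : Finset X, wt (iterP w 0) W * ind (¬ ℱ (U ∪ W))
        ≤ ∑ W : Finset X, wt (iterP w 0) W * 1 := by
          refine sum_le_sum fun W _ => ?_
          exact mul_le_mul_of_nonneg_left (ind_le_one _) (wt_nonneg hb.1 hb.2.1 W)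
      _ = 1 := by simp only [mul_one]; exact wt_sum _
      _ ≤ 4 ^ s / 2 ^ 0 := by
          rw [pow_zero, div_one]
          exact one_le_pow₀ (by norm_num)
  | succ t ih =>
    intro h a s U hs hN
    have hb := iterP_bounds hw0 hw1 t
    rcases ns_normal h a s U hs hN with hU | ⟨h', a', hs', hs1, hN'⟩
    · have : ∑ W : Finset X, wt (iterP w (t + 1)) W * ind (¬ ℱ (U ∪ W)) = 0 := by
        refine sum_eq_zero fun W _ => ?_
        rw [ind_neg (not_not.2 (hℱ _ _ subset_union_left hU)), mul_zero]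
      rw [this]
      positivity
    · change ∑ W : Finset X, wt (w + iterP w t - w * iterP w t) W * ind (¬ ℱ (U ∪ W)) ≤ _
      rw [← wt_union w (iterP w t) (fun W => ind (¬ ℱ (U ∪ W)))]
      obtain ⟨s', rfl⟩ : ∃ s', s = s' + 1 := ⟨s - 1, by omega⟩
      set c : ℝ := 4 ^ s' / 2 ^ t with hc
      have hc0 : 0 < c := by positivity
      have hinner : ∀ W₁ : Finset X, ∑ W₂ : Finset X, wt w W₁ * wt (iterP w t) W₂ *
          ind (¬ ℱ (U ∪ (W₁ ∪ W₂))) ≤
          wt w W₁ * c + 4 * c * (wt w W₁ * ind (¬ NS ℱ p h' a' (U ∪ W₁))) := by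
        intro W₁
        have hw₁ : 0 ≤ wt w W₁ := wt_nonneg hw0 hw1 W₁
        have e : ∑ W₂ : Finset X, wt w W₁ * wt (iterP w t) W₂ * ind (¬ ℱ (U ∪ (W₁ ∪ W₂))) =
            wt w W₁ * ∑ W₂ : Finset X, wt (iterP w t) W₂ * ind (¬ ℱ ((U ∪ W₁) ∪ W₂)) := by
          rw [mul_sum]
          refine sum_congr rfl fun W₂ _ => ?_
          rw [union_assoc, mul_assoc]
        rw [e]
        by_cases hg : NS ℱ p h' a' (U ∪ W₁)
        · have h1 := ih h' a' s' (U ∪ W₁) (by omega) hg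
          rw [ind_neg (not_not.2 hg), mul_zero, mul_zero, add_zero]
          exact mul_le_mul_of_nonneg_left h1 hw₁
        · have h1 := ih h' (a' + 1) (s' + 1) (U ∪ W₁) hs'
            (NS_mono hℱ _ _ _ _ subset_union_left hN')
          rw [ind_pos hg, mul_one]
          have h2 : (4 : ℝ) ^ (s' + 1) / 2 ^ t = 4 * c := by rw [hc, pow_succ]; ring
          rw [h2] at h1
          have h3 := mul_le_mul_of_nonneg_left h1 hw₁
          have h4 : 0 ≤ wt w W₁ * c := mul_nonneg hw₁ hc0.le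
          linarith
      have hround := ns_round hℱ hp hw hw1 h' a' U hN'
      have h8 : (1 / 8 : ℝ) ^ (2 ^ (a' + 1)) ≤ 1 / 64 := by
        calc (1 / 8 : ℝ) ^ (2 ^ (a' + 1)) ≤ (1 / 8 : ℝ) ^ 2 := by
              refine pow_le_pow_of_le_one (by norm_num) (by norm_num) ?_
              calc 2 = 2 ^ 1 := (pow_one 2).symm
                _ ≤ 2 ^ (a' + 1) := Nat.pow_le_pow_right (by norm_num) (by omega)
          _ = 1 / 64 := by norm_num
      calc ∑ W₁ : Finset X, ∑ W₂ : Finset X, wt w W₁ * wt (iterP w t) W₂ *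
            ind (¬ ℱ (U ∪ (W₁ ∪ W₂)))
          ≤ ∑ W₁ : Finset X, (wt w W₁ * c +
              4 * c * (wt w W₁ * ind (¬ NS ℱ p h' a' (U ∪ W₁)))) := sum_le_sum fun W₁ _ => hinner W₁
        _ = c + 4 * c * ∑ W₁ : Finset X, wt w W₁ * ind (¬ NS ℱ p h' a' (U ∪ W₁)) := by
            rw [sum_add_distrib, ← sum_mul, wt_sum, one_mul, mul_sum]
        _ ≤ c + 4 * c * (1 / 64) := by
            have := mul_le_mul_of_nonneg_left (hround.trans h8) (by positivity : 0 ≤ 4 * c)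
            linarith
        _ ≤ 2 * c := by linarith
        _ = 4 ^ (s' + 1) / 2 ^ (t + 1) := by
            rw [hc, pow_succ, pow_succ]
            field_simp
            ring

/-- iteration of the round lemma -/
theorem ns_iterate {X : Type} [Fintype X] [DecidableEq X] {ℱ : Finset X → Prop} {p w : ℝ}
    (hℱ : ∀ A B : Finset X, A ⊆ B → ℱ A → ℱ B) (hp : 0 < p) (hw : w = 2 ^ 23 * p) (hw1 : w ≤ 1)
    (h a s : ℕ) (hs : a + 2 * h ≤ s + 2) (hNS : NS ℱ p h a ∅) :
    ∃ p' : ℝ, 0 ≤ p' ∧ p' ≤ 1 ∧ p' ≤ (2 * s + 1) * w ∧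
      1 / 2 ≤ ∑ W : Finset X, wt p' W * ind (ℱ W) := by
  have hw0 : 0 ≤ w := by rw [hw]; positivity
  obtain ⟨h0, h1, h2⟩ := iterP_bounds hw0 hw1 (2 * s + 1)
  refine ⟨iterP w (2 * s + 1), h0, h1, ?_, ?_⟩
  · push_cast at h2
    exact h2
  · have h3 := ns_failure hℱ hp hw hw1 (2 * s + 1) h a s ∅ hs hNS
    have h4 : (4 : ℝ) ^ s / 2 ^ (2 * s + 1) = 1 / 2 := by
      rw [pow_succ, pow_mul]
      norm_num
      field_simp
    rw [h4] at h3
    have h5 : ∑ W : Finset X, wt (iterP w (2 * s + 1)) W * ind (¬ ℱ (∅ ∪ W)) =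
        1 - ∑ W : Finset X, wt (iterP w (2 * s + 1)) W * ind (ℱ W) := by
      rw [← wt_sum (X := X) (iterP w (2 * s + 1)), ← sum_sub_distrib]
      refine sum_congr rfl fun W _ => ?_
      rw [empty_union, ind_not]
      ring
    rw [h5] at h3
    linarith

end Vale.Agent.P064
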