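import Vale.Agent.P064.NestDefs
import Vale.Agent.P064.Final

/-!
# P064: the round lemma for nested spread families
-/

namespace Vale.Agent.P064

open Finset

namespace Nest

variable {X : Type} [Fintype X] [DecidableEq X]

theorem sum_split (S : Finset X) (F : Finset X → ℝ) :
    ∑ W : Finset X, F W = ∑ A ∈ (Sᶜ).powerset, ∑ R ∈ S.powerset, F (A ∪ R) := by
  rw [← Finset.sum_product']
  refine Finset.sum_nbij' (fun W => (W \ S, W ∩ S)) (fun P => P.1 ∪ P.2) ?_ ?_ ?_ ?_ ?_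
  · intro W _
    rw [mem_product, mem_powerset, mem_powerset]
    refine ⟨?_, inter_subset_right⟩
    intro x hx
    rw [mem_sdiff] at hx
    rw [mem_compl]
    exact hx.2
  · intro P _
    exact mem_univ _
  · intro W _
    exact sdiff_union_inter W S
  · rintro ⟨A, R⟩ hP
    rw [mem_product, mem_powerset, mem_powerset] at hP
    have h1 : Disjoint A S := by
      rw [Finset.disjoint_left]
      intro x hx hxS
      exact (mem_compl.1 (hP.1 hx)) hxS
    ext x
    · simp only [mem_sdiff, mem_union]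
      constructor
      · rintro ⟨h | h, h2⟩
        · exact h
        · exact absurd (hP.2 h) h2
      · intro h
        exact ⟨Or.inl h, fun h2 => (Finset.disjoint_left.1 h1) h h2⟩
    · simp only [mem_inter, mem_union]
      constructor
      · rintro ⟨h | h, h2⟩
        · exact absurd h2 ((Finset.disjoint_left.1 h1) h)
        · exact h
      · intro h
        exact ⟨Or.inr h, hP.2 h⟩
  · intro W _
    rw [sdiff_union_inter W S]

theorem wt_split (w : ℝ) (S A R : Finset X) (hA : A ⊆ Sᶜ) (hR : R ⊆ S) :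
    wt w (A ∪ R) = (w ^ A.card * (1 - w) ^ ((Sᶜ).card - A.card)) *
      (w ^ R.card * (1 - w) ^ (S.card - R.card)) := by
  have hd : Disjoint A R := by
    rw [Finset.disjoint_left]
    intro x hx hxR
    exact (mem_compl.1 (hA hx)) (hR hxR)
  have h1 := card_le_card hA
  have h2 := card_le_card hR
  have h3 : (Sᶜ).card = Fintype.card X - S.card := card_compl S
  have h4 : S.card ≤ Fintype.card X := card_le_univ S
  unfold wt
  rw [card_union_of_disjoint hd]
  have h5 : Fintype.card X - (A.card + R.card) = ((Sᶜ).card - A.card) + (S.card - R.card) := by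
    omega
  rw [h5, pow_add, pow_add]
  ring

theorem binom_one (w : ℝ) (S : Finset X) :
    ∑ R ∈ S.powerset, (w ^ R.card * (1 - w) ^ (S.card - R.card)) = 1 := by
  rw [Finset.sum_pow_mul_eq_add_pow]
  simp

/-- independence of `W \ S` and `W ∩ S` -/
theorem indep (w : ℝ) (S : Finset X) (f g : Finset X → ℝ) :
    ∑ W : Finset X, wt w W * (f (W \ S) * g (W ∩ S)) =
      (∑ W : Finset X, wt w W * f (W \ S)) *
        ∑ R ∈ S.powerset, (w ^ R.card * (1 - w) ^ (S.card - R.card)) * g R := by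
  have key : ∀ g : Finset X → ℝ, ∑ W : Finset X, wt w W * (f (W \ S) * g (W ∩ S)) =
      (∑ A ∈ (Sᶜ).powerset, (w ^ A.card * (1 - w) ^ ((Sᶜ).card - A.card)) * f A) *
        ∑ R ∈ S.powerset, (w ^ R.card * (1 - w) ^ (S.card - R.card)) * g R := by
    intro g
    rw [sum_split S, sum_mul_sum]
    refine sum_congr rfl (fun A hA => sum_congr rfl (fun R hR => ?_))
    rw [mem_powerset] at hA hR
    rw [wt_split w S A R hA hR]
    have hd : ∀ x ∈ A, x ∉ S := fun x hx => mem_compl.1 (hA hx)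
    have e1 : (A ∪ R) \ S = A := by
      ext x
      simp only [mem_sdiff, mem_union]
      constructor
      · rintro ⟨h | h, h2⟩
        · exact h
        · exact absurd (hR h) h2
      · intro h
        exact ⟨Or.inl h, hd x h⟩
    have e2 : (A ∪ R) ∩ S = R := by
      ext x
      simp only [mem_inter, mem_union]
      constructor
      · rintro ⟨h | h, h2⟩
        · exact absurd h2 (hd x h)
        · exact h
      · intro h
        exact ⟨Or.inr h, hR h⟩
    rw [e1, e2]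
    ring
  have h1 := key (fun _ => 1)
  simp only [mul_one] at h1
  rw [binom_one, mul_one] at h1
  rw [h1]
  exact key g

/-- shift of a `w`-random set by a fixed set -/
theorem shift (w : ℝ) (hw : w ≠ 0) (S : Finset X) (f : Finset X → ℝ) :
    ∑ W : Finset X, wt w W * f (W ∪ S) =
      ∑ Z : Finset X, wt w Z * ((w⁻¹ ^ S.card * ind (S ⊆ Z)) * f Z) := by
  have h1 := indep w S (fun A => f (A ∪ S)) (fun R => w⁻¹ ^ S.card * ind (S ⊆ R))
  have h2 : ∑ R ∈ S.powerset, (w ^ R.card * (1 - w) ^ (S.card - R.card)) *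
      (w⁻¹ ^ S.card * ind (S ⊆ R)) = 1 := by
    rw [Finset.sum_eq_single_of_mem S (mem_powerset_self S)]
    · rw [ind_pos (Subset.refl S), Nat.sub_self, pow_zero, mul_one, mul_one, ← mul_pow,
        mul_inv_cancel₀ hw, one_pow]
    · intro R hR hne
      rw [mem_powerset] at hR
      rw [ind_neg (fun h => hne (Subset.antisymm hR h))]
      ring
  rw [h2, mul_one] at h1
  have h3 : ∀ W : Finset X, (W \ S) ∪ S = W ∪ S := fun W => sdiff_union_self_eq_union
  simp only [h3] at h1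
  rw [← h1]
  refine sum_congr rfl (fun Z _ => ?_)
  congr 1
  by_cases hSZ : S ⊆ Z
  · have e1 : Z ∪ S = Z := union_eq_left.2 hSZ
    have e2 : S ⊆ Z ∩ S := subset_inter hSZ (Subset.refl S)
    rw [e1, ind_pos e2, ind_pos hSZ]
    ring
  · have e2 : ¬ S ⊆ Z ∩ S := fun h => hSZ (h.trans inter_subset_left)
    rw [ind_neg e2, ind_neg hSZ]
    ring

theorem sub_iff (T S W : Finset X) : T ⊆ W ∪ S ↔ T \ S ⊆ W := by
  constructor
  · intro h x hx
    rw [mem_sdiff] at hx
    rcases mem_union.1 (h hx.1) with h1 | h1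
    · exact h1
    · exact absurd h1 hx.2
  · intro h x hx
    by_cases hS : x ∈ S
    · exact mem_union_right _ hS
    · exact mem_union_left _ (h (mem_sdiff.2 ⟨hx, hS⟩))

theorem ind_le_one (Q : Prop) : ind Q ≤ 1 := by
  by_cases h : Q
  · rw [ind_pos h]
  · rw [ind_neg h]; norm_num

theorem sum_wt_sup (w : ℝ) (A : Finset X) :
    ∑ W : Finset X, wt w W * ind (A ⊆ W) = w ^ A.card := by
  rw [← ProbAux.sum_wt_superset w A]
  refine sum_congr rfl (fun W _ => ?_)
  by_cases h : A ⊆ W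
  · rw [ind_pos h, if_pos h]
  · rw [ind_neg h, if_neg h]

/-- likelihood ratio of the planted model -/
noncomputable def Yf (w : ℝ) (ν : Finset X → ℝ) (Z : Finset X) : ℝ :=
  ∑ T, ν T * (w⁻¹ ^ T.card * ind (T ⊆ Z))

/-- planted set `S`, posterior sample `T` given `W ∪ S` -/
noncomputable def kap (w : ℝ) (ν : Finset X → ℝ) (W S T : Finset X) : ℝ :=
  ν S * (ν T * (w⁻¹ ^ T.card * ind (T ⊆ W ∪ S))) / Yf w ν (W ∪ S)

/-- the bad event -/
def bad (w : ℝ) (ν : Finset X → ℝ) (δ : ℝ) (r : ℕ) (e : Finset X → Finset X → Prop)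
    (W S T : Finset X) : Prop :=
  Yf w ν (W ∪ S) < δ ∨ r ≤ (S ∩ T).card ∨ e T W

/-- mass of the bad event -/
noncomputable def bet (w : ℝ) (ν : Finset X → ℝ) (δ : ℝ) (r : ℕ)
    (e : Finset X → Finset X → Prop) (W : Finset X) : ℝ :=
  ∑ S, ∑ T, kap w ν W S T * ind (bad w ν δ r e W S T)

section step

variable {w : ℝ} {ν : Finset X → ℝ}

theorem Yf_nonneg (hw : 0 < w) (hν : ∀ T, 0 ≤ ν T) (Z : Finset X) : 0 ≤ Yf w ν Z := by
  unfold Yf
  refine sum_nonneg (fun T _ => mul_nonneg (hν T) (mul_nonneg ?_ (ind_nonneg _)))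
  positivity

theorem Yf_pos (hw : 0 < w) (hν : ∀ T, 0 ≤ ν T) (W S : Finset X) (hS : ν S ≠ 0) :
    0 < Yf w ν (W ∪ S) := by
  unfold Yf
  refine sum_pos' (fun T _ => mul_nonneg (hν T) (mul_nonneg (by positivity) (ind_nonneg _)))
    ⟨S, mem_univ _, ?_⟩
  rw [ind_pos subset_union_right, mul_one]
  have : 0 < ν S := lt_of_le_of_ne (hν S) (Ne.symm hS)
  positivity

theorem kap_nonneg (hw : 0 < w) (hν : ∀ T, 0 ≤ ν T) (W S T : Finset X) : 0 ≤ kap w ν W S T := by
  unfold kap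
  refine div_nonneg (mul_nonneg (hν S) (mul_nonneg (hν T) (mul_nonneg ?_ (ind_nonneg _))))
    (Yf_nonneg hw hν _)
  positivity

theorem kap_sum (hw : 0 < w) (hν : ∀ T, 0 ≤ ν T) (W S : Finset X) :
    ∑ T, kap w ν W S T = ν S := by
  by_cases hS : ν S = 0
  · unfold kap
    rw [hS]
    simp
  · have h1 := Yf_pos hw hν W S hS
    unfold kap
    rw [← sum_div, ← mul_sum]
    have : ∑ i, ν i * (w⁻¹ ^ i.card * ind (i ⊆ W ∪ S)) = Yf w ν (W ∪ S) := rfl
    rw [this, mul_div_assoc, div_self h1.ne', mul_one]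

theorem kap_sum_sum (hw : 0 < w) (hν : ∀ T, 0 ≤ ν T) (hν1 : ∑ T, ν T = 1) (W : Finset X) :
    ∑ S, ∑ T, kap w ν W S T = 1 := by
  rw [← hν1]
  exact sum_congr rfl (fun S _ => kap_sum hw hν W S)

/-- first error term -/
theorem E1 (hw : 0 < w) (hw1 : w ≤ 1) {δ : ℝ} (hδ : 0 < δ) :
    ∑ W : Finset X, wt w W * ∑ S, ν S * ind (Yf w ν (W ∪ S) < δ) ≤ δ := by
  have h1 : ∑ W : Finset X, wt w W * ∑ S, ν S * ind (Yf w ν (W ∪ S) < δ) =
      ∑ Z : Finset X, wt w Z * (Yf w ν Z * ind (Yf w ν Z < δ)) := by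
    simp only [mul_sum]
    rw [sum_comm]
    have h2 : ∀ S : Finset X, ∑ W : Finset X, wt w W * (ν S * ind (Yf w ν (W ∪ S) < δ)) =
        ∑ Z : Finset X, wt w Z * (ν S * (w⁻¹ ^ S.card * ind (S ⊆ Z)) * ind (Yf w ν Z < δ)) := by
      intro S
      have h3 := shift w hw.ne' S (fun Z => ind (Yf w ν Z < δ))
      calc ∑ W : Finset X, wt w W * (ν S * ind (Yf w ν (W ∪ S) < δ))
          = ν S * ∑ W : Finset X, wt w W * ind (Yf w ν (W ∪ S) < δ) := by
            rw [mul_sum]; exact sum_congr rfl (fun W _ => by ring)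
        _ = ν S * ∑ Z : Finset X, wt w Z * ((w⁻¹ ^ S.card * ind (S ⊆ Z)) *
              ind (Yf w ν Z < δ)) := by rw [h3]
        _ = _ := by rw [mul_sum]; exact sum_congr rfl (fun W _ => by ring)
    rw [sum_congr rfl (fun S _ => h2 S), sum_comm]
    refine sum_congr rfl (fun Z _ => ?_)
    rw [← mul_sum, ← sum_mul]
    rfl
  rw [h1]
  calc ∑ Z : Finset X, wt w Z * (Yf w ν Z * ind (Yf w ν Z < δ))
      ≤ ∑ Z : Finset X, wt w Z * δ := by
        refine sum_le_sum (fun Z _ => mul_le_mul_of_nonneg_left ?_ (wt_nonneg hw.le hw1 Z))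
        by_cases h : Yf w ν Z < δ
        · rw [ind_pos h, mul_one]; exact h.le
        · rw [ind_neg h, mul_zero]; exact hδ.le
    _ = δ := by rw [← sum_mul, wt_sum, one_mul]

/-- second error term -/
theorem E2 (hw : 0 < w) (hν : ∀ T, 0 ≤ ν T) (hν1 : ∑ T, ν T = 1) {P M : ℝ} (hP : 0 < P)
    (hM : 1 ≤ M) (hwM : w = M * P)
    (hsp : ∀ K : Finset X, ∑ T, ν T * ind (K ⊆ T) ≤ P ^ K.card) {m : ℕ}
    (hm : ∀ T, ν T ≠ 0 → T.card ≤ m) (r : ℕ) :
    ∑ W : Finset X, wt w W * ∑ S, ∑ T, ν S * (ν T * (w⁻¹ ^ T.card * ind (T ⊆ W ∪ S))) *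
      ind (r ≤ (S ∩ T).card) ≤ 2 ^ m * M⁻¹ ^ r := by
  have hM0 : 0 < M := by linarith
  -- step 1: sum over `W`
  have h1 : ∑ W : Finset X, wt w W * ∑ S, ∑ T, ν S * (ν T * (w⁻¹ ^ T.card * ind (T ⊆ W ∪ S))) *
      ind (r ≤ (S ∩ T).card) = ∑ S, ν S * ∑ T, ν T * (w⁻¹ ^ (S ∩ T).card *
        ind (r ≤ (S ∩ T).card)) := by
    simp only [mul_sum]
    rw [sum_comm]
    refine sum_congr rfl (fun S _ => ?_)
    rw [sum_comm]
    refine sum_congr rfl (fun T _ => ?_)
    have h2 : ∀ W : Finset X, ind (T ⊆ W ∪ S) = ind (T \ S ⊆ W) := by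
      intro W
      congr 1
      rw [eq_iff_iff, sub_iff]
    have h3 : w⁻¹ ^ T.card * w ^ (T \ S).card = w⁻¹ ^ (S ∩ T).card := by
      have h4 : T.card = (T \ S).card + (S ∩ T).card := by
        rw [inter_comm]; exact (card_sdiff_add_card_inter T S).symm
      rw [h4, pow_add, mul_right_comm, ← mul_pow, inv_mul_cancel₀ hw.ne', one_pow, one_mul]
    calc ∑ W : Finset X, wt w W * (ν S * (ν T * (w⁻¹ ^ T.card * ind (T ⊆ W ∪ S))) *
          ind (r ≤ (S ∩ T).card))
        = ν S * ν T * w⁻¹ ^ T.card * ind (r ≤ (S ∩ T).card) *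
            ∑ W : Finset X, wt w W * ind (T \ S ⊆ W) := by
          rw [mul_sum]
          exact sum_congr rfl (fun W _ => by rw [h2]; ring)
      _ = ν S * ν T * (w⁻¹ ^ T.card * w ^ (T \ S).card) * ind (r ≤ (S ∩ T).card) := by
          rw [sum_wt_sup]; ring
      _ = _ := by rw [h3]; ring
  rw [h1]
  -- step 2: for fixed `S`
  have h2 : ∀ S : Finset X, ν S ≠ 0 → ∑ T, ν T * (w⁻¹ ^ (S ∩ T).card *
        ind (r ≤ (S ∩ T).card)) ≤ 2 ^ m * M⁻¹ ^ r := by
    intro S hS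
    have h3 : ∀ T : Finset X, ν T * (w⁻¹ ^ (S ∩ T).card * ind (r ≤ (S ∩ T).card)) ≤
        ∑ R ∈ S.powerset, ind (r ≤ R.card) * w⁻¹ ^ R.card * (ν T * ind (R ⊆ T)) := by
      intro T
      have h4 : ind (r ≤ (S ∩ T).card) * w⁻¹ ^ (S ∩ T).card * (ν T * ind (S ∩ T ⊆ T)) ≤
          ∑ R ∈ S.powerset, ind (r ≤ R.card) * w⁻¹ ^ R.card * (ν T * ind (R ⊆ T)) := by
        refine single_le_sum (f := fun R => ind (r ≤ R.card) * w⁻¹ ^ R.card *
          (ν T * ind (R ⊆ T))) (fun R _ => ?_) (mem_powerset.2 inter_subset_left)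
        exact mul_nonneg (mul_nonneg (ind_nonneg _) (by positivity))
          (mul_nonneg (hν T) (ind_nonneg _))
      rw [ind_pos (inter_subset_right : S ∩ T ⊆ T)] at h4
      linarith
    calc ∑ T, ν T * (w⁻¹ ^ (S ∩ T).card * ind (r ≤ (S ∩ T).card))
        ≤ ∑ T, ∑ R ∈ S.powerset, ind (r ≤ R.card) * w⁻¹ ^ R.card * (ν T * ind (R ⊆ T)) :=
          sum_le_sum (fun T _ => h3 T)
      _ = ∑ R ∈ S.powerset, ind (r ≤ R.card) * w⁻¹ ^ R.card * ∑ T, (ν T * ind (R ⊆ T)) := by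
          rw [sum_comm]
          exact sum_congr rfl (fun R _ => by rw [mul_sum])
      _ ≤ ∑ R ∈ S.powerset, M⁻¹ ^ r := by
          refine sum_le_sum (fun R _ => ?_)
          by_cases hr : r ≤ R.card
          · rw [ind_pos hr, one_mul]
            calc w⁻¹ ^ R.card * ∑ T, (ν T * ind (R ⊆ T)) ≤ w⁻¹ ^ R.card * P ^ R.card :=
                  mul_le_mul_of_nonneg_left (hsp R) (by positivity)
              _ = M⁻¹ ^ R.card := by
                  rw [← mul_pow, hwM, mul_inv, mul_assoc, inv_mul_cancel₀ hP.ne', mul_one]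
              _ ≤ M⁻¹ ^ r := pow_le_pow_of_le_one (by positivity) (inv_le_one_of_one_le₀ hM) hr
          · rw [ind_neg hr, zero_mul, zero_mul]
            positivity
      _ = 2 ^ S.card * M⁻¹ ^ r := by
          rw [sum_const, card_powerset, nsmul_eq_mul]; push_cast; ring
      _ ≤ 2 ^ m * M⁻¹ ^ r := by
          have := hm S hS
          gcongr
          norm_num
  calc ∑ S, ν S * ∑ T, ν T * (w⁻¹ ^ (S ∩ T).card * ind (r ≤ (S ∩ T).card))
      ≤ ∑ S, ν S * (2 ^ m * M⁻¹ ^ r) := by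
        refine sum_le_sum (fun S _ => ?_)
        by_cases hS : ν S = 0
        · rw [hS, zero_mul, zero_mul]
        · exact mul_le_mul_of_nonneg_left (h2 S hS) (hν S)
    _ = 2 ^ m * M⁻¹ ^ r := by rw [← sum_mul, hν1, one_mul]

/-- third error term -/
theorem E3 (hw : 0 < w) (hw1 : w ≤ 1) (hν : ∀ T, 0 ≤ ν T) (hν1 : ∑ T, ν T = 1) {P : ℝ}
    (hP : 0 < P) (hPw : P ≤ w)
    (hsp : ∀ K : Finset X, ∑ T, ν T * ind (K ⊆ T) ≤ P ^ K.card) {m : ℕ}
    (hm : ∀ T, ν T ≠ 0 → T.card ≤ m) (e : Finset X → Finset X → Prop)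
    (he : ∀ T W, e T W ↔ e T (W \ T)) {c : ℝ} (hc : 0 ≤ c)
    (hec : ∀ T, ν T ≠ 0 → ∑ W : Finset X, wt w W * ind (e T W) ≤ c) :
    ∑ W : Finset X, wt w W * ∑ S, ∑ T, ν S * (ν T * (w⁻¹ ^ T.card * ind (T ⊆ W ∪ S))) *
      ind (e T W) ≤ 2 ^ m * c := by
  have h1 : ∀ W T : Finset X, ∑ S, ν S * (ν T * (w⁻¹ ^ T.card * ind (T ⊆ W ∪ S))) *
      ind (e T W) ≤ ν T * (ind (e T W) * (w⁻¹ ^ T.card * P ^ (T \ W).card)) := by
    intro W T
    have h2 : ∀ S : Finset X, ind (T ⊆ W ∪ S) = ind (T \ W ⊆ S) := by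
      intro S
      congr 1
      rw [eq_iff_iff, union_comm, sub_iff]
    calc ∑ S, ν S * (ν T * (w⁻¹ ^ T.card * ind (T ⊆ W ∪ S))) * ind (e T W)
        = ν T * (ind (e T W) * (w⁻¹ ^ T.card * ∑ S, ν S * ind (T \ W ⊆ S))) := by
          simp only [mul_sum]
          exact sum_congr rfl (fun S _ => by rw [h2]; ring)
      _ ≤ _ := by
          refine mul_le_mul_of_nonneg_left ?_ (hν T)
          refine mul_le_mul_of_nonneg_left ?_ (ind_nonneg _)
          refine mul_le_mul_of_nonneg_left (hsp _) (by positivity)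
  have h3 : ∀ T : Finset X, ν T ≠ 0 → ∑ W : Finset X, wt w W * (ind (e T W) *
      (w⁻¹ ^ T.card * P ^ (T \ W).card)) ≤ 2 ^ m * c := by
    intro T hT
    have h4 := indep w T (fun A => ind (e T A))
      (fun R => w⁻¹ ^ T.card * P ^ (T.card - R.card))
    have h5 : ∀ W : Finset X, wt w W * (ind (e T W) * (w⁻¹ ^ T.card * P ^ (T \ W).card)) =
        wt w W * (ind (e T (W \ T)) * (w⁻¹ ^ T.card * P ^ (T.card - (W ∩ T).card))) := by
      intro W
      have h6 : ind (e T W) = ind (e T (W \ T)) := by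
        congr 1
        exact propext (he T W)
      have h7 : (T \ W).card = T.card - (W ∩ T).card := card_sdiff
      rw [h6, h7]
    have h8 : ∑ W : Finset X, wt w W * ind (e T (W \ T)) ≤ c := by
      refine le_trans (le_of_eq ?_) (hec T hT)
      refine sum_congr rfl (fun W _ => ?_)
      congr 2
      exact propext (he T W).symm
    have h9 : ∑ R ∈ T.powerset, (w ^ R.card * (1 - w) ^ (T.card - R.card)) *
        (w⁻¹ ^ T.card * P ^ (T.card - R.card)) ≤ 2 ^ m := by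
      calc ∑ R ∈ T.powerset, (w ^ R.card * (1 - w) ^ (T.card - R.card)) *
            (w⁻¹ ^ T.card * P ^ (T.card - R.card))
          = w⁻¹ ^ T.card * ∑ R ∈ T.powerset, (w ^ R.card * ((1 - w) * P) ^ (T.card - R.card)) := by
            rw [mul_sum]
            exact sum_congr rfl (fun R _ => by rw [mul_pow]; ring)
        _ = w⁻¹ ^ T.card * (w + (1 - w) * P) ^ T.card := by
            rw [Finset.sum_pow_mul_eq_add_pow]
        _ ≤ w⁻¹ ^ T.card * (2 * w) ^ T.card := by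
            have : (1 - w) * P ≤ w := by nlinarith
            have h0 : 0 ≤ (1 - w) * P := mul_nonneg (by linarith) hP.le
            gcongr
            linarith
        _ = 2 ^ T.card := by
            rw [← mul_pow]; congr 1; field_simp
        _ ≤ 2 ^ m := pow_le_pow_right₀ (by norm_num) (hm T hT)
    rw [sum_congr rfl (fun W _ => h5 W), h4, mul_comm (2 ^ m : ℝ) c]
    refine mul_le_mul h8 h9 (sum_nonneg (fun R _ => ?_)) hc
    have : 0 ≤ 1 - w := by linarith
    positivity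
  calc ∑ W : Finset X, wt w W * ∑ S, ∑ T, ν S * (ν T * (w⁻¹ ^ T.card * ind (T ⊆ W ∪ S))) *
      ind (e T W)
      ≤ ∑ W : Finset X, wt w W * ∑ T, ν T * (ind (e T W) *
          (w⁻¹ ^ T.card * P ^ (T \ W).card)) := by
        refine sum_le_sum (fun W _ => mul_le_mul_of_nonneg_left ?_ (wt_nonneg hw.le hw1 W))
        rw [sum_comm]
        exact sum_le_sum (fun T _ => h1 W T)
    _ = ∑ T, ν T * ∑ W : Finset X, wt w W * (ind (e T W) *
          (w⁻¹ ^ T.card * P ^ (T \ W).card)) := by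
        simp only [mul_sum]
        rw [sum_comm]
        exact sum_congr rfl (fun T _ => sum_congr rfl (fun W _ => by ring))
    _ ≤ ∑ T, ν T * (2 ^ m * c) := by
        refine sum_le_sum (fun T _ => ?_)
        by_cases hT : ν T = 0
        · rw [hT, zero_mul, zero_mul]
        · exact mul_le_mul_of_nonneg_left (h3 T hT) (hν T)
    _ = 2 ^ m * c := by rw [← sum_mul, hν1, one_mul]

/-- expected mass of the bad event -/
theorem E_bet (hw : 0 < w) (hw1 : w ≤ 1) (hν : ∀ T, 0 ≤ ν T) (hν1 : ∑ T, ν T = 1) {P M : ℝ}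
    (hP : 0 < P) (hM : 1 ≤ M) (hwM : w = M * P)
    (hsp : ∀ K : Finset X, ∑ T, ν T * ind (K ⊆ T) ≤ P ^ K.card) {m : ℕ}
    (hm : ∀ T, ν T ≠ 0 → T.card ≤ m) (e : Finset X → Finset X → Prop)
    (he : ∀ T W, e T W ↔ e T (W \ T)) {c : ℝ} (hc : 0 ≤ c)
    (hec : ∀ T, ν T ≠ 0 → ∑ W : Finset X, wt w W * ind (e T W) ≤ c) {δ : ℝ} (hδ : 0 < δ)
    (r : ℕ) :
    ∑ W : Finset X, wt w W * bet w ν δ r e W ≤
      δ + δ⁻¹ * (2 ^ m * M⁻¹ ^ r) + δ⁻¹ * (2 ^ m * c) := by
  have hpt : ∀ W : Finset X, bet w ν δ r e W ≤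
      ∑ S, ν S * ind (Yf w ν (W ∪ S) < δ) +
      δ⁻¹ * ∑ S, ∑ T, ν S * (ν T * (w⁻¹ ^ T.card * ind (T ⊆ W ∪ S))) *
        ind (r ≤ (S ∩ T).card) +
      δ⁻¹ * ∑ S, ∑ T, ν S * (ν T * (w⁻¹ ^ T.card * ind (T ⊆ W ∪ S))) * ind (e T W) := by
    intro W
    have h1 : ∀ S T : Finset X, kap w ν W S T * ind (bad w ν δ r e W S T) ≤
        kap w ν W S T * ind (Yf w ν (W ∪ S) < δ) +
        δ⁻¹ * (ν S * (ν T * (w⁻¹ ^ T.card * ind (T ⊆ W ∪ S))) * ind (r ≤ (S ∩ T).card)) +
        δ⁻¹ * (ν S * (ν T * (w⁻¹ ^ T.card * ind (T ⊆ W ∪ S))) * ind (e T W)) := by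
      intro S T
      have hk := kap_nonneg hw hν W S T
      have hb : 0 ≤ ν S * (ν T * (w⁻¹ ^ T.card * ind (T ⊆ W ∪ S))) := by
        refine mul_nonneg (hν S) (mul_nonneg (hν T) (mul_nonneg ?_ (ind_nonneg _)))
        positivity
      have hδi : 0 < δ⁻¹ := by positivity
      by_cases hY : Yf w ν (W ∪ S) < δ
      · rw [ind_pos hY]
        have h2 : kap w ν W S T * ind (bad w ν δ r e W S T) ≤ kap w ν W S T * 1 :=
          mul_le_mul_of_nonneg_left (ind_le_one _) hk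
        have h3 : 0 ≤ δ⁻¹ * (ν S * (ν T * (w⁻¹ ^ T.card * ind (T ⊆ W ∪ S))) *
            ind (r ≤ (S ∩ T).card)) := mul_nonneg hδi.le (mul_nonneg hb (ind_nonneg _))
        have h4 : 0 ≤ δ⁻¹ * (ν S * (ν T * (w⁻¹ ^ T.card * ind (T ⊆ W ∪ S))) *
            ind (e T W)) := mul_nonneg hδi.le (mul_nonneg hb (ind_nonneg _))
        linarith
      · have hY' : δ ≤ Yf w ν (W ∪ S) := not_lt.1 hY
        rw [ind_neg hY, mul_zero, zero_add]
        have h2 : kap w ν W S T ≤ δ⁻¹ * (ν S * (ν T * (w⁻¹ ^ T.card * ind (T ⊆ W ∪ S)))) := by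
          unfold kap
          rw [div_eq_inv_mul]
          exact mul_le_mul_of_nonneg_right (inv_anti₀ hδ hY') hb
        have h3 : ind (bad w ν δ r e W S T) ≤ ind (r ≤ (S ∩ T).card) + ind (e T W) := by
          by_cases hbad : bad w ν δ r e W S T
          · rw [ind_pos hbad]
            rcases hbad with h | h | h
            · exact absurd h hY
            · rw [ind_pos h]; have := ind_nonneg (e T W); linarith
            · rw [ind_pos h]; have := ind_nonneg (r ≤ (S ∩ T).card); linarith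
          · rw [ind_neg hbad]
            exact add_nonneg (ind_nonneg _) (ind_nonneg _)
        calc kap w ν W S T * ind (bad w ν δ r e W S T)
            ≤ (δ⁻¹ * (ν S * (ν T * (w⁻¹ ^ T.card * ind (T ⊆ W ∪ S))))) *
              (ind (r ≤ (S ∩ T).card) + ind (e T W)) :=
              mul_le_mul h2 h3 (ind_nonneg _) (mul_nonneg hδi.le hb)
          _ = _ := by ring
    unfold bet
    calc ∑ S, ∑ T, kap w ν W S T * ind (bad w ν δ r e W S T)
        ≤ ∑ S, ∑ T, (kap w ν W S T * ind (Yf w ν (W ∪ S) < δ) +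
        δ⁻¹ * (ν S * (ν T * (w⁻¹ ^ T.card * ind (T ⊆ W ∪ S))) * ind (r ≤ (S ∩ T).card)) +
        δ⁻¹ * (ν S * (ν T * (w⁻¹ ^ T.card * ind (T ⊆ W ∪ S))) * ind (e T W))) :=
          sum_le_sum (fun S _ => sum_le_sum (fun T _ => h1 S T))
      _ = _ := by
          simp only [sum_add_distrib, ← mul_sum]
          congr 2
          refine sum_congr rfl (fun S _ => ?_)
          rw [← sum_mul, kap_sum hw hν]
  have hPw : P ≤ w := by rw [hwM]; nlinarith
  have hδi : 0 ≤ δ⁻¹ := by positivity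
  calc ∑ W : Finset X, wt w W * bet w ν δ r e W
      ≤ ∑ W : Finset X, wt w W * (∑ S, ν S * ind (Yf w ν (W ∪ S) < δ) +
      δ⁻¹ * ∑ S, ∑ T, ν S * (ν T * (w⁻¹ ^ T.card * ind (T ⊆ W ∪ S))) *
        ind (r ≤ (S ∩ T).card) +
      δ⁻¹ * ∑ S, ∑ T, ν S * (ν T * (w⁻¹ ^ T.card * ind (T ⊆ W ∪ S))) * ind (e T W)) :=
        sum_le_sum (fun W _ => mul_le_mul_of_nonneg_left (hpt W) (wt_nonneg hw.le hw1 W))
    _ = ∑ W : Finset X, wt w W * ∑ S, ν S * ind (Yf w ν (W ∪ S) < δ) +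
      δ⁻¹ * ∑ W : Finset X, wt w W * ∑ S, ∑ T, ν S * (ν T * (w⁻¹ ^ T.card *
        ind (T ⊆ W ∪ S))) * ind (r ≤ (S ∩ T).card) +
      δ⁻¹ * ∑ W : Finset X, wt w W * ∑ S, ∑ T, ν S * (ν T * (w⁻¹ ^ T.card *
        ind (T ⊆ W ∪ S))) * ind (e T W) := by
        rw [mul_sum univ _ δ⁻¹, mul_sum univ _ δ⁻¹, ← sum_add_distrib, ← sum_add_distrib]
        exact sum_congr rfl (fun W _ => by ring)
    _ ≤ _ := by
        have a1 := E1 (ν := ν) hw hw1 hδ
        have a2 := E2 hw hν hν1 hP hM hwM hsp hm r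
        have a3 := E3 hw hw1 hν hν1 hP hPw hsp hm e he hc hec
        exact add_le_add (add_le_add a1 (mul_le_mul_of_nonneg_left a2 hδi))
          (mul_le_mul_of_nonneg_left a3 hδi)

end step

section newstate

theorem ind_not (Q : Prop) : ind (¬ Q) = 1 - ind Q := by
  by_cases h : Q
  · rw [ind_pos h, ind_neg (not_not.2 h)]; ring
  · rw [ind_neg h, ind_pos h]; ring

theorem sum_ind_eq (s : Finset (Finset X)) (A : Finset X) :
    ∑ T' ∈ s, ind (A = T') = ind (A ∈ s) := by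
  by_cases h : A ∈ s
  · rw [Finset.sum_eq_single_of_mem A h, ind_pos rfl, ind_pos h]
    intro B _ hne
    exact ind_neg (fun h => hne h.symm)
  · rw [ind_neg h]
    refine Finset.sum_eq_zero (fun B hB => ind_neg (fun h2 => h (h2 ▸ hB)))

/-- the new state after a successful round -/
theorem new_state {ℱ : Finset X → Prop} {p w : ℝ} {ν : Finset X → ℝ} (hp : 0 < p) {h a : ℕ}
    {U W : Finset X} (hw : 0 < w) (hν : ∀ T, 0 ≤ ν T) (hν1 : ∑ T, ν T = 1)
    (hsp : ∀ K : Finset X, K.Nonempty →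
        ∑ T ∈ univ.filter (fun T => K ⊆ T), ν T ≤ (1 + 1 / 2 ^ (a + 1)) * p ^ K.card) {δ : ℝ}
    (hβ : bet w ν δ (2 ^ a) (fun T W => ¬ NS ℱ p h (a + 2) (U ∪ T ∪ W)) W ≤
      1 / (2 ^ (a + 1) + 2)) : NS ℱ p (h + 1) a (U ∪ W) := by
  set e : Finset X → Finset X → Prop := fun T W => ¬ NS ℱ p h (a + 2) (U ∪ T ∪ W) with he
  set β : ℝ := bet w ν δ (2 ^ a) e W with hβdef
  have hy : (1 : ℝ) ≤ 2 ^ a := one_le_pow₀ (by norm_num)
  have hx : (2 : ℝ) ^ (a + 1) = 2 * 2 ^ a := by rw [pow_succ]; ring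
  have hβ1 : 0 < 1 - β := by
    have : 1 / ((2 : ℝ) ^ (a + 1) + 2) ≤ 1 / 2 := by
      apply one_div_le_one_div_of_le (by norm_num)
      rw [hx]; linarith
    linarith
  set G : Finset X → Finset X → ℝ := fun S T => kap w ν W S T * ind (¬ bad w ν δ (2 ^ a) e W S T)
    with hG
  have hG0 : ∀ S T, 0 ≤ G S T := fun S T => mul_nonneg (kap_nonneg hw hν W S T) (ind_nonneg _)
  have hGsum : ∑ S, ∑ T, G S T = 1 - β := by
    have h1 : ∀ S T, G S T = kap w ν W S T - kap w ν W S T * ind (bad w ν δ (2 ^ a) e W S T) := by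
      intro S T
      simp only [hG]
      rw [ind_not]; ring
    simp only [h1, sum_sub_distrib]
    rw [kap_sum_sum hw hν hν1]
    rfl
  have hGsub : ∀ S T, G S T ≠ 0 → T \ W ⊆ S := by
    intro S T hne
    by_contra hcon
    apply hne
    have h1 : ¬ T ⊆ W ∪ S := by
      intro h2
      rw [union_comm, sub_iff] at h2
      exact hcon h2
    simp only [hG]
    unfold kap
    rw [ind_neg h1]
    ring
  refine ⟨fun T' => (∑ S, ∑ T, G S T * ind (T \ W = T')) / (1 - β), ?_, ?_, ?_, ?_⟩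
  · intro T'
    refine div_nonneg (sum_nonneg (fun S _ => sum_nonneg (fun T _ => ?_))) hβ1.le
    exact mul_nonneg (hG0 S T) (ind_nonneg _)
  · rw [← sum_div, sum_comm]
    have h1 : ∀ S : Finset X, ∑ T' : Finset X, ∑ T, G S T * ind (T \ W = T') = ∑ T, G S T := by
      intro S
      rw [sum_comm]
      refine sum_congr rfl (fun T _ => ?_)
      rw [← mul_sum, sum_ind_eq, ind_pos (mem_univ _), mul_one]
    rw [sum_congr rfl (fun S _ => h1 S), hGsum, div_self hβ1.ne']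
  · intro K hK
    rw [← sum_div, sum_comm]
    have h1 : ∀ S : Finset X, ∑ T' ∈ univ.filter (fun T' => K ⊆ T'), ∑ T, G S T *
        ind (T \ W = T') ≤ ν S * ind (K ⊆ S) := by
      intro S
      rw [sum_comm]
      calc ∑ T, ∑ T' ∈ univ.filter (fun T' => K ⊆ T'), G S T * ind (T \ W = T')
          ≤ ∑ T, kap w ν W S T * ind (K ⊆ S) := by
            refine sum_le_sum (fun T _ => ?_)
            rw [← mul_sum, sum_ind_eq]
            by_cases hz : G S T = 0
            · rw [hz, zero_mul]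
              exact mul_nonneg (kap_nonneg hw hν W S T) (ind_nonneg _)
            · have h2 : ind (T \ W ∈ univ.filter (fun T' => K ⊆ T')) ≤ ind (K ⊆ S) := by
                by_cases h3 : T \ W ∈ univ.filter (fun T' => K ⊆ T')
                · rw [ind_pos h3, ind_pos ((mem_filter.1 h3).2.trans (hGsub S T hz))]
                · rw [ind_neg h3]; exact ind_nonneg _
              have h4 : G S T ≤ kap w ν W S T := by
                simp only [hG]
                exact mul_le_of_le_one_right (kap_nonneg hw hν W S T) (ind_le_one _)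
              exact mul_le_mul h4 h2 (ind_nonneg _) (kap_nonneg hw hν W S T)
        _ = ν S * ind (K ⊆ S) := by rw [← sum_mul, kap_sum hw hν]
    have h2 : ∑ S : Finset X, ν S * ind (K ⊆ S) = ∑ T ∈ univ.filter (fun T => K ⊆ T), ν T := by
      rw [sum_filter]
      refine sum_congr rfl (fun S _ => ?_)
      by_cases h3 : K ⊆ S
      · rw [ind_pos h3, if_pos h3, mul_one]
      · rw [ind_neg h3, if_neg h3, mul_zero]
    rw [div_le_iff₀ hβ1]
    have h3 : ∑ S : Finset X, ∑ T' ∈ univ.filter (fun T' => K ⊆ T'), ∑ T, G S T *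
        ind (T \ W = T') ≤ (1 + 1 / 2 ^ (a + 1)) * p ^ K.card := by
      refine le_trans (sum_le_sum (fun S _ => h1 S)) ?_
      rw [h2]
      exact hsp K hK
    refine h3.trans ?_
    have hpk : 0 < p ^ K.card := by positivity
    have h4 : (1 + 1 / (2 : ℝ) ^ (a + 1)) ≤ (1 + 1 / 2 ^ a) * (1 - β) := by
      have h5 : 1 - 1 / ((2 : ℝ) ^ (a + 1) + 2) ≤ 1 - β := by linarith
      have h6 : (1 + 1 / (2 : ℝ) ^ (a + 1)) = (1 + 1 / 2 ^ a) * (1 - 1 / (2 ^ (a + 1) + 2)) := by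
        rw [hx]
        have : (2 : ℝ) ^ a ≠ 0 := by positivity
        have h7 : 2 * (2 : ℝ) ^ a + 2 ≠ 0 := by positivity
        field_simp
        ring
      rw [h6]
      refine mul_le_mul_of_nonneg_left h5 (by positivity)
    calc (1 + 1 / (2 : ℝ) ^ (a + 1)) * p ^ K.card
        ≤ ((1 + 1 / 2 ^ a) * (1 - β)) * p ^ K.card := by gcongr
      _ = (1 + 1 / 2 ^ a) * p ^ K.card * (1 - β) := by ring
  · intro T' hT'
    have h1 : ∃ S T, G S T * ind (T \ W = T') ≠ 0 := by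
      by_contra hcon
      push Not at hcon
      apply hT'
      show (∑ S, ∑ T, G S T * ind (T \ W = T')) / (1 - β) = 0
      rw [sum_eq_zero (fun S _ => sum_eq_zero (fun T _ => hcon S T)), zero_div]
    obtain ⟨S, T, hST⟩ := h1
    have hG1 : G S T ≠ 0 := left_ne_zero_of_mul hST
    have hT1 : T \ W = T' := by
      by_contra hcon
      exact (right_ne_zero_of_mul hST) (ind_neg hcon)
    have hbad : ¬ bad w ν δ (2 ^ a) e W S T := by
      by_contra hcon
      apply hG1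
      simp only [hG]
      rw [ind_neg (not_not.2 hcon), mul_zero]
    have h2 := hGsub S T hG1
    unfold bad at hbad
    push Not at hbad
    obtain ⟨-, hb2, hb3⟩ := hbad
    constructor
    · rw [← hT1]
      refine lt_of_le_of_lt (card_le_card ?_) hb2
      exact subset_inter h2 sdiff_subset
    · simp only [he, not_not] at hb3
      rw [← hT1]
      have h4 : U ∪ W ∪ T \ W = U ∪ T ∪ W := by
        ext x
        simp only [mem_union, mem_sdiff]
        tauto
      rw [h4]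
      exact hb3

end newstate

theorem pow_aux (n : ℕ) (hn : 2 ≤ n) : n + 2 ≤ 2 ^ n := by
  induction n, hn using Nat.le_induction with
  | base => norm_num
  | succ k hk ihk => rw [pow_succ]; omega

end Nest

open Nest in
/-- The round lemma: one random set halves the sizes of all levels at once. -/
theorem ns_round {X : Type} [Fintype X] [DecidableEq X] {ℱ : Finset X → Prop} {p w : ℝ}
    (hℱ : ∀ A B : Finset X, A ⊆ B → ℱ A → ℱ B) (hp : 0 < p) (hw : w = 2 ^ 23 * p) (hw1 : w ≤ 1) :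
    ∀ (h a : ℕ) (U : Finset X), NS ℱ p h (a + 1) U →
      ∑ W : Finset X, wt w W * ind (¬ NS ℱ p h a (U ∪ W)) ≤ (1 / 8) ^ (2 ^ (a + 1)) := by
  have hw0 : 0 < w := by rw [hw]; positivity
  intro h
  induction h with
  | zero =>
    intro a U hU
    have h1 : ∀ W : Finset X, wt w W * ind (¬ NS ℱ p 0 a (U ∪ W)) = 0 := by
      intro W
      rw [ind_neg, mul_zero]
      exact not_not.2 (hℱ U (U ∪ W) subset_union_left hU)
    rw [sum_eq_zero (fun W _ => h1 W)]
    positivity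
  | succ h ih =>
    rintro a U ⟨ν, hν, hν1, hsp, hsupp⟩
    set e : Finset X → Finset X → Prop := fun T W => ¬ NS ℱ p h (a + 2) (U ∪ T ∪ W) with he
    have hee : ∀ T W, e T W ↔ e T (W \ T) := by
      intro T W
      have : U ∪ T ∪ W = U ∪ T ∪ (W \ T) := by
        ext x
        simp only [mem_union, mem_sdiff]
        tauto
      simp only [he]
      rw [this]
    have hec : ∀ T, ν T ≠ 0 → ∑ W : Finset X, wt w W * ind (e T W) ≤ (1 / 8) ^ (2 ^ (a + 2 + 1)) :=
      fun T hT => ih (a + 2) (U ∪ T) (hsupp T hT).2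
    have hy : (1 : ℝ) ≤ 2 ^ a := one_le_pow₀ (by norm_num)
    have hsp' : ∀ K : Finset X, ∑ T, ν T * ind (K ⊆ T) ≤ (2 * p) ^ K.card := by
      intro K
      have h2 : ∑ S : Finset X, ν S * ind (K ⊆ S) = ∑ T ∈ univ.filter (fun T => K ⊆ T), ν T := by
        rw [sum_filter]
        refine sum_congr rfl (fun S _ => ?_)
        by_cases h3 : K ⊆ S
        · rw [ind_pos h3, if_pos h3, mul_one]
        · rw [ind_neg h3, if_neg h3, mul_zero]
      rw [h2]
      rcases K.eq_empty_or_nonempty with hK | hK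
      · subst hK
        simp only [empty_subset, filter_true, card_empty, pow_zero]
        exact hν1.le
      · refine (hsp K hK).trans ?_
        rw [mul_pow]
        have h3 : (1 + 1 / (2 : ℝ) ^ (a + 1)) ≤ 2 ^ K.card := by
          calc (1 + 1 / (2 : ℝ) ^ (a + 1)) ≤ 1 + 1 / 1 := by
                gcongr
                exact one_le_pow₀ (by norm_num)
            _ = 2 ^ 1 := by norm_num
            _ ≤ 2 ^ K.card := pow_le_pow_right₀ (by norm_num) hK.card_pos
        gcongr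
    have hmain := E_bet (ν := ν) hw0 hw1 hν hν1 (P := 2 * p) (M := 2 ^ 22) (by positivity)
      (by norm_num) (by rw [hw]; ring) hsp' (m := 2 ^ (a + 1)) (fun T hT => (hsupp T hT).1.le)
      e hee (by positivity) hec (δ := ((2 : ℝ) ^ (2 ^ (a + 1)))⁻¹ ^ 5) (by positivity) (2 ^ a)
    -- Markov
    have hpt : ∀ W : Finset X, ind (¬ NS ℱ p (h + 1) a (U ∪ W)) ≤
        (2 ^ (a + 1) + 2) *
          bet w ν (((2 : ℝ) ^ (2 ^ (a + 1)))⁻¹ ^ 5) (2 ^ a) e W := by
      intro W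
      by_cases hb : bet w ν (((2 : ℝ) ^ (2 ^ (a + 1)))⁻¹ ^ 5) (2 ^ a) e W ≤
          1 / (2 ^ (a + 1) + 2)
      · have hN : NS ℱ p (h + 1) a (U ∪ W) := new_state hp hw0 hν hν1 hsp hb
        rw [ind_neg (not_not.2 hN)]
        refine mul_nonneg (by positivity) ?_
        unfold bet
        exact sum_nonneg (fun S _ => sum_nonneg (fun T _ =>
          mul_nonneg (kap_nonneg hw0 hν W S T) (ind_nonneg _)))
      · push Not at hb
        refine (ind_le_one _).trans ?_
        rw [div_lt_iff₀ (by positivity)] at hb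
        linarith
    set n : ℕ := 2 ^ (a + 1) with hn
    have hn2 : 2 ≤ n := by
      rw [hn, pow_succ]
      have := Nat.one_le_two_pow (n := a)
      omega
    have hn3 : n + 2 ≤ 2 ^ n := pow_aux n hn2
    have hnr : (n : ℝ) + 2 ≤ 2 ^ n := by exact_mod_cast hn3
    have hnc : ((2 : ℝ) ^ (a + 1) + 2) = (n : ℝ) + 2 := by rw [hn]; push_cast; ring
    have hu4 : (4 : ℝ) ≤ 2 ^ n := by
      calc (4 : ℝ) = 2 ^ 2 := by norm_num
        _ ≤ 2 ^ n := pow_le_pow_right₀ (by norm_num) hn2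
    have e1 : ((2 : ℝ) ^ 22)⁻¹ ^ (2 ^ a) = ((2 : ℝ) ^ n)⁻¹ ^ 11 := by
      rw [inv_pow, inv_pow, ← pow_mul, ← pow_mul]
      congr 2
      rw [hn, pow_succ]; ring
    have e2 : (1 / 8 : ℝ) ^ (2 ^ (a + 2 + 1)) = ((2 : ℝ) ^ n)⁻¹ ^ 12 := by
      have : (1 / 8 : ℝ) = (2 ^ 3)⁻¹ := by norm_num
      rw [this, inv_pow, inv_pow, ← pow_mul, ← pow_mul]
      congr 2
      rw [hn, pow_succ, pow_succ, pow_succ]; ring
    have e3 : (1 / 8 : ℝ) ^ n = ((2 : ℝ) ^ n)⁻¹ ^ 3 := by
      have : (1 / 8 : ℝ) = (2 ^ 3)⁻¹ := by norm_num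
      rw [this, inv_pow, inv_pow, ← pow_mul, ← pow_mul]
      congr 2
      ring
    rw [e1, e2] at hmain
    rw [e3]
    set u : ℝ := (2 : ℝ) ^ n with hu
    have hu0 : 0 < u := by positivity
    have hmain2 : ∑ W : Finset X, wt w W * bet w ν (u⁻¹ ^ 5) (2 ^ a) e W ≤
        2 * u⁻¹ ^ 5 + u⁻¹ ^ 6 := by
      refine hmain.trans (le_of_eq ?_)
      field_simp
      ring
    calc ∑ W : Finset X, wt w W * ind (¬ NS ℱ p (h + 1) a (U ∪ W))
        ≤ ∑ W : Finset X, wt w W * ((2 ^ (a + 1) + 2) * bet w ν (u⁻¹ ^ 5) (2 ^ a) e W) :=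
          sum_le_sum (fun W _ => mul_le_mul_of_nonneg_left (hpt W) (wt_nonneg hw0.le hw1 W))
      _ = ((n : ℝ) + 2) * ∑ W : Finset X, wt w W * bet w ν (u⁻¹ ^ 5) (2 ^ a) e W := by
          rw [mul_sum]
          exact sum_congr rfl (fun W _ => by rw [hnc]; ring)
      _ ≤ u * (2 * u⁻¹ ^ 5 + u⁻¹ ^ 6) := by
          have h0 : 0 ≤ 2 * u⁻¹ ^ 5 + u⁻¹ ^ 6 := by positivity
          calc ((n : ℝ) + 2) * ∑ W : Finset X, wt w W * bet w ν (u⁻¹ ^ 5) (2 ^ a) e W
              ≤ ((n : ℝ) + 2) * (2 * u⁻¹ ^ 5 + u⁻¹ ^ 6) :=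
                mul_le_mul_of_nonneg_left hmain2 (by positivity)
            _ ≤ _ := mul_le_mul_of_nonneg_right hnr h0
      _ = u⁻¹ ^ 3 * (2 * u⁻¹ + u⁻¹ ^ 2) := by field_simp
      _ ≤ u⁻¹ ^ 3 * 1 := by
          have h1 : u⁻¹ ≤ 1 / 4 := by
            rw [inv_le_comm₀ hu0 (by norm_num)]; norm_num; exact hu4
          have h2 : 0 < u⁻¹ := by positivity
          refine mul_le_mul_of_nonneg_left ?_ (by positivity)
          nlinarith
      _ = u⁻¹ ^ 3 := mul_one _

end Vale.Agent.P064
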