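import Vale.Agent.P064.Defs

/-!
# P064: auxiliary definitions used in the proofs (not in the final statement)
-/

namespace Vale.Agent.P064

open Finset

/-- The set of pairs of `Fin n`, i.e. edges of the complete graph. -/
abbrev PE (n : ℕ) := {e : Sym2 (Fin n) // ¬ e.IsDiag}

/-- Permutations of the vertices act on the edges of the complete graph. -/
instance actPE (n : ℕ) : MulAction (Equiv.Perm (Fin n)) (PE n) where
  smul g e := ⟨Sym2.map g e.1, fun h => e.2 ((Sym2.isDiag_map g.injective).1 h)⟩
  one_smul e := by
    apply Subtype.ext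
    show Sym2.map (⇑(1 : Equiv.Perm (Fin n))) e.1 = e.1
    simp
  mul_smul g h e := by
    apply Subtype.ext
    show Sym2.map (⇑(g * h)) e.1 = Sym2.map g (Sym2.map h e.1)
    rw [Sym2.map_map]; rfl

theorem smulPE_val {n : ℕ} (g : Equiv.Perm (Fin n)) (e : PE n) :
    (g • e : PE n).1 = Sym2.map g e.1 := rfl

open Classical in
/-- Edge set of a graph as a finset of `PE n`. -/
noncomputable def eset {n : ℕ} (G : SimpleGraph (Fin n)) : Finset (PE n) :=
  univ.filter (fun e => e.1 ∈ G.edgeSet)

/-- Bernoulli weight of a subset of a finite set. -/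
noncomputable def wt {X : Type*} [Fintype X] (p : ℝ) (W : Finset X) : ℝ :=
  p ^ W.card * (1 - p) ^ (Fintype.card X - W.card)

end Vale.Agent.P064
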