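import Vale.Agent.P064.Tools

/-!
# P064: the union of two independent Bernoulli sets
-/

namespace Vale.Agent.P064

open Finset

theorem wt_eq_prod {X : Type*} [Fintype X] [DecidableEq X] (p : ℝ) (W : Finset X) :
    wt p W = ∏ x : X, (if x ∈ W then p else (1 - p)) := by
  rw [Finset.prod_ite, Finset.prod_const, Finset.prod_const]
  have h1 : (univ.filter (fun x => x ∈ W)) = W := by ext; simp
  have h2 : (univ.filter (fun x => ¬ x ∈ W)) = Wᶜ := by ext; simp
  rw [h1, h2, Finset.card_compl]
  rfl

theorem wt_nonneg {X : Type*} [Fintype X] {p : ℝ} (hp0 : 0 ≤ p) (hp1 : p ≤ 1) (W : Finset X) :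
    0 ≤ wt p W := by
  unfold wt
  have : 0 ≤ 1 - p := by linarith
  positivity

theorem wt_sum {X : Type*} [Fintype X] (p : ℝ) : ∑ W : Finset X, wt p W = 1 := by
  classical
  have h := Finset.sum_pow_mul_eq_add_pow p (1 - p) (univ : Finset X)
  rw [Finset.powerset_univ] at h
  simp only [Finset.card_univ] at h
  unfold wt
  rw [h]
  simp

theorem wt_union_fiber {X : Type*} [Fintype X] [DecidableEq X] (p s : ℝ) (W : Finset X) :
    ∑ P ∈ (univ : Finset (Finset X × Finset X)).filter (fun P => P.1 ∪ P.2 = W),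
      wt p P.1 * wt s P.2 = wt (p + s - p * s) W := by
  classical
  rw [wt_eq_prod]
  have h1 : ∀ x : X, (if x ∈ W then p + s - p * s else 1 - (p + s - p * s)) =
      ∑ ab ∈ (univ : Finset (Bool × Bool)).filter (fun ab => (ab.1 || ab.2) = decide (x ∈ W)),
        ((if ab.1 = true then p else 1 - p) * (if ab.2 = true then s else 1 - s)) := by
    intro x
    rw [Finset.sum_filter, Fintype.sum_prod_type]
    by_cases hx : x ∈ W
    · simp [hx]
      ring
    · simp [hx]
      ring
  rw [Finset.prod_congr rfl (fun x _ => h1 x), Finset.prod_univ_sum]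
  refine Finset.sum_nbij' (fun P => fun x => (decide (x ∈ P.1), decide (x ∈ P.2)))
    (fun c => (univ.filter (fun x => (c x).1 = true), univ.filter (fun x => (c x).2 = true)))
    ?_ ?_ ?_ ?_ ?_
  · intro P hP
    rw [Finset.mem_filter] at hP
    rw [Fintype.mem_piFinset]
    intro x
    simp [← hP.2]
  · intro c hc
    rw [Fintype.mem_piFinset] at hc
    rw [Finset.mem_filter]
    refine ⟨Finset.mem_univ _, ?_⟩
    ext x
    have := hc x
    rw [Finset.mem_filter] at this
    have h2 := this.2
    simp only [Finset.mem_union, Finset.mem_filter, Finset.mem_univ, true_and]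
    rw [← Bool.or_eq_true, h2]
    simp
  · intro P _
    ext x <;> simp
  · intro c _
    funext x
    ext <;> simp
  · intro P _
    rw [wt_eq_prod, wt_eq_prod, ← Finset.prod_mul_distrib]
    simp

/-- union of two independent random subsets -/
theorem wt_union {X : Type*} [Fintype X] [DecidableEq X] (p s : ℝ) (f : Finset X → ℝ) :
    ∑ W₁ : Finset X, ∑ W₂ : Finset X, wt p W₁ * wt s W₂ * f (W₁ ∪ W₂) =
      ∑ W : Finset X, wt (p + s - p * s) W * f W := by
  classical
  rw [← Fintype.sum_prod_type'
    (f := fun W₁ W₂ : Finset X => wt p W₁ * wt s W₂ * f (W₁ ∪ W₂))]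
  rw [← Finset.sum_fiberwise (univ : Finset (Finset X × Finset X)) (fun P => P.1 ∪ P.2)]
  refine Finset.sum_congr rfl (fun W _ => ?_)
  rw [← wt_union_fiber, Finset.sum_mul]
  refine Finset.sum_congr rfl (fun P hP => ?_)
  rw [Finset.mem_filter] at hP
  rw [hP.2]

/-- monotonicity in `p` of the expectation of a monotone function -/
theorem wt_mono {X : Type*} [Fintype X] [DecidableEq X] {p s : ℝ} (hp0 : 0 ≤ p) (hps : p ≤ s)
    (hs1 : s ≤ 1) (f : Finset X → ℝ) (hf : ∀ A B : Finset X, A ⊆ B → f A ≤ f B) :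
    ∑ W : Finset X, wt p W * f W ≤ ∑ W : Finset X, wt s W * f W := by
  classical
  rcases eq_or_lt_of_le (hps.trans hs1) with h | h
  · have : s = p := by linarith
    rw [this]
  · have h1 : 0 < 1 - p := by linarith
    set t : ℝ := (s - p) / (1 - p) with ht
    have ht0 : 0 ≤ t := div_nonneg (by linarith) h1.le
    have ht1 : t ≤ 1 := by
      rw [ht, div_le_one h1]; linarith
    have hst : s = p + t - p * t := by
      rw [ht]; field_simp; ring
    rw [hst, ← wt_union]
    refine Finset.sum_le_sum (fun W₁ _ => ?_)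
    have h2 : wt p W₁ * f W₁ = ∑ W₂ : Finset X, wt p W₁ * wt t W₂ * f W₁ := by
      rw [← Finset.sum_mul, ← Finset.mul_sum, wt_sum, mul_one]
    rw [h2]
    refine Finset.sum_le_sum (fun W₂ _ => ?_)
    refine mul_le_mul_of_nonneg_left (hf _ _ Finset.subset_union_left) ?_
    exact mul_nonneg (wt_nonneg hp0 (by linarith) _) (wt_nonneg ht0 ht1 _)

end Vale.Agent.P064
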